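import Mathlib

/-!
Zero-one tables with prescribed row and column sums, column permutations acting on a set of rows,
and averaging operators (conditional expectations).  DEFINITIONS ONLY.
-/

namespace Vale.Agent.Lib.P335

open Finset

section avg

variable {Ω K : Type*} [Fintype Ω] [DecidableEq K]

/-- average of `f` over the class `{y | p y = p x}` of `x` -/
noncomputable def avgK (p : Ω → K) (f : Ω → ℝ) (x : Ω) : ℝ :=
  (∑ y ∈ univ.filter (fun y => p y = p x), f y) / ((univ.filter (fun y => p y = p x)).card : ℝ)

end avg

variable {ι κ : Type*} [Fintype ι] [DecidableEq ι] [Fintype κ] [DecidableEq κ]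

/-- `X i` is the set of columns in which row `i` has a one. -/
def IsTab (r : ι → ℕ) (c : κ → ℕ) (X : ι → Finset κ) : Prop :=
  (∀ i, (X i).card = r i) ∧ ∀ j, (univ.filter (fun i => j ∈ X i)).card = c j

instance (r : ι → ℕ) (c : κ → ℕ) : DecidablePred (IsTab r c) := fun X => by
  unfold IsTab; infer_instance

/-- tables with margins `r`, `c` -/
abbrev Tab (r : ι → ℕ) (c : κ → ℕ) := {X : ι → Finset κ // IsTab r c X}

/-- permute the columns by `π`, but only in the rows of `I` -/
def act (I : Finset ι) (π : Equiv.Perm κ) (X : ι → Finset κ) : ι → Finset κ :=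
  fun i => if i ∈ I then (X i).map π.toEmbedding else X i

/-- exchange the columns `j`, `j'` inside the rows of `I`, if this keeps the margins -/
def tau {r : ι → ℕ} {c : κ → ℕ} (I : Finset ι) (j j' : κ) (X : Tab r c) : Tab r c :=
  if h : IsTab r c (act I (Equiv.swap j j') X.1) then ⟨_, h⟩ else X

/-- number of ones of column `j` inside the rows of `I` -/
def colsum (I : Finset ι) (X : ι → Finset κ) (j : κ) : ℕ := (I.filter (fun i => j ∈ X i)).card

/-- the table with the rows of `I` erased: `key I X = key I Y` iff `X`, `Y` agree outside `I` -/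
def key {r : ι → ℕ} {c : κ → ℕ} (I : Finset ι) (X : Tab r c) : ι → Finset κ :=
  fun i => if i ∈ I then ∅ else X.1 i

end Vale.Agent.Lib.P335
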