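import Vale.Agent.Lib.P335.Spectral
import Vale.Agent.Lib.P335.Tables

/-! Toolkit for the averaging operators `avgK`. -/

namespace Vale.Agent.Lib.P335

open Finset

variable {Ω K : Type*} [Fintype Ω] [DecidableEq K]

theorem avgK_card_pos (p : Ω → K) (x : Ω) :
    (0 : ℝ) < ((univ.filter (fun y => p y = p x)).card : ℝ) := by
  have : 0 < (univ.filter (fun y => p y = p x)).card :=
    Finset.card_pos.mpr ⟨x, by simp⟩
  exact_mod_cast this

/-- the average only depends on the class -/
theorem avgK_congr (p : Ω → K) (f : Ω → ℝ) {x y : Ω} (h : p x = p y) :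
    avgK p f x = avgK p f y := by
  unfold avgK; rw [h]

/-- class functions are fixed -/
theorem avgK_of_inv (p : Ω → K) (f : Ω → ℝ) (hf : ∀ x y, p x = p y → f x = f y) :
    avgK p f = f := by
  funext x
  unfold avgK
  have h1 : ∑ y ∈ univ.filter (fun y => p y = p x), f y
      = ((univ.filter (fun y => p y = p x)).card : ℝ) * f x := by
    rw [Finset.sum_congr rfl (fun y hy => hf y x (by simpa using hy))]
    simp
  rw [h1]
  field_simp [(avgK_card_pos p x).ne']

theorem avgK_idem (p : Ω → K) (f : Ω → ℝ) : avgK p (avgK p f) = avgK p f :=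
  avgK_of_inv p _ (fun _ _ h => avgK_congr p f h)

/-- sum over the class in terms of the average -/
theorem sum_class_eq (p : Ω → K) (f : Ω → ℝ) (x : Ω) :
    ∑ y ∈ univ.filter (fun y => p y = p x), f y
      = ((univ.filter (fun y => p y = p x)).card : ℝ) * avgK p f x := by
  unfold avgK
  field_simp [(avgK_card_pos p x).ne']

theorem avgK_add (p : Ω → K) (f g : Ω → ℝ) : avgK p (f + g) = avgK p f + avgK p g := by
  funext x
  simp only [avgK, Pi.add_apply, Finset.sum_add_distrib, add_div]

theorem avgK_smul (p : Ω → K) (a : ℝ) (f : Ω → ℝ) : avgK p (a • f) = a • avgK p f := by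
  funext x
  simp only [avgK, Pi.smul_apply, smul_eq_mul, ← Finset.mul_sum, mul_div_assoc]

/-- `avgK` as a linear map -/
noncomputable def avgL (p : Ω → K) : (Ω → ℝ) →ₗ[ℝ] (Ω → ℝ) where
  toFun := avgK p
  map_add' := avgK_add p
  map_smul' := by intro a f; simpa using avgK_smul p a f

@[simp] theorem avgL_apply (p : Ω → K) (f : Ω → ℝ) : avgL p f = avgK p f := rfl

theorem avgK_symm (p : Ω → K) (f g : Ω → ℝ) :
    ∑ x, f x * avgK p g x = ∑ x, avgK p f x * g x := by
  have key1 : ∀ (u v : Ω → ℝ), ∑ x, u x * avgK p v x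
      = ∑ x, ∑ y, if p y = p x then u x * v y / ((univ.filter (fun z => p z = p x)).card : ℝ)
          else 0 := by
    intro u v
    refine Finset.sum_congr rfl (fun x _ => ?_)
    unfold avgK
    rw [← Finset.sum_filter, mul_div_assoc', Finset.mul_sum, Finset.sum_div]
  rw [key1 f g]
  have : ∑ x, avgK p f x * g x = ∑ x, g x * avgK p f x :=
    Finset.sum_congr rfl (fun x _ => mul_comm _ _)
  rw [this, key1 g f, Finset.sum_comm]
  refine Finset.sum_congr rfl (fun x _ => Finset.sum_congr rfl (fun y _ => ?_))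
  by_cases h : p x = p y
  · rw [if_pos h, if_pos h.symm, h, mul_comm]
  · rw [if_neg h, if_neg (fun h' => h h'.symm)]

theorem avgL_isSymm (p : Ω → K) : IsSymm (avgL p) := fun f g => avgK_symm p f g

/-- equivariance under a bijection that maps classes to classes -/
theorem avgK_comp_equiv (p : Ω → K) (σ : Ω ≃ Ω) (hσ : ∀ x y, p (σ x) = p (σ y) ↔ p x = p y)
    (f : Ω → ℝ) (x : Ω) : avgK p (fun y => f (σ y)) x = avgK p f (σ x) := by
  unfold avgK
  have hmap : (univ.filter (fun y => p y = p (σ x)))
      = (univ.filter (fun y => p y = p x)).map σ.toEmbedding := by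
    ext y
    simp only [mem_filter, mem_univ, true_and, mem_map_equiv]
    rw [← hσ (σ.symm y) x]; simp
  rw [hmap, Finset.sum_map, Finset.card_map]
  rfl

/-- sup bound -/
theorem abs_avgK_le (p : Ω → K) (f : Ω → ℝ) (x : Ω) (M : ℝ)
    (h : ∀ y, p y = p x → |f y| ≤ M) : |avgK p f x| ≤ M := by
  unfold avgK
  rw [abs_div, abs_of_pos (avgK_card_pos p x), div_le_iff₀ (avgK_card_pos p x)]
  calc |∑ y ∈ univ.filter (fun y => p y = p x), f y|
      ≤ ∑ y ∈ univ.filter (fun y => p y = p x), |f y| := Finset.abs_sum_le_sum_abs _ _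
    _ ≤ ∑ y ∈ univ.filter (fun y => p y = p x), M :=
        Finset.sum_le_sum (fun y hy => h y (by simpa using hy))
    _ = M * ((univ.filter (fun y => p y = p x)).card : ℝ) := by simp [mul_comm]

/-- `f - avg f` is orthogonal to class functions; in particular `⟨f, Qf⟩ = ‖Qf‖²`. -/
theorem sum_mul_sub_avgK (p : Ω → K) (f : Ω → ℝ) :
    ∑ x, f x * (f x - avgK p f x) = ∑ x, (f x - avgK p f x) * (f x - avgK p f x) := by
  have h1 : ∑ x, avgK p f x * (f x - avgK p f x) = 0 := by
    have h2 : ∑ x, avgK p f x * avgK p f x = ∑ x, avgK p (avgK p f) x * f x :=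
      avgK_symm p (avgK p f) f
    rw [avgK_idem] at h2
    simp only [mul_sub, Finset.sum_sub_distrib]
    rw [h2]; simp
  have : ∑ x, (f x - avgK p f x) * (f x - avgK p f x)
      = ∑ x, f x * (f x - avgK p f x) - ∑ x, avgK p f x * (f x - avgK p f x) := by
    rw [← Finset.sum_sub_distrib]
    exact Finset.sum_congr rfl (fun x _ => by ring)
  rw [this, h1]; simp

end Vale.Agent.Lib.P335
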