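import Vale.Agent.Lib.P335.Spectral

/-! Module Caputo: abstract local-to-global inequality. -/

namespace Vale.Agent.Lib.P335

open Finset

private theorem cap_sq_expand {ι Ω : Type*} [Fintype ι] [Fintype Ω] (a : ι → ι → Ω → ℝ) :
    ∑ x, (∑ i, ∑ j, a i j x) ^ 2 = ∑ i, ∑ j, ∑ k, ∑ l, ∑ x, a i j x * a k l x := by
  have h1 : ∀ x, (∑ i, ∑ j, a i j x) ^ 2 = ∑ i, ∑ j, ∑ k, ∑ l, a i j x * a k l x := by
    intro x
    rw [sq, Finset.sum_mul]
    refine Finset.sum_congr rfl fun i _ => ?_
    rw [Finset.sum_mul]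
    refine Finset.sum_congr rfl fun j _ => ?_
    rw [Finset.mul_sum]
    refine Finset.sum_congr rfl fun k _ => ?_
    rw [Finset.mul_sum]
  rw [Finset.sum_congr rfl fun x _ => h1 x]
  rw [Finset.sum_comm]
  refine Finset.sum_congr rfl fun i _ => ?_
  rw [Finset.sum_comm]
  refine Finset.sum_congr rfl fun j _ => ?_
  rw [Finset.sum_comm]
  refine Finset.sum_congr rfl fun k _ => ?_
  rw [Finset.sum_comm]

/-- purely combinatorial part: a four-index array with the listed symmetries -/
private theorem cap_comb {ι : Type*} [Fintype ι] [DecidableEq ι] (W : ι → ι → ι → ι → ℝ)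
    (h0a : ∀ i k l, W i i k l = 0) (h0b : ∀ i j k, W i j k k = 0)
    (hs1 : ∀ i j k l, W j i k l = W i j k l) (hs2 : ∀ i j k l, W i j l k = W i j k l)
    (hpos : ∀ i j k l, i ≠ k → i ≠ l → j ≠ k → j ≠ l → 0 ≤ W i j k l)
    (h3 : ∀ i j k, i ≠ j → i ≠ k → j ≠ k → 0 ≤ W i j i k + W i j j k + W i k j k) :
    2 * ∑ i, ∑ j, W i j i j ≤ ∑ i, ∑ j, ∑ k, ∑ l, W i j k l := by
  classical
  set F : ι → ι → ι → ℝ := fun a x y => if a ≠ x ∧ a ≠ y ∧ x ≠ y then W a x a y else 0 with hF
  set P : ι → ι → ι → ι → ℝ := fun i j k l =>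
    if i ≠ k ∧ i ≠ l ∧ j ≠ k ∧ j ≠ l then W i j k l else 0 with hP
  have hpt : ∀ i j k l, W i j k l =
      (if k = i then (if l = j then W i j i j else 0) else 0)
      + (if k = j then (if l = i then W i j i j else 0) else 0)
      + (if k = i then F i j l else 0) + (if l = i then F i j k else 0)
      + (if k = j then F j i l else 0) + (if l = j then F j i k else 0)
      + P i j k l := by
    intro i j k l
    by_cases hij : i = j
    · subst hij
      simp [hF, hP, h0a]
    by_cases hkl : k = l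
    · subst hkl
      have hji : ¬ j = i := fun h => hij h.symm
      by_cases hki : k = i
      · subst hki
        simp [hF, hP, h0b, hij, hji]
      · by_cases hkj : k = j
        · subst hkj
          simp [hF, hP, h0b, hij, hji]
        · simp [hF, hP, h0b, hij, hji, hki, hkj]
    have hji : ¬ j = i := fun h => hij h.symm
    have hlk : ¬ l = k := fun h => hkl h.symm
    by_cases hki : k = i
    · subst hki
      by_cases hlj : l = j
      · subst hlj
        simp [hF, hP, hij, hji]
      · have hjl : ¬ j = l := fun h => hlj h.symm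
        simp [hF, hP, hij, hji, hkl, hlk, hlj, hjl]
    have hik : ¬ i = k := fun h => hki h.symm
    by_cases hkj : k = j
    · subst hkj
      by_cases hli : l = i
      · subst hli
        simp [hF, hP, hij, hji, hs1, hs2]
      · have hil : ¬ i = l := fun h => hli h.symm
        simp [hF, hP, hij, hji, hkl, hlk, hli, hil, hs1]
    have hjk : ¬ j = k := fun h => hkj h.symm
    by_cases hli : l = i
    · subst hli
      simp [hF, hP, hij, hji, hkl, hlk, hki, hik, hkj, hjk, hs2]
    have hil : ¬ i = l := fun h => hli h.symm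
    by_cases hlj : l = j
    · subst hlj
      simp [hF, hP, hij, hji, hkl, hlk, hki, hik, hkj, hjk, hs1, hs2, hli, hil]
    have hjl : ¬ j = l := fun h => hlj h.symm
    simp [hF, hP, hij, hji, hkl, hlk, hki, hik, hkj, hjk, hli, hil, hlj, hjl]
  set Z : ℝ := ∑ a, ∑ x, ∑ y, F a x y with hZ
  have hPpos : 0 ≤ ∑ i, ∑ j, ∑ k, ∑ l, P i j k l := by
    refine Finset.sum_nonneg fun i _ => Finset.sum_nonneg fun j _ =>
      Finset.sum_nonneg fun k _ => Finset.sum_nonneg fun l _ => ?_
    simp only [hP]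
    split_ifs with h
    · exact hpos i j k l h.1 h.2.1 h.2.2.1 h.2.2.2
    · exact le_rfl
  have hZ2 : ∑ i, ∑ j, ∑ l, F j i l = Z := by
    rw [Finset.sum_comm]
  have hZ3 : ∑ i, ∑ j, ∑ k, F k i j = Z := by
    have : ∀ i, ∑ j, ∑ k, F k i j = ∑ k, ∑ j, F k i j := fun i => Finset.sum_comm
    rw [Finset.sum_congr rfl fun i _ => this i, Finset.sum_comm]
  have hZpos : 0 ≤ 3 * Z := by
    have h : 0 ≤ ∑ i, ∑ j, ∑ k, (F i j k + F j i k + F k i j) := by
      refine Finset.sum_nonneg fun i _ => Finset.sum_nonneg fun j _ =>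
        Finset.sum_nonneg fun k _ => ?_
      by_cases hij : i = j
      · subst hij; simp [hF]
      by_cases hik : i = k
      · subst hik; simp [hF]
      by_cases hjk : j = k
      · subst hjk; simp [hF]
      have hji : ¬ j = i := fun h => hij h.symm
      have hki : ¬ k = i := fun h => hik h.symm
      have hkj : ¬ k = j := fun h => hjk h.symm
      have := h3 i j k hij hik hjk
      simp only [hF, ne_eq, hij, hik, hjk, hji, hki, hkj, not_false_eq_true, and_self, if_true]
      have e1 : W j i j k = W i j j k := hs1 i j j k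
      have e2 : W k i k j = W i k j k := by rw [hs1 i k k j, hs2 i k j k]
      rw [e1, e2]; exact this
    simp only [Finset.sum_add_distrib] at h
    rw [hZ2, hZ3] at h
    linarith
  have hsum : ∑ i, ∑ j, ∑ k, ∑ l, W i j k l
      = 2 * ∑ i, ∑ j, W i j i j + 4 * Z + ∑ i, ∑ j, ∑ k, ∑ l, P i j k l := by
    have hA : ∀ i j, ∑ k, ∑ l, W i j k l = W i j i j + W i j i j + ∑ l, F i j l + ∑ k, F i j k
        + ∑ l, F j i l + ∑ k, F j i k + ∑ k, ∑ l, P i j k l := by
      intro i j
      rw [Finset.sum_congr rfl fun k _ => Finset.sum_congr rfl fun l _ => hpt i j k l]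
      simp only [Finset.sum_add_distrib]
      congr 1
      congr 1
      · congr 1
        · congr 1
          · congr 1
            · congr 1
              · simp
              · simp
            · simp [Finset.sum_ite_irrel]
          · simp
        · simp [Finset.sum_ite_irrel]
      · simp
    rw [Finset.sum_congr rfl fun i _ => Finset.sum_congr rfl fun j _ => hA i j]
    simp only [Finset.sum_add_distrib]
    rw [hZ2]
    ring
  rw [hsum]
  linarith

theorem caputo {ι Ω : Type*} [Fintype ι] [DecidableEq ι] [Fintype Ω]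
    (Q : ι → ι → (Ω → ℝ) →ₗ[ℝ] (Ω → ℝ))
    (hQsymm : ∀ i j, Q i j = Q j i)
    (hdiag : ∀ i, Q i i = 0)
    (hsym : ∀ i j, IsSymm (Q i j))
    (hidem : ∀ i j f, Q i j (Q i j f) = Q i j f)
    (hcomm : ∀ i j k l, i ≠ k → i ≠ l → j ≠ k → j ≠ l → ∀ f, Q i j (Q k l f) = Q k l (Q i j f))
    (h3 : ∀ i j k, i ≠ j → i ≠ k → j ≠ k → ∀ f : Ω → ℝ,
        0 ≤ ∑ x, (Q i j f x * Q i k f x + Q i j f x * Q j k f x + Q i k f x * Q j k f x))
    (f : Ω → ℝ) :
    2 * ∑ x, f x * (∑ i, ∑ j, Q i j f) x ≤ ∑ x, ((∑ i, ∑ j, Q i j f) x) ^ 2 := by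
  classical
  set W : ι → ι → ι → ι → ℝ := fun i j k l => ∑ x, Q i j f x * Q k l f x with hW
  have happ : ∀ x, (∑ i, ∑ j, Q i j f) x = ∑ i, ∑ j, Q i j f x := by
    intro x
    simp only [Finset.sum_apply]
  have hR : ∑ x, ((∑ i, ∑ j, Q i j f) x) ^ 2 = ∑ i, ∑ j, ∑ k, ∑ l, W i j k l := by
    rw [Finset.sum_congr rfl fun x _ => by rw [happ x]]
    exact cap_sq_expand (fun i j x => Q i j f x)
  have hdiagW : ∀ i j, ∑ x, f x * Q i j f x = W i j i j := by
    intro i j
    have := hsym i j f (Q i j f)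
    rw [hidem] at this
    exact this
  have hL : ∑ x, f x * (∑ i, ∑ j, Q i j f) x = ∑ i, ∑ j, W i j i j := by
    rw [Finset.sum_congr rfl fun x _ => by rw [happ x, Finset.mul_sum]]
    rw [Finset.sum_comm]
    refine Finset.sum_congr rfl fun i _ => ?_
    rw [Finset.sum_congr rfl fun x _ => Finset.mul_sum _ _ _]
    rw [Finset.sum_comm]
    exact Finset.sum_congr rfl fun j _ => hdiagW i j
  rw [hR, hL]
  refine cap_comb W ?_ ?_ ?_ ?_ ?_ ?_
  · intro i k l; simp [hW, hdiag]
  · intro i j k; simp [hW, hdiag]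
  · intro i j k l; simp only [hW]; rw [hQsymm j i]
  · intro i j k l; simp only [hW]; rw [hQsymm l k]
  · intro i j k l h1 h2 h3' h4
    set v : Ω → ℝ := Q i j (Q k l f) with hv
    have e1 : W i j k l = ∑ x, Q i j f x * v x := by
      have := hsym i j (Q i j f) (Q k l f)
      rw [hidem] at this
      exact this.symm
    have e2 : v = Q k l v := by
      rw [hv, ← hcomm i j k l h1 h2 h3' h4 (Q k l f), hidem]
    have e3 : ∑ x, Q i j f x * v x = ∑ x, v x * v x := by
      have := hsym k l (Q i j f) v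
      rw [← e2, ← hcomm i j k l h1 h2 h3' h4 f] at this
      exact this
    rw [e1, e3]
    exact Finset.sum_nonneg fun x _ => mul_self_nonneg _
  · intro i j k h1 h2 h3'
    have := h3 i j k h1 h2 h3' f
    simp only [Finset.sum_add_distrib] at this
    exact this

end Vale.Agent.Lib.P335
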