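import Mathlib

/-! Module Arith: the closing numerical estimate. -/

namespace Vale.Agent.Lib.P335

theorem final_arith (n t : ℕ) (hn : 4 ≤ n) (ht : n ^ 6 ≤ t) (N M : ℕ) (hN : N ≤ 2 ^ (n * n))
    (hM : M ≤ n ^ 4) (hM0 : 2 ≤ M) :
    (N : ℝ) * (1 - 8 / (4 * (M : ℝ))) ^ t ≤ 1 / 4 := by
  have hMpos : (0 : ℝ) < M := by exact_mod_cast (by omega : 0 < M)
  have hM2 : (2 : ℝ) ≤ M := by exact_mod_cast hM0
  set x : ℝ := 2 / (M : ℝ) with hx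
  have hx0 : 0 ≤ x := by positivity
  have hx1 : x ≤ 1 := by
    rw [hx, div_le_one hMpos]; exact hM2
  have ha : 1 - 8 / (4 * (M : ℝ)) = 1 - x := by
    rw [hx]; field_simp; ring
  rw [ha]
  have ha0 : 0 ≤ 1 - x := by linarith
  have ha1 : 1 - x ≤ 1 := by linarith
  -- Bernoulli
  have hB : (3 : ℝ) ≤ (1 + x) ^ M := by
    have := one_add_mul_le_pow (a := x) (by linarith) M
    have hMx : (M : ℝ) * x = 2 := by rw [hx]; field_simp
    linarith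
  have hprod : ((1 - x) * (1 + x)) ^ M ≤ 1 := by
    apply pow_le_one₀
    · exact mul_nonneg ha0 (by linarith)
    · nlinarith
  have haM : (1 - x) ^ M ≤ 1 / 3 := by
    rw [mul_pow] at hprod
    have h0 : 0 ≤ (1 - x) ^ M := pow_nonneg ha0 M
    nlinarith
  have hexp : M * (n * n) ≤ t := by
    calc M * (n * n) ≤ n ^ 4 * (n * n) := Nat.mul_le_mul_right _ hM
      _ = n ^ 6 := by ring
      _ ≤ t := ht
  have h1 : (1 - x) ^ t ≤ (1 / 3 : ℝ) ^ (n * n) := by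
    calc (1 - x) ^ t ≤ (1 - x) ^ (M * (n * n)) := pow_le_pow_of_le_one ha0 ha1 hexp
      _ = ((1 - x) ^ M) ^ (n * n) := by rw [pow_mul]
      _ ≤ (1 / 3 : ℝ) ^ (n * n) := pow_le_pow_left₀ (pow_nonneg ha0 M) haM _
  have hN' : (N : ℝ) ≤ 2 ^ (n * n) := by exact_mod_cast hN
  have h2 : (N : ℝ) * (1 - x) ^ t ≤ (2 / 3 : ℝ) ^ (n * n) := by
    calc (N : ℝ) * (1 - x) ^ t ≤ 2 ^ (n * n) * (1 / 3 : ℝ) ^ (n * n) :=
          mul_le_mul hN' h1 (pow_nonneg ha0 t) (by positivity)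
      _ = (2 / 3 : ℝ) ^ (n * n) := by rw [← mul_pow]; norm_num
  have h3 : (2 / 3 : ℝ) ^ (n * n) ≤ (2 / 3 : ℝ) ^ 4 := by
    apply pow_le_pow_of_le_one (by norm_num) (by norm_num)
    nlinarith
  calc (N : ℝ) * (1 - x) ^ t ≤ (2 / 3 : ℝ) ^ (n * n) := h2
    _ ≤ (2 / 3 : ℝ) ^ 4 := h3
    _ ≤ 1 / 4 := by norm_num

theorem two_le_card_emb (n : ℕ) (hn : 4 ≤ n) : 2 ≤ Fintype.card (Fin 4 ↪ Fin n) := by
  rw [Fintype.card_embedding_eq]
  simp only [Fintype.card_fin]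
  calc 2 ≤ Nat.descFactorial 4 4 := by decide
    _ ≤ Nat.descFactorial n 4 := Nat.descFactorial_le 4 hn

end Vale.Agent.Lib.P335
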