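import Vale.Agent.Lib.P335.Tables

/-! Basic lemmas on `act`, `tau`, `colsum`, `key`. -/

namespace Vale.Agent.Lib.P335

open Finset

set_option linter.unusedSectionVars false

variable {ι κ : Type*} [Fintype ι] [DecidableEq ι] [Fintype κ] [DecidableEq κ]
variable {r : ι → ℕ} {c : κ → ℕ}

theorem mem_act {I : Finset ι} {π : Equiv.Perm κ} {X : ι → Finset κ} {i : ι} {j : κ} :
    j ∈ act I π X i ↔ if i ∈ I then π.symm j ∈ X i else j ∈ X i := by
  unfold act
  split_ifs <;> simp [Finset.mem_map_equiv]

theorem act_of_mem {I : Finset ι} {π : Equiv.Perm κ} {X : ι → Finset κ} {i : ι} (h : i ∈ I) :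
    act I π X i = (X i).map π.toEmbedding := by
  unfold act; rw [if_pos h]

theorem act_of_not_mem {I : Finset ι} {π : Equiv.Perm κ} {X : ι → Finset κ} {i : ι} (h : i ∉ I) :
    act I π X i = X i := by
  unfold act; rw [if_neg h]

theorem card_act (I : Finset ι) (π : Equiv.Perm κ) (X : ι → Finset κ) (i : ι) :
    (act I π X i).card = (X i).card := by
  unfold act
  split_ifs <;> simp

theorem card_filter_split (I : Finset ι) (p : ι → Prop) [DecidablePred p] :
    (univ.filter p).card = (I.filter p).card + (Iᶜ.filter p).card := by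
  rw [← Finset.card_union_of_disjoint, ← Finset.filter_union, Finset.union_compl]
  exact Finset.disjoint_filter_filter disjoint_compl_right

/-- column sums split into the part inside `I` and the part outside -/
theorem colsum_add_compl (X : Tab r c) (I : Finset ι) (j : κ) :
    colsum I X.1 j + colsum Iᶜ X.1 j = c j := by
  unfold colsum
  rw [← card_filter_split, X.2.2 j]

theorem colsum_congr {I : Finset ι} {X Y : ι → Finset κ} (h : ∀ i ∈ I, X i = Y i) (j : κ) :
    colsum I X j = colsum I Y j := by
  unfold colsum
  congr 1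
  refine Finset.filter_congr (fun i hi => ?_)
  rw [h i hi]

theorem colsum_act_self (I : Finset ι) (π : Equiv.Perm κ) (X : ι → Finset κ) (j : κ) :
    colsum I (act I π X) j = colsum I X (π.symm j) := by
  unfold colsum
  congr 1
  refine Finset.filter_congr (fun i hi => ?_)
  rw [mem_act, if_pos hi]

theorem colsum_act_compl (I : Finset ι) (π : Equiv.Perm κ) (X : ι → Finset κ) (j : κ) :
    colsum Iᶜ (act I π X) j = colsum Iᶜ X j :=
  colsum_congr (fun i hi => act_of_not_mem (by simpa using hi)) j

theorem isTab_act_iff (X : Tab r c) (I : Finset ι) (π : Equiv.Perm κ) :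
    IsTab r c (act I π X.1) ↔ ∀ j, colsum I X.1 (π.symm j) = colsum I X.1 j := by
  unfold IsTab
  constructor
  · rintro ⟨_, h⟩ j
    have h1 := h j
    rw [card_filter_split I] at h1
    have h2 := colsum_act_self I π X.1 j
    have h3 := colsum_act_compl I π X.1 j
    have h4 := colsum_add_compl X I j
    unfold colsum at h2 h3 h4 ⊢
    omega
  · intro h
    refine ⟨fun i => by rw [card_act, X.2.1 i], fun j => ?_⟩
    rw [card_filter_split I]
    have h1 := h j
    have h2 := colsum_act_self I π X.1 j
    have h3 := colsum_act_compl I π X.1 j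
    have h4 := colsum_add_compl X I j
    unfold colsum at h1 h2 h3 h4
    omega

theorem isTab_act_swap_iff (X : Tab r c) (I : Finset ι) (a b : κ) :
    IsTab r c (act I (Equiv.swap a b) X.1) ↔ colsum I X.1 a = colsum I X.1 b := by
  rw [isTab_act_iff]
  constructor
  · intro h
    have := h b
    simpa using this
  · intro h j
    rw [Equiv.symm_swap]
    by_cases hja : j = a
    · subst hja; simp [h]
    · by_cases hjb : j = b
      · subst hjb; simp [h]
      · rw [Equiv.swap_apply_of_ne_of_ne hja hjb]

theorem tau_val_of_eq {I : Finset ι} {a b : κ} {X : Tab r c}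
    (h : colsum I X.1 a = colsum I X.1 b) : (tau I a b X).1 = act I (Equiv.swap a b) X.1 := by
  unfold tau
  rw [dif_pos ((isTab_act_swap_iff X I a b).mpr h)]

theorem tau_of_ne {I : Finset ι} {a b : κ} {X : Tab r c}
    (h : colsum I X.1 a ≠ colsum I X.1 b) : tau I a b X = X := by
  unfold tau
  rw [dif_neg (fun h' => h ((isTab_act_swap_iff X I a b).mp h'))]

/-- rows outside `I` are never touched -/
theorem tau_row_of_not_mem (I : Finset ι) (a b : κ) (X : Tab r c) {i : ι} (hi : i ∉ I) :
    (tau I a b X).1 i = X.1 i := by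
  by_cases h : colsum I X.1 a = colsum I X.1 b
  · rw [tau_val_of_eq h, act_of_not_mem hi]
  · rw [tau_of_ne h]

theorem mem_tau_of_eq {I : Finset ι} {a b : κ} {X : Tab r c}
    (h : colsum I X.1 a = colsum I X.1 b) {i : ι} (hi : i ∈ I) (j : κ) :
    j ∈ (tau I a b X).1 i ↔ Equiv.swap a b j ∈ X.1 i := by
  rw [tau_val_of_eq h, mem_act, if_pos hi, Equiv.symm_swap]

/-- a row containing both or none of the two columns is not changed -/
theorem tau_row_of_iff (I : Finset ι) (a b : κ) (X : Tab r c) {i : ι}
    (hi : a ∈ X.1 i ↔ b ∈ X.1 i) : (tau I a b X).1 i = X.1 i := by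
  by_cases hI : i ∈ I
  · by_cases h : colsum I X.1 a = colsum I X.1 b
    · ext j
      rw [mem_tau_of_eq h hI]
      by_cases hja : j = a
      · subst hja; simp [hi]
      · by_cases hjb : j = b
        · subst hjb; simp [hi]
        · rw [Equiv.swap_apply_of_ne_of_ne hja hjb]
    · rw [tau_of_ne h]
  · exact tau_row_of_not_mem I a b X hI

theorem key_eq_iff {I : Finset ι} {X Y : Tab r c} :
    key I X = key I Y ↔ ∀ i, i ∉ I → X.1 i = Y.1 i := by
  unfold key
  constructor
  · intro h i hi
    have := congrFun h i
    simpa [hi] using this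
  · intro h
    funext i
    by_cases hi : i ∈ I
    · simp [hi]
    · simp [hi, h i hi]

theorem tau_key (I : Finset ι) (a b : κ) (X : Tab r c) : key I (tau I a b X) = key I X :=
  key_eq_iff.mpr (fun _ hi => tau_row_of_not_mem I a b X hi)

theorem key_mono {I J : Finset ι} (hIJ : I ⊆ J) {X Y : Tab r c} (h : key I X = key I Y) :
    key J X = key J Y :=
  key_eq_iff.mpr (fun i hi => key_eq_iff.mp h i (fun hi' => hi (hIJ hi')))

/-- tables that agree outside `I` have the same column sums inside `I` -/
theorem colsum_eq_of_key {I : Finset ι} {X Y : Tab r c} (h : key I X = key I Y) (j : κ) :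
    colsum I X.1 j = colsum I Y.1 j := by
  have h1 := colsum_add_compl X I j
  have h2 := colsum_add_compl Y I j
  have h3 : colsum Iᶜ X.1 j = colsum Iᶜ Y.1 j :=
    colsum_congr (fun i hi => key_eq_iff.mp h i (by simpa using hi)) j
  omega

theorem colsum_tau (I : Finset ι) (a b : κ) (X : Tab r c) (j : κ) :
    colsum I (tau I a b X).1 j = colsum I X.1 j :=
  colsum_eq_of_key (tau_key I a b X) j

theorem tau_invol (I : Finset ι) (a b : κ) (X : Tab r c) : tau I a b (tau I a b X) = X := by
  by_cases h : colsum I X.1 a = colsum I X.1 b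
  · have h' : colsum I (tau I a b X).1 a = colsum I (tau I a b X).1 b := by
      rw [colsum_tau, colsum_tau, h]
    apply Subtype.ext
    funext i
    by_cases hi : i ∈ I
    · ext j
      rw [mem_tau_of_eq h' hi, mem_tau_of_eq h hi, Equiv.swap_apply_self]
    · rw [tau_row_of_not_mem _ _ _ _ hi, tau_row_of_not_mem _ _ _ _ hi]
  · rw [tau_of_ne h, tau_of_ne h]

/-- `tau` as a permutation of the set of tables -/
def tauEquiv (I : Finset ι) (a b : κ) : Tab r c ≃ Tab r c where
  toFun := tau I a b
  invFun := tau I a b
  left_inv := tau_invol I a b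
  right_inv := tau_invol I a b

@[simp] theorem tauEquiv_apply (I : Finset ι) (a b : κ) (X : Tab r c) :
    tauEquiv I a b X = tau I a b X := rfl

theorem tau_comm_cols (I : Finset ι) (a b : κ) (X : Tab r c) : tau I a b X = tau I b a X := by
  unfold tau
  simp only [Equiv.swap_comm a b]

theorem tau_self (I : Finset ι) (a : κ) (X : Tab r c) : tau I a a X = X := by
  apply Subtype.ext
  funext i
  exact tau_row_of_iff I a a X Iff.rfl

/-- `tau I a b` maps tables agreeing outside `J` to tables agreeing outside `J`, as soon as the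
move is allowed for both or for none. -/
theorem key_tau_congr {I J : Finset ι} {a b : κ} {X Y : Tab r c} (h : key J X = key J Y)
    (hv : colsum I X.1 a = colsum I X.1 b ↔ colsum I Y.1 a = colsum I Y.1 b) :
    key J (tau I a b X) = key J (tau I a b Y) := by
  rw [key_eq_iff] at h ⊢
  intro i hi
  by_cases hX : colsum I X.1 a = colsum I X.1 b
  · rw [tau_val_of_eq hX, tau_val_of_eq (hv.mp hX)]
    unfold act
    rw [h i hi]
  · rw [tau_of_ne hX, tau_of_ne (fun h' => hX (hv.mpr h'))]
    exact h i hi

/-- case `J ⊆ I` -/
theorem key_tau_iff_of_subset {I J : Finset ι} (hJI : J ⊆ I) (a b : κ) (X Y : Tab r c) :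
    key J (tau I a b X) = key J (tau I a b Y) ↔ key J X = key J Y := by
  have main : ∀ X Y : Tab r c, key J X = key J Y → key J (tau I a b X) = key J (tau I a b Y) := by
    intro X Y h
    refine key_tau_congr h ?_
    rw [colsum_eq_of_key (key_mono hJI h) a, colsum_eq_of_key (key_mono hJI h) b]
  constructor
  · intro h
    have := main _ _ h
    rwa [tau_invol, tau_invol] at this
  · exact main X Y

/-- case `I`, `J` disjoint -/
theorem key_tau_iff_of_disjoint {I J : Finset ι} (hJI : Disjoint I J) (a b : κ) (X Y : Tab r c) :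
    key J (tau I a b X) = key J (tau I a b Y) ↔ key J X = key J Y := by
  have main : ∀ X Y : Tab r c, key J X = key J Y → key J (tau I a b X) = key J (tau I a b Y) := by
    intro X Y h
    refine key_tau_congr h ?_
    have hrow : ∀ i ∈ I, X.1 i = Y.1 i :=
      fun i hi => key_eq_iff.mp h i (Finset.disjoint_left.mp hJI hi)
    rw [colsum_congr hrow a, colsum_congr hrow b]
  constructor
  · intro h
    have := main _ _ h
    rwa [tau_invol, tau_invol] at this
  · exact main X Y

/-- tables agreeing outside the single row `i` are equal -/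
theorem eq_of_key_singleton {i : ι} {X Y : Tab r c} (h : key {i} X = key {i} Y) : X = Y := by
  apply Subtype.ext
  funext i'
  by_cases hi : i' = i
  · subst hi
    ext j
    have := colsum_eq_of_key h j
    unfold colsum at this
    by_cases h1 : j ∈ X.1 i' <;> by_cases h2 : j ∈ Y.1 i' <;>
      simp_all [Finset.filter_singleton]
  · exact key_eq_iff.mp h i' (by simpa using hi)

end Vale.Agent.Lib.P335
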