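import Vale.Agent.Lib.P335.Tables
import Vale.Agent.Lib.P335.TabLemmas

/-! Module Connect: Ryser's interchange theorem. -/

namespace Vale.Agent.Lib.P335

open Finset

theorem conn_exists_row {ι κ : Type*} [DecidableEq ι] [DecidableEq κ]
    (R : Finset ι) (X : ι → Finset κ) (j j' : κ) (h : colsum R X j < colsum R X j') :
    ∃ i ∈ R, j' ∈ X i ∧ j ∉ X i := by
  by_contra hcon
  push Not at hcon
  have hsub : R.filter (fun i => j' ∈ X i) ⊆ R.filter (fun i => j ∈ X i) := by
    intro i hi
    rw [Finset.mem_filter] at hi ⊢
    exact ⟨hi.1, hcon i hi.1 hi.2⟩
  have := Finset.card_le_card hsub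
  unfold colsum at h
  omega

theorem conn_colsum_insert {ι κ : Type*} [DecidableEq ι] [DecidableEq κ]
    (I : Finset ι) (i0 : ι) (hi0 : i0 ∉ I) (X : ι → Finset κ) (j : κ) :
    colsum (insert i0 I) X j = colsum I X j + if j ∈ X i0 then 1 else 0 := by
  unfold colsum
  rw [Finset.filter_insert]
  split_ifs with h
  · rw [Finset.card_insert_of_notMem]
    intro hmem
    exact hi0 (Finset.mem_filter.mp hmem).1
  · simp

theorem conn_colsum_pair {ι κ : Type*} [DecidableEq ι] [DecidableEq κ]
    (i0 i1 : ι) (hne : i0 ≠ i1) (X : ι → Finset κ) (j : κ) :
    colsum {i0, i1} X j = (if j ∈ X i0 then 1 else 0) + if j ∈ X i1 then 1 else 0 := by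
  rw [conn_colsum_insert {i1} i0 (by simpa using hne)]
  unfold colsum
  rw [Finset.filter_singleton]
  split_ifs <;> simp

theorem table_connected {ι κ : Type*} [Fintype ι] [DecidableEq ι] [Fintype κ] [DecidableEq κ]
    (r : ι → ℕ) (c : κ → ℕ) (f : Tab r c → ℝ)
    (hf : ∀ (i i' : ι) (j j' : κ) (X : Tab r c), f (tau {i, i'} j j' X) = f X) :
    ∀ X Y : Tab r c, f X = f Y := by
  have main : ∀ n : ℕ, ∀ I : Finset ι, (Iᶜ).card = n → ∀ X Y : Tab r c,
      (∀ i ∈ I, X.1 i = Y.1 i) → f X = f Y := by
    intro n
    induction n with
    | zero =>
      intro I hI X Y h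
      have hIu : Iᶜ = ∅ := Finset.card_eq_zero.mp hI
      have : X = Y := by
        apply Subtype.ext
        funext i
        apply h
        by_contra hi
        have : i ∈ Iᶜ := by simpa using hi
        rw [hIu] at this
        simp at this
      rw [this]
    | succ n ih =>
      intro I hI
      have hne : (Iᶜ).Nonempty := by
        rw [← Finset.card_pos]; omega
      obtain ⟨i0, hi0⟩ := hne
      have hi0' : i0 ∉ I := by simpa using hi0
      have hcard' : ((insert i0 I)ᶜ).card = n := by
        have h1 : (insert i0 I)ᶜ = (Iᶜ).erase i0 := by
          ext x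
          simp only [Finset.mem_compl, Finset.mem_insert, Finset.mem_erase, not_or]
        rw [h1, Finset.card_erase_of_mem hi0, hI]
        simp
      have inner : ∀ k : ℕ, ∀ X Y : Tab r c, (∀ i ∈ I, X.1 i = Y.1 i) →
          (X.1 i0 \ Y.1 i0).card = k → f X = f Y := by
        intro k
        induction k with
        | zero =>
          intro X Y h hk
          apply ih (insert i0 I) hcard' X Y
          intro i hi
          rcases Finset.mem_insert.mp hi with rfl | hi
          · have hsub : X.1 i ⊆ Y.1 i := by
              rw [← Finset.sdiff_eq_empty_iff_subset]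
              exact Finset.card_eq_zero.mp hk
            exact Finset.eq_of_subset_of_card_le hsub (by rw [X.2.1 i, Y.2.1 i])
          · exact h i hi
        | succ k ihk =>
          intro X Y h hk
          have hne1 : (X.1 i0 \ Y.1 i0).Nonempty := by
            rw [← Finset.card_pos]; omega
          obtain ⟨j, hj⟩ := hne1
          rw [Finset.mem_sdiff] at hj
          have hcardYX : (Y.1 i0 \ X.1 i0).card = (X.1 i0 \ Y.1 i0).card := by
            have h1 := Finset.card_sdiff_add_card_inter (X.1 i0) (Y.1 i0)
            have h2 := Finset.card_sdiff_add_card_inter (Y.1 i0) (X.1 i0)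
            rw [Finset.inter_comm] at h2
            rw [X.2.1 i0] at h1
            rw [Y.2.1 i0] at h2
            omega
          have hne2 : (Y.1 i0 \ X.1 i0).Nonempty := by
            rw [← Finset.card_pos]; omega
          obtain ⟨j', hj'⟩ := hne2
          rw [Finset.mem_sdiff] at hj'
          have hjj' : j ≠ j' := by
            intro e; rw [e] at hj; exact hj.2 hj'.1
          -- column sums
          have hXj := colsum_add_compl X (insert i0 I) j
          have hXj' := colsum_add_compl X (insert i0 I) j'
          have hYj := colsum_add_compl Y (insert i0 I) j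
          have hYj' := colsum_add_compl Y (insert i0 I) j'
          have eXj := conn_colsum_insert I i0 hi0' X.1 j
          have eXj' := conn_colsum_insert I i0 hi0' X.1 j'
          have eYj := conn_colsum_insert I i0 hi0' Y.1 j
          have eYj' := conn_colsum_insert I i0 hi0' Y.1 j'
          rw [if_pos hj.1] at eXj
          rw [if_neg hj'.2] at eXj'
          rw [if_neg hj.2] at eYj
          rw [if_pos hj'.1] at eYj'
          have eIj : colsum I X.1 j = colsum I Y.1 j := colsum_congr h j
          have eIj' : colsum I X.1 j' = colsum I Y.1 j' := colsum_congr h j'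
          by_cases hcase : colsum (insert i0 I)ᶜ X.1 j < colsum (insert i0 I)ᶜ X.1 j'
          · obtain ⟨i1, hi1, hi1a, hi1b⟩ := conn_exists_row (insert i0 I)ᶜ X.1 j j' hcase
            have hi1J : i1 ∉ insert i0 I := by simpa using hi1
            have hi1ne : i0 ≠ i1 := by
              intro e; apply hi1J; rw [← e]; exact Finset.mem_insert_self _ _
            have hi1I : i1 ∉ I := fun hh => hi1J (Finset.mem_insert_of_mem hh)
            have hcs : colsum {i0, i1} X.1 j = colsum {i0, i1} X.1 j' := by
              rw [conn_colsum_pair i0 i1 hi1ne, conn_colsum_pair i0 i1 hi1ne,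
                if_pos hj.1, if_neg hi1b, if_neg hj'.2, if_pos hi1a]
            rw [← hf i0 i1 j j' X]
            apply ihk
            · intro i hi
              rw [tau_row_of_not_mem]
              · exact h i hi
              · intro hmem
                rcases Finset.mem_insert.mp hmem with e | e
                · exact hi0' (e ▸ hi)
                · rw [Finset.mem_singleton] at e
                  exact hi1I (e ▸ hi)
            · have hset : ((tau {i0, i1} j j' X).1 i0 \ Y.1 i0) = (X.1 i0 \ Y.1 i0).erase j := by
                ext x
                rw [Finset.mem_sdiff, mem_tau_of_eq hcs (by simp), Finset.mem_erase,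
                  Finset.mem_sdiff]
                by_cases hxj : x = j
                · subst hxj
                  simp [hj'.2]
                · by_cases hxj' : x = j'
                  · subst hxj'
                    simp [hj'.1, hj'.2]
                  · rw [Equiv.swap_apply_of_ne_of_ne hxj hxj']
                    simp [hxj]
              rw [hset, Finset.card_erase_of_mem (Finset.mem_sdiff.mpr hj), hk]
              simp
          · have hcase2 : colsum (insert i0 I)ᶜ Y.1 j' < colsum (insert i0 I)ᶜ Y.1 j := by omega
            obtain ⟨i1, hi1, hi1a, hi1b⟩ := conn_exists_row (insert i0 I)ᶜ Y.1 j' j hcase2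
            have hi1J : i1 ∉ insert i0 I := by simpa using hi1
            have hi1ne : i0 ≠ i1 := by
              intro e; apply hi1J; rw [← e]; exact Finset.mem_insert_self _ _
            have hi1I : i1 ∉ I := fun hh => hi1J (Finset.mem_insert_of_mem hh)
            have hcs : colsum {i0, i1} Y.1 j = colsum {i0, i1} Y.1 j' := by
              rw [conn_colsum_pair i0 i1 hi1ne, conn_colsum_pair i0 i1 hi1ne,
                if_neg hj.2, if_pos hi1a, if_pos hj'.1, if_neg hi1b]
            rw [← hf i0 i1 j j' Y]
            apply ihk
            · intro i hi
              rw [tau_row_of_not_mem]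
              · exact h i hi
              · intro hmem
                rcases Finset.mem_insert.mp hmem with e | e
                · exact hi0' (e ▸ hi)
                · rw [Finset.mem_singleton] at e
                  exact hi1I (e ▸ hi)
            · have hset : (X.1 i0 \ (tau {i0, i1} j j' Y).1 i0) = (X.1 i0 \ Y.1 i0).erase j := by
                ext x
                rw [Finset.mem_sdiff, mem_tau_of_eq hcs (by simp), Finset.mem_erase,
                  Finset.mem_sdiff]
                by_cases hxj : x = j
                · subst hxj
                  simp [hj'.1]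
                · by_cases hxj' : x = j'
                  · subst hxj'
                    simp [hj'.2]
                  · rw [Equiv.swap_apply_of_ne_of_ne hxj hxj']
                    simp [hxj]
              rw [hset, Finset.card_erase_of_mem (Finset.mem_sdiff.mpr hj), hk]
              simp
      intro X Y h
      exact inner _ X Y h rfl
  intro X Y
  exact main _ ∅ rfl X Y (by simp)

end Vale.Agent.Lib.P335
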