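import Vale.Agent.Lib.P335.ThreeD

/-! Three rows, part E: the spectral statement. -/

namespace Vale.Agent.Lib.P335

open Finset

set_option linter.unusedSectionVars false

variable {ι κ : Type*} [Fintype ι] [DecidableEq ι] [Fintype κ] [DecidableEq κ]
variable {r : ι → ℕ} {c : κ → ℕ}

/-- If `E_{lm} v + E_{km} v + E_{kl} v = lam v` with `lam > 2`, then `v` is constant on the classes of
tables agreeing outside the three rows. -/
theorem threerow_const {T : Finset ι} (hT : T.card = 3) (lam : ℝ) (hlam : 2 < lam)
    (v : Tab r c → ℝ) (hv : ∀ X, ∑ a ∈ T, avgK (key (T.erase a)) v X = lam * v X)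
    (X Y : Tab r c) (hkey : key T X = key T Y) : v X = v Y := by
  have S : Sys T (lam - 1) (fun a => avgK (key (T.erase a)) v) := by
    refine ⟨hT, by linarith, fun a _ X Y h => avgK_congr _ _ h, fun a ha X => ?_⟩
    have h1 : (fun Y => ∑ b ∈ T.erase a, avgK (key (T.erase b)) v Y)
        = lam • v + (-1 : ℝ) • avgK (key (T.erase a)) v := by
      funext Y
      have := hv Y
      rw [← Finset.add_sum_erase T _ ha] at this
      simp only [Pi.add_apply, Pi.smul_apply, smul_eq_mul]
      linarith
    rw [h1, avgK_add, avgK_smul, avgK_smul, avgK_idem]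
    simp only [Pi.add_apply, Pi.smul_apply, smul_eq_mul]
    ring
  have h1 := hv X
  have h2 := hv Y
  have h3 : ∑ a ∈ T, avgK (key (T.erase a)) v X = ∑ a ∈ T, avgK (key (T.erase a)) v Y :=
    Finset.sum_congr rfl (fun a ha => S.rigid ha hkey)
  have h4 : lam * v X = lam * v Y := by rw [← h1, ← h2, h3]
  exact mul_left_cancel₀ (by linarith) h4

end Vale.Agent.Lib.P335
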