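import Vale.Agent.Lib.P335.TabLemmas

/-! Transitivity of column exchanges on a row; two-row connectivity. -/

namespace Vale.Agent.Lib.P335

open Finset

set_option linter.unusedSectionVars false

variable {ι κ : Type*} [Fintype ι] [DecidableEq ι] [Fintype κ] [DecidableEq κ]
variable {r : ι → ℕ} {c : κ → ℕ}

/-- explicit form of a row after an allowed exchange -/
theorem tau_row_swap {I : Finset ι} {a b : κ} {X : Tab r c}
    (h : colsum I X.1 a = colsum I X.1 b) {k : ι} (hk : k ∈ I) (ha : a ∈ X.1 k) (hb : b ∉ X.1 k) :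
    (tau I a b X).1 k = insert b ((X.1 k).erase a) := by
  have hab : a ≠ b := fun e => hb (e ▸ ha)
  ext j
  rw [mem_tau_of_eq h hk]
  by_cases hja : j = a
  · subst hja; simp [hb, hab]
  · by_cases hjb : j = b
    · subst hjb; simp [ha]
    · rw [Equiv.swap_apply_of_ne_of_ne hja hjb]; simp [hja, hjb]

theorem tau_row_swap' {I : Finset ι} {a b : κ} {X : Tab r c}
    (h : colsum I X.1 a = colsum I X.1 b) {k : ι} (hk : k ∈ I) (ha : a ∉ X.1 k) (hb : b ∈ X.1 k) :
    (tau I a b X).1 k = insert a ((X.1 k).erase b) := by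
  rw [tau_comm_cols]
  exact tau_row_swap h.symm hk hb ha

theorem row_transitive (I : Finset ι) (k : ι) (hk : k ∈ I) (f : Tab r c → ℝ)
    (hf : ∀ a b X, f (tau I a b X) = f X)
    (hrow : ∀ X Y : Tab r c, key I X = key I Y → X.1 k = Y.1 k → f X = f Y)
    (Y : Tab r c) : ∀ (n : ℕ) (X : Tab r c), (X.1 k \ Y.1 k).card = n → key I X = key I Y →
      (∀ t, ((X.1 k \ Y.1 k).filter (fun j => colsum I X.1 j = t)).card
        = ((Y.1 k \ X.1 k).filter (fun j => colsum I X.1 j = t)).card) → f X = f Y := by
  intro n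
  induction n with
  | zero =>
    intro X hn hkey _
    refine hrow X Y hkey ?_
    have hsub : X.1 k ⊆ Y.1 k := by
      rw [← Finset.sdiff_eq_empty_iff_subset]; exact Finset.card_eq_zero.mp hn
    exact Finset.eq_of_subset_of_card_le hsub (by rw [X.2.1 k, Y.2.1 k])
  | succ n ih =>
    intro X hn hkey H
    obtain ⟨a, ha⟩ : (X.1 k \ Y.1 k).Nonempty := by
      rw [← Finset.card_pos]; omega
    have hb' : (((Y.1 k \ X.1 k).filter (fun j => colsum I X.1 j = colsum I X.1 a))).Nonempty := by
      rw [← Finset.card_pos, ← H]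
      exact Finset.card_pos.mpr ⟨a, by simp [ha]⟩
    obtain ⟨b, hb⟩ := hb'
    rw [Finset.mem_filter, Finset.mem_sdiff] at hb
    rw [Finset.mem_sdiff] at ha
    obtain ⟨⟨hbY, hbX⟩, hcol⟩ := hb
    obtain ⟨haX, haY⟩ := ha
    have hab : a ≠ b := fun e => hbX (e ▸ haX)
    have hrowk := tau_row_swap hcol.symm hk haX hbX
    have e1 : (tau I a b X).1 k \ Y.1 k = (X.1 k \ Y.1 k).erase a := by
      rw [hrowk]
      ext j
      simp only [mem_sdiff, mem_insert, mem_erase]
      constructor
      · rintro ⟨h1 | h1, h2⟩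
        · exact absurd (h1 ▸ hbY) h2
        · exact ⟨h1.1, h1.2, h2⟩
      · rintro ⟨h1, h2, h3⟩
        exact ⟨Or.inr ⟨h1, h2⟩, h3⟩
    have e2 : Y.1 k \ (tau I a b X).1 k = (Y.1 k \ X.1 k).erase b := by
      rw [hrowk]
      ext j
      simp only [mem_sdiff, mem_insert, mem_erase, not_or, not_and]
      constructor
      · rintro ⟨h1, h2, h3⟩
        refine ⟨h2, h1, fun h4 => ?_⟩
        exact h3 (fun e => haY (e ▸ h1)) h4
      · rintro ⟨h1, h2, h3⟩
        exact ⟨h2, h1, fun _ h4 => h3 h4⟩
    rw [← hf a b X]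
    refine ih (tau I a b X) ?_ ((tau_key I a b X).trans hkey) ?_
    · rw [e1, Finset.card_erase_of_mem (by simp [haX, haY]), hn]; rfl
    · intro t
      simp only [colsum_tau]
      rw [e1, e2, Finset.filter_erase, Finset.filter_erase]
      by_cases ht : colsum I X.1 a = t
      · rw [Finset.card_erase_of_mem (by simp [haX, haY, ht]),
          Finset.card_erase_of_mem (by simp [hbX, hbY, hcol, ht]), H t]
      · rw [Finset.erase_eq_of_notMem (by simp [ht]),
          Finset.erase_eq_of_notMem (by simp [hcol, ht]), H t]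

theorem colsum_pair {i i' : ι} (h : i ≠ i') (X : ι → Finset κ) (j : κ) :
    colsum {i, i'} X j = (if j ∈ X i then 1 else 0) + (if j ∈ X i' then 1 else 0) := by
  unfold colsum
  rw [Finset.filter_insert, Finset.filter_singleton]
  by_cases h1 : j ∈ X i <;> by_cases h2 : j ∈ X i' <;> simp [h1, h2, h]

/-- a function invariant under all exchanges in the rows `i`, `i'` is constant on the classes of
tables agreeing outside these two rows -/
theorem tworow_connected (i i' : ι) (f : Tab r c → ℝ)
    (hf : ∀ a b X, f (tau {i, i'} a b X) = f X) (X Y : Tab r c)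
    (hkey : key {i, i'} X = key {i, i'} Y) : f X = f Y := by
  by_cases hii : i = i'
  · subst hii
    rw [Finset.pair_eq_singleton] at hkey
    rw [eq_of_key_singleton hkey]
  refine row_transitive {i, i'} i (by simp) f hf ?_ Y _ X rfl hkey ?_
  · intro X Y hk hrow
    have : key {i'} X = key {i'} Y := by
      rw [key_eq_iff] at hk ⊢
      intro l hl
      by_cases hli : l = i
      · subst hli; exact hrow
      · exact hk l (by simp at hl; simp [hli, hl])
    rw [eq_of_key_singleton this]
  · have hc : ∀ j, colsum {i, i'} X.1 j = colsum {i, i'} Y.1 j := colsum_eq_of_key hkey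
    have h1 : ∀ j ∈ X.1 i \ Y.1 i, colsum {i, i'} X.1 j = 1 := by
      intro j hj
      rw [Finset.mem_sdiff] at hj
      have := hc j
      rw [colsum_pair hii, colsum_pair hii] at this
      rw [colsum_pair hii]
      simp only [hj.1, hj.2, if_true, if_false] at this ⊢
      split_ifs at this ⊢ <;> omega
    have h2 : ∀ j ∈ Y.1 i \ X.1 i, colsum {i, i'} X.1 j = 1 := by
      intro j hj
      rw [Finset.mem_sdiff] at hj
      have := hc j
      rw [colsum_pair hii, colsum_pair hii] at this
      rw [colsum_pair hii]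
      simp only [hj.1, hj.2, if_true, if_false] at this ⊢
      split_ifs at this ⊢ <;> omega
    have hcard : (X.1 i \ Y.1 i).card = (Y.1 i \ X.1 i).card := by
      have e1 := Finset.card_sdiff_add_card_inter (X.1 i) (Y.1 i)
      have e2 := Finset.card_sdiff_add_card_inter (Y.1 i) (X.1 i)
      rw [Finset.inter_comm] at e2
      rw [X.2.1 i] at e1
      rw [Y.2.1 i] at e2
      omega
    intro t
    by_cases ht : t = 1
    · subst ht
      rw [Finset.filter_true_of_mem h1, Finset.filter_true_of_mem h2, hcard]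
    · rw [Finset.filter_false_of_mem (fun j hj => by rw [h1 j hj]; exact fun e => ht e.symm),
        Finset.filter_false_of_mem (fun j hj => by rw [h2 j hj]; exact fun e => ht e.symm)]

end Vale.Agent.Lib.P335
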