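import Vale.Agent.Lib.P335.Spectral
import Vale.Agent.Lib.P335.Tables
import Vale.Agent.Lib.P335.Avg
import Vale.Agent.Lib.P335.Fibre

/-! Module TwoRow: Poincare inequality for the two-row (Bernoulli-Laplace type) chain. -/

namespace Vale.Agent.Lib.P335

open Finset

set_option linter.unusedSectionVars false

section

variable {ι κ : Type*} [Fintype ι] [DecidableEq ι] [Fintype κ] [DecidableEq κ]
variable {r : ι → ℕ} {c : κ → ℕ}

/-- conjugation of an exchange by an allowed exchange -/
private theorem two_tau_conj (I : Finset ι) (a b j j' : κ) (X : Tab r c)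
    (h0 : colsum I X.1 a = colsum I X.1 b) :
    tau I (Equiv.swap a b j) (Equiv.swap a b j') (tau I a b X) = tau I a b (tau I j j' X) := by
  have hs : ∀ l, colsum I X.1 (Equiv.swap a b l) = colsum I X.1 l := by
    intro l
    by_cases hla : l = a
    · subst hla; simp [h0]
    · by_cases hlb : l = b
      · subst hlb; simp [h0]
      · rw [Equiv.swap_apply_of_ne_of_ne hla hlb]
  by_cases hA : colsum I X.1 j = colsum I X.1 j'
  · have h1 : colsum I (tau I a b X).1 (Equiv.swap a b j)
        = colsum I (tau I a b X).1 (Equiv.swap a b j') := by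
      rw [colsum_tau, colsum_tau, hs, hs, hA]
    have h2 : colsum I (tau I j j' X).1 a = colsum I (tau I j j' X).1 b := by
      rw [colsum_tau, colsum_tau, h0]
    apply Subtype.ext
    funext k
    by_cases hk : k ∈ I
    · ext l
      rw [mem_tau_of_eq h1 hk, mem_tau_of_eq h0 hk, mem_tau_of_eq h2 hk, mem_tau_of_eq hA hk]
      have : Equiv.swap a b (Equiv.swap (Equiv.swap a b j) (Equiv.swap a b j') l)
          = Equiv.swap j j' (Equiv.swap a b l) := by
        rw [Equiv.swap_apply_apply]
        simp [Equiv.Perm.mul_apply]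
      rw [this]
    · rw [tau_row_of_not_mem _ _ _ _ hk, tau_row_of_not_mem _ _ _ _ hk,
        tau_row_of_not_mem _ _ _ _ hk, tau_row_of_not_mem _ _ _ _ hk]
  · have h1 : colsum I (tau I a b X).1 (Equiv.swap a b j)
        ≠ colsum I (tau I a b X).1 (Equiv.swap a b j') := by
      rw [colsum_tau, colsum_tau, hs, hs]; exact hA
    rw [tau_of_ne h1, tau_of_ne hA]

/-- summed commutation -/
private theorem two_sum_comm (I : Finset ι) (a b : κ) (X : Tab r c) (g : Tab r c → ℝ) :
    ∑ j, ∑ j', g (tau I j j' (tau I a b X)) = ∑ j, ∑ j', g (tau I a b (tau I j j' X)) := by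
  by_cases h0 : colsum I X.1 a = colsum I X.1 b
  · rw [← Equiv.sum_comp (Equiv.swap a b)]
    refine Finset.sum_congr rfl fun j _ => ?_
    rw [← Equiv.sum_comp (Equiv.swap a b)]
    refine Finset.sum_congr rfl fun j' _ => ?_
    rw [two_tau_conj I a b j j' X h0]
  · rw [tau_of_ne h0]
    refine Finset.sum_congr rfl fun j _ => Finset.sum_congr rfl fun j' _ => ?_
    have : colsum I (tau I j j' X).1 a ≠ colsum I (tau I j j' X).1 b := by
      rw [colsum_tau, colsum_tau]; exact h0
    rw [tau_of_ne this]

/-- the generator of the exchange dynamics in the rows of `I` -/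
private noncomputable def twoL (r : ι → ℕ) (c : κ → ℕ) (I : Finset ι) :
    (Tab r c → ℝ) →ₗ[ℝ] (Tab r c → ℝ) where
  toFun g := fun X => ∑ j, ∑ j', (g X - g (tau I j j' X))
  map_add' g h := by
    funext X
    simp only [Pi.add_apply, ← Finset.sum_add_distrib]
    refine Finset.sum_congr rfl fun j _ => Finset.sum_congr rfl fun j' _ => ?_
    ring
  map_smul' a g := by
    funext X
    simp only [Pi.smul_apply, smul_eq_mul, RingHom.id_apply, Finset.mul_sum]
    refine Finset.sum_congr rfl fun j _ => Finset.sum_congr rfl fun j' _ => ?_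
    ring

private theorem twoL_apply (I : Finset ι) (g : Tab r c → ℝ) (X : Tab r c) :
    twoL r c I g X = ∑ j, ∑ j', (g X - g (tau I j j' X)) := rfl

private theorem two_sum_tau (I : Finset ι) (j j' : κ) (F : Tab r c → ℝ) :
    ∑ X, F (tau I j j' X) = ∑ X, F X :=
  Equiv.sum_comp (tauEquiv I j j') F

private theorem twoL_isSymm (I : Finset ι) : IsSymm (twoL r c I) := by
  intro f g
  simp only [twoL_apply, Finset.mul_sum, Finset.sum_mul]
  rw [Finset.sum_comm]
  conv_rhs => rw [Finset.sum_comm]
  refine Finset.sum_congr rfl fun j _ => ?_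
  rw [Finset.sum_comm]
  conv_rhs => rw [Finset.sum_comm]
  refine Finset.sum_congr rfl fun j' _ => ?_
  have h1 : ∑ X, f X * g (tau I j j' X) = ∑ X, f (tau I j j' X) * g X := by
    rw [← two_sum_tau I j j' (fun X => f X * g (tau I j j' X))]
    simp only [tau_invol]
  simp only [mul_sub, sub_mul, Finset.sum_sub_distrib]
  rw [h1]

private theorem two_dirichlet (I : Finset ι) (f : Tab r c → ℝ) :
    ∑ X, ∑ j, ∑ j', (f X - f (tau I j j' X)) ^ 2 = 2 * ∑ X, f X * twoL r c I f X := by
  simp only [twoL_apply, Finset.mul_sum]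
  rw [Finset.sum_comm]
  conv_rhs => rw [Finset.sum_comm]
  refine Finset.sum_congr rfl fun j _ => ?_
  rw [Finset.sum_comm]
  conv_rhs => rw [Finset.sum_comm]
  refine Finset.sum_congr rfl fun j' _ => ?_
  have h1 : ∑ X, f (tau I j j' X) ^ 2 = ∑ X, f X ^ 2 := two_sum_tau I j j' (fun X => f X ^ 2)
  have h2 : ∑ X, (f X - f (tau I j j' X)) ^ 2
      = ∑ X, f X ^ 2 + ∑ X, f (tau I j j' X) ^ 2 - 2 * ∑ X, f X * f (tau I j j' X) := by
    rw [Finset.mul_sum, ← Finset.sum_add_distrib, ← Finset.sum_sub_distrib]
    exact Finset.sum_congr rfl fun X _ => by ring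
  have h3 : ∑ X, 2 * (f X * (f X - f (tau I j j' X)))
      = 2 * ∑ X, f X ^ 2 - 2 * ∑ X, f X * f (tau I j j' X) := by
    rw [Finset.mul_sum, Finset.mul_sum, ← Finset.sum_sub_distrib]
    exact Finset.sum_congr rfl fun X _ => by ring
  rw [h2, h3, h1]; ring

/-- kernel of the generator: invariant functions -/
private theorem two_ker (I : Finset ι) (h : Tab r c → ℝ) (hh : twoL r c I h = 0) :
    ∀ a b X, h (tau I a b X) = h X := by
  intro a b X
  have h0 : ∑ X, ∑ j, ∑ j', (h X - h (tau I j j' X)) ^ 2 = 0 := by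
    rw [two_dirichlet, hh]; simp
  have h1 := (Finset.sum_eq_zero_iff_of_nonneg (fun X _ => Finset.sum_nonneg (fun j _ =>
    Finset.sum_nonneg (fun j' _ => sq_nonneg (h X - h (tau I j j' X)))))).mp h0 X (mem_univ _)
  have h2 := (Finset.sum_eq_zero_iff_of_nonneg (fun j _ =>
    Finset.sum_nonneg (fun j' _ => sq_nonneg (h X - h (tau I j j' X))))).mp h1 a (mem_univ _)
  have h3 := (Finset.sum_eq_zero_iff_of_nonneg
    (fun j' _ => sq_nonneg (h X - h (tau I a j' X)))).mp h2 b (mem_univ _)
  have := pow_eq_zero_iff (two_ne_zero) |>.mp h3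
  linarith

/-- eigenvalues are `0` or at least `4` (maximum principle for discrete gradients) -/
private theorem two_eigen (I : Finset ι) (μ : ℝ) (v : Tab r c → ℝ) (hv : v ≠ 0)
    (hLv : twoL r c I v = μ • v) : μ = 0 ∨ 4 ≤ μ := by
  by_cases hinv : ∀ a b X, v (tau I a b X) = v X
  · left
    have hL0 : twoL r c I v = 0 := by
      funext X
      rw [twoL_apply]
      simp [hinv]
    rw [hL0] at hLv
    rcases smul_eq_zero.mp hLv.symm with h | h
    · exact h
    · exact absurd h hv
  · right
    push Not at hinv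
    obtain ⟨a0, b0, X0, h0⟩ := hinv
    set φ : Tab r c × κ × κ → ℝ := fun p => v p.1 - v (tau I p.2.1 p.2.2 p.1) with hφ
    obtain ⟨⟨X, a, b⟩, -, hmax⟩ := Finset.exists_max_image (univ : Finset (Tab r c × κ × κ)) φ
      ⟨(X0, a0, b0), mem_univ _⟩
    set M : ℝ := v X - v (tau I a b X) with hM
    have hmax' : ∀ Y a' b', v Y - v (tau I a' b' Y) ≤ M := fun Y a' b' =>
      hmax (Y, a', b') (mem_univ _)
    have hMpos : 0 < M := by
      rcases lt_or_gt_of_ne h0 with h | h
      · have := hmax' X0 a0 b0
        linarith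
      · have := hmax' (tau I a0 b0 X0) a0 b0
        rw [tau_invol] at this
        linarith
    have hab : a ≠ b := by
      intro e
      rw [hM, e, tau_self] at hMpos
      simp at hMpos
    have e1 : μ * M = twoL r c I v X - twoL r c I v (tau I a b X) := by
      rw [hLv]; simp only [Pi.smul_apply, smul_eq_mul, hM]; ring
    set T : κ → κ → ℝ := fun j j' =>
      M - (v (tau I j j' X) - v (tau I a b (tau I j j' X))) with hT
    have e2 : twoL r c I v X - twoL r c I v (tau I a b X) = ∑ j, ∑ j', T j j' := by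
      rw [twoL_apply, twoL_apply]
      simp only [hT, Finset.sum_sub_distrib]
      rw [two_sum_comm I a b X v]
      simp only [hM, Finset.sum_sub_distrib, Finset.sum_const]
      ring
    have hTnn : ∀ j j', 0 ≤ T j j' := by
      intro j j'
      have := hmax' (tau I j j' X) a b
      simp only [hT]; linarith
    have hT1 : T a b = 2 * M := by
      simp only [hT, tau_invol, hM]; ring
    have hT2 : T b a = 2 * M := by
      simp only [hT]
      rw [tau_comm_cols I b a X, tau_invol]
      simp only [hM]; ring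
    have hS : T a b + T b a ≤ ∑ j, ∑ j', T j j' := by
      have s1 : T a b ≤ ∑ j', T a j' :=
        Finset.single_le_sum (fun j' _ => hTnn a j') (mem_univ b)
      have s2 : T b a ≤ ∑ j', T b j' :=
        Finset.single_le_sum (fun j' _ => hTnn b j') (mem_univ a)
      have s3 : ∑ j ∈ ({a, b} : Finset κ), ∑ j', T j j' ≤ ∑ j, ∑ j', T j j' :=
        Finset.sum_le_sum_of_subset_of_nonneg (Finset.subset_univ _)
          (fun j _ _ => Finset.sum_nonneg fun j' _ => hTnn j j')
      rw [Finset.sum_pair hab] at s3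
      linarith
    have : 4 * M ≤ μ * M := by
      rw [e1, e2]; linarith
    exact le_of_mul_le_mul_right this hMpos

end

theorem tworow_poincare {ι κ : Type*} [Fintype ι] [DecidableEq ι] [Fintype κ] [DecidableEq κ]
    (r : ι → ℕ) (c : κ → ℕ) (i i' : ι) (f : Tab r c → ℝ) :
    8 * ∑ X, f X * (f X - avgK (key {i, i'}) f X)
      ≤ ∑ X, ∑ j, ∑ j', (f X - f (tau {i, i'} j j' X)) ^ 2 := by
  set I : Finset ι := {i, i'} with hI
  set g : Tab r c → ℝ := fun X => f X - avgK (key I) f X with hg
  have hdiff : ∀ j j' X, f X - f (tau I j j' X) = g X - g (tau I j j' X) := by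
    intro j j' X
    have : avgK (key I) f (tau I j j' X) = avgK (key I) f X := avgK_congr _ _ (tau_key _ _ _ _)
    simp only [hg, this]; ring
  have hR : ∑ X, ∑ j, ∑ j', (f X - f (tau I j j' X)) ^ 2 = 2 * ∑ X, g X * twoL r c I g X := by
    rw [← two_dirichlet]
    refine Finset.sum_congr rfl fun X _ => Finset.sum_congr rfl fun j _ =>
      Finset.sum_congr rfl fun j' _ => ?_
    rw [hdiff]
  have hLq : ∑ X, f X * (f X - avgK (key I) f X) = ∑ X, g X * g X :=
    sum_mul_sub_avgK (key I) f
  have havg : avgK (key I) g = 0 := by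
    have : g = f + (-1 : ℝ) • avgK (key I) f := by
      funext X; simp [hg]; ring
    rw [this, avgK_add, avgK_smul, avgK_idem]
    funext X; simp
  have hker : ∀ h : Tab r c → ℝ, twoL r c I h = 0 → ∑ X, g X * h X = 0 := by
    intro h hh
    have hinv := two_ker I h hh
    have hcl : avgK (key I) h = h :=
      avgK_of_inv _ _ (fun X Y hXY => tworow_connected i i' h hinv X Y hXY)
    rw [← hcl, avgK_symm, havg]
    simp
  have := form_ge_of_eigen (twoL r c I) (twoL_isSymm I) 4 (two_eigen I) g hker
  rw [hR, hLq]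
  linarith

end Vale.Agent.Lib.P335
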