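import Vale.Agent.Lib.P335.Avg
import Vale.Agent.Lib.P335.ThreeE
import Vale.Agent.Lib.P335.Caputo
import Vale.Agent.Lib.P335.TwoRow
import Vale.Agent.Lib.P335.Connect

/-! Core: Poincare inequality for the switch dynamics on tables. -/

namespace Vale.Agent.Lib.P335

open Finset

variable {ι κ : Type*} [Fintype ι] [DecidableEq ι] [Fintype κ] [DecidableEq κ]
variable {r : ι → ℕ} {c : κ → ℕ}

/-- `1 - E_{i,i'}` -/
noncomputable def QQ (r : ι → ℕ) (c : κ → ℕ) (i i' : ι) : (Tab r c → ℝ) →ₗ[ℝ] (Tab r c → ℝ) :=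
  LinearMap.id - avgL (key {i, i'})

theorem QQ_apply (i i' : ι) (f : Tab r c → ℝ) (X : Tab r c) :
    QQ r c i i' f X = f X - avgK (key {i, i'}) f X := rfl

theorem QQ_swap (i i' : ι) : QQ r c i i' = QQ r c i' i := by
  unfold QQ; rw [Finset.pair_comm]

theorem QQ_diag (i : ι) : QQ r c i i = 0 := by
  apply LinearMap.ext
  intro f
  funext X
  rw [QQ_apply, Finset.pair_eq_singleton,
    avgK_of_inv (key {i}) f (fun X Y h => by rw [eq_of_key_singleton h])]
  simp

theorem QQ_isSymm (i i' : ι) : IsSymm (QQ r c i i') := by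
  intro f g
  simp only [QQ_apply, mul_sub, sub_mul, Finset.sum_sub_distrib]
  rw [avgK_symm]

theorem QQ_idem (i i' : ι) (f : Tab r c → ℝ) : QQ r c i i' (QQ r c i i' f) = QQ r c i i' f := by
  unfold QQ
  simp only [LinearMap.sub_apply, LinearMap.id_apply, map_sub, avgL_apply, avgK_idem]
  simp

theorem QQ_comm (i j k l : ι) (h1 : i ≠ k) (h2 : i ≠ l) (h3 : j ≠ k) (h4 : j ≠ l)
    (f : Tab r c → ℝ) : QQ r c i j (QQ r c k l f) = QQ r c k l (QQ r c i j f) := by
  have hdisj : Disjoint ({i, j} : Finset ι) {k, l} := by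
    rw [Finset.disjoint_left]
    intro x hx hx'
    simp only [mem_insert, mem_singleton] at hx hx'
    rcases hx with rfl | rfl <;> rcases hx' with rfl | rfl <;> contradiction
  have hE : ∀ g : Tab r c → ℝ, avgL (key {i, j}) (avgL (key {k, l}) g)
      = avgL (key {k, l}) (avgL (key {i, j}) g) := by
    refine comm_of_range_invariant _ _ (avgL_isSymm _) (avgL_isSymm _) ?_
    intro g
    simp only [avgL_apply]
    refine avgK_of_inv _ _ (fun X Y hXY => ?_)
    refine tworow_connected i j _ ?_ X Y hXY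
    intro a b X
    have h5 := avgK_comp_equiv (key {k, l}) (tauEquiv {i, j} a b)
      (fun x y => key_tau_iff_of_disjoint hdisj a b x y) (avgK (key {i, j}) g) X
    simp only [tauEquiv_apply] at h5
    rw [← h5]
    congr 1
    funext y
    exact avgK_congr _ _ (tau_key _ _ _ _)
  unfold QQ
  simp only [LinearMap.sub_apply, LinearMap.id_apply, map_sub]
  rw [hE f]
  abel

theorem threerow_eigen (k l m : ι) (hkl : k ≠ l) (hkm : k ≠ m) (hlm : l ≠ m) (μ : ℝ)
    (v : Tab r c → ℝ) (hv : v ≠ 0)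
    (h : (QQ r c k l + QQ r c k m + QQ r c l m) v = μ • v) : μ = 0 ∨ 1 ≤ μ := by
  by_contra hcon
  push Not at hcon
  obtain ⟨hμ0, hμ1⟩ := hcon
  have hT : ({k, l, m} : Finset ι).card = 3 := Finset.card_eq_three.mpr ⟨k, l, m, hkl, hkm, hlm, rfl⟩
  have ek : ({k, l, m} : Finset ι).erase k = {l, m} :=
    Finset.erase_insert (by simp [hkl, hkm])
  have el : ({k, l, m} : Finset ι).erase l = {k, m} := by
    rw [Finset.insert_comm k l {m}]
    exact Finset.erase_insert (by simp [hkl.symm, hlm])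
  have em : ({k, l, m} : Finset ι).erase m = {k, l} := by
    rw [Finset.pair_comm l m, Finset.insert_comm k m {l}]
    exact Finset.erase_insert (by simp [hkm.symm, hlm.symm])
  have hX : ∀ X, (v X - avgK (key {k, l}) v X) + (v X - avgK (key {k, m}) v X)
      + (v X - avgK (key {l, m}) v X) = μ * v X := by
    intro X
    have := congrFun h X
    simpa [QQ_apply] using this
  have hsum : ∀ X, ∑ a ∈ ({k, l, m} : Finset ι), avgK (key (({k, l, m} : Finset ι).erase a)) v X
      = (3 - μ) * v X := by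
    intro X
    rw [Finset.sum_insert (by simp [hkl, hkm]), Finset.sum_pair hlm, ek, el, em]
    have := hX X
    linarith
  have hconst := threerow_const hT (3 - μ) (by linarith) v hsum
  have hfix : ∀ b : Finset ι, b ⊆ {k, l, m} → avgK (key b) v = v := by
    intro b hb
    exact avgK_of_inv _ _ (fun X Y hXY => hconst X Y (key_mono hb hXY))
  have h0 : ∀ X, μ * v X = 0 := by
    intro X
    rw [← hX X, hfix {k, l} (by intro x; simp; tauto), hfix {k, m} (by intro x; simp; tauto),
      hfix {l, m} (by intro x; simp; tauto)]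
    simp
  apply hv
  funext X
  rcases mul_eq_zero.mp (h0 X) with h1 | h1
  · exact absurd h1 hμ0
  · exact h1

theorem threerow (k l m : ι) (hkl : k ≠ l) (hkm : k ≠ m) (hlm : l ≠ m) (f : Tab r c → ℝ) :
    0 ≤ ∑ X, (QQ r c k l f X * QQ r c k m f X + QQ r c k l f X * QQ r c l m f X
      + QQ r c k m f X * QQ r c l m f X) := by
  have hsymm : IsSymm (QQ r c k l + QQ r c k m + QQ r c l m) := by
    intro g h
    simp only [LinearMap.add_apply, Pi.add_apply, mul_add, add_mul, Finset.sum_add_distrib]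
    rw [QQ_isSymm k l g h, QQ_isSymm k m g h, QQ_isSymm l m g h]
  have h1 := form_le_sq_of_eigen _ hsymm (threerow_eigen k l m hkl hkm hlm) f
  simp only [LinearMap.add_apply, Pi.add_apply] at h1
  have e1 : ∑ X, f X * (QQ r c k l f X + QQ r c k m f X + QQ r c l m f X)
      = ∑ X, QQ r c k l f X * QQ r c k l f X + ∑ X, QQ r c k m f X * QQ r c k m f X
        + ∑ X, QQ r c l m f X * QQ r c l m f X := by
    simp only [mul_add, Finset.sum_add_distrib]
    have a1 := sum_mul_sub_avgK (key {k, l}) f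
    have a2 := sum_mul_sub_avgK (key {k, m}) f
    have a3 := sum_mul_sub_avgK (key {l, m}) f
    simp only [QQ_apply]
    rw [a1, a2, a3]
  have e2 : ∑ X, (QQ r c k l f X + QQ r c k m f X + QQ r c l m f X)
        * (QQ r c k l f X + QQ r c k m f X + QQ r c l m f X)
      = (∑ X, QQ r c k l f X * QQ r c k l f X + ∑ X, QQ r c k m f X * QQ r c k m f X
        + ∑ X, QQ r c l m f X * QQ r c l m f X)
        + 2 * ∑ X, (QQ r c k l f X * QQ r c k m f X + QQ r c k l f X * QQ r c l m f X
      + QQ r c k m f X * QQ r c l m f X) := by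
    rw [Finset.mul_sum, ← Finset.sum_add_distrib, ← Finset.sum_add_distrib,
      ← Finset.sum_add_distrib]
    exact Finset.sum_congr rfl (fun X _ => by ring)
  rw [e1, e2] at h1
  linarith

theorem table_poincare (r : ι → ℕ) (c : κ → ℕ) (f : Tab r c → ℝ) (hf : ∑ X, f X = 0) :
    16 * ∑ X, f X ^ 2 ≤ ∑ X, ∑ i, ∑ i', ∑ j, ∑ j', (f X - f (tau {i, i'} j j' X)) ^ 2 := by
  set A : (Tab r c → ℝ) →ₗ[ℝ] (Tab r c → ℝ) := ∑ i, ∑ j, QQ r c i j with hA
  have hAapp : ∀ g : Tab r c → ℝ, A g = ∑ i, ∑ j, QQ r c i j g := by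
    intro g; simp [hA, LinearMap.sum_apply]
  have hAsymm : IsSymm A := by
    intro g h
    simp only [hAapp, Finset.sum_apply, Finset.mul_sum, Finset.sum_mul]
    rw [Finset.sum_comm]
    conv_rhs => rw [Finset.sum_comm]
    refine Finset.sum_congr rfl (fun i _ => ?_)
    rw [Finset.sum_comm]
    conv_rhs => rw [Finset.sum_comm]
    exact Finset.sum_congr rfl (fun j _ => QQ_isSymm i j g h)
  have hform : ∀ g : Tab r c → ℝ, ∑ X, g X * A g X
      = ∑ i, ∑ j, ∑ X, QQ r c i j g X * QQ r c i j g X := by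
    intro g
    simp only [hAapp, Finset.sum_apply, Finset.mul_sum]
    rw [Finset.sum_comm]
    refine Finset.sum_congr rfl (fun i _ => ?_)
    rw [Finset.sum_comm]
    refine Finset.sum_congr rfl (fun j _ => ?_)
    exact sum_mul_sub_avgK (key {i, j}) g
  have hpos : ∀ g : Tab r c → ℝ, 0 ≤ ∑ X, g X * A g X := by
    intro g; rw [hform]
    exact Finset.sum_nonneg (fun i _ => Finset.sum_nonneg (fun j _ =>
      Finset.sum_nonneg (fun X _ => mul_self_nonneg _)))
  have hcap : ∀ g : Tab r c → ℝ, 2 * ∑ X, g X * A g X ≤ ∑ X, A g X * A g X := by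
    intro g
    have := caputo (QQ r c) QQ_swap QQ_diag QQ_isSymm QQ_idem QQ_comm threerow g
    rw [← hAapp] at this
    simpa [sq] using this
  have hker : ∀ h : Tab r c → ℝ, A h = 0 → ∑ X, f X * h X = 0 := by
    intro h hh
    have h0 : ∑ i, ∑ j, ∑ X, QQ r c i j h X * QQ r c i j h X = 0 := by
      rw [← hform, hh]; simp
    have hQ : ∀ i j X, QQ r c i j h X = 0 := by
      intro i j X
      have h1 := (Finset.sum_eq_zero_iff_of_nonneg (fun i _ => Finset.sum_nonneg (fun j _ =>
        Finset.sum_nonneg (fun X _ => mul_self_nonneg (QQ r c i j h X))))).mp h0 i (mem_univ _)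
      have h2 := (Finset.sum_eq_zero_iff_of_nonneg (fun j _ =>
        Finset.sum_nonneg (fun X _ => mul_self_nonneg (QQ r c i j h X)))).mp h1 j (mem_univ _)
      have h3 := (Finset.sum_eq_zero_iff_of_nonneg
        (fun X _ => mul_self_nonneg (QQ r c i j h X))).mp h2 X (mem_univ _)
      exact mul_self_eq_zero.mp h3
    have hinv : ∀ (i i' : ι) (j j' : κ) (X : Tab r c), h (tau {i, i'} j j' X) = h X := by
      intro i i' j j' X
      have e1 := hQ i i' X
      have e2 := hQ i i' (tau {i, i'} j j' X)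
      rw [QQ_apply] at e1 e2
      have e3 : avgK (key {i, i'}) h (tau {i, i'} j j' X) = avgK (key {i, i'}) h X :=
        avgK_congr _ _ (tau_key _ _ _ _)
      linarith
    have hconst := table_connected r c h hinv
    by_cases hne : Nonempty (Tab r c)
    · obtain ⟨X0⟩ := hne
      have : ∑ X, f X * h X = (∑ X, f X) * h X0 := by
        rw [Finset.sum_mul]
        exact Finset.sum_congr rfl (fun X _ => by rw [hconst X X0])
      rw [this, hf]; simp
    · have : IsEmpty (Tab r c) := not_nonempty_iff.mp hne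
      simp
  have hgap : 2 * ∑ X, f X * f X ≤ ∑ X, f X * A f X :=
    form_ge_of_sq A hAsymm 2 (by norm_num) hpos hcap f hker
  have htwo : ∀ i i', 8 * ∑ X, QQ r c i i' f X * QQ r c i i' f X
      ≤ ∑ X, ∑ j, ∑ j', (f X - f (tau {i, i'} j j' X)) ^ 2 := by
    intro i i'
    have := tworow_poincare r c i i' f
    rw [sum_mul_sub_avgK] at this
    exact this
  calc 16 * ∑ X, f X ^ 2 = 8 * (2 * ∑ X, f X * f X) := by
        simp only [sq]; ring
    _ ≤ 8 * ∑ X, f X * A f X := by linarith
    _ = ∑ i, ∑ i', 8 * ∑ X, QQ r c i i' f X * QQ r c i i' f X := by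
        rw [hform]; simp only [Finset.mul_sum]
    _ ≤ ∑ i, ∑ i', ∑ X, ∑ j, ∑ j', (f X - f (tau {i, i'} j j' X)) ^ 2 :=
        Finset.sum_le_sum (fun i _ => Finset.sum_le_sum (fun i' _ => htwo i i'))
    _ = ∑ X, ∑ i, ∑ i', ∑ j, ∑ j', (f X - f (tau {i, i'} j j' X)) ^ 2 := by
        symm
        rw [Finset.sum_comm]
        refine Finset.sum_congr rfl (fun i _ => ?_)
        exact Finset.sum_comm

end Vale.Agent.Lib.P335
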