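import Mathlib

/-!
The switch chain of problem P335 on simple graphs with a prescribed degree vector.
-/

namespace Vale.Agent.Lib.P335

open Finset Classical

/-- `Realiz n d`: the labelled simple graphs on `Fin n` in which every vertex `v` has degree `d v`
(the set `Ω_d` of the problem). -/
def Realiz (n : ℕ) (d : Fin n → ℕ) : Type :=
  {G : SimpleGraph (Fin n) // ∀ v, (univ.filter (fun w => G.Adj v w)).card = d v}

noncomputable instance (n : ℕ) (d : Fin n → ℕ) : Fintype (Realiz n d) := by
  unfold Realiz; infer_instance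

/-- One proposed move.  The injection `q : Fin 4 ↪ Fin n` encodes the 4-set
`S = {q 0, q 1, q 2, q 3}` together with the ordered pair of perfect matchings
`F = {q0 q1, q2 q3}`, `F' = {q0 q2, q1 q3}`.  If both edges of `F` are present and both edges of
`F'` are absent, `F` is replaced by `F'`; otherwise the graph is unchanged. -/
noncomputable def switchG {n : ℕ} (G : SimpleGraph (Fin n)) (q : Fin 4 ↪ Fin n) : SimpleGraph (Fin n) :=
  if G.Adj (q 0) (q 1) ∧ G.Adj (q 2) (q 3) ∧ ¬ G.Adj (q 0) (q 2) ∧ ¬ G.Adj (q 1) (q 3) then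
    (G \ SimpleGraph.fromEdgeSet {s(q 0, q 1), s(q 2, q 3)}) ⊔
      SimpleGraph.fromEdgeSet {s(q 0, q 2), s(q 1, q 3)}
  else G

/-- Transition matrix of the lazy switch chain: with probability `1/2` stay put, otherwise pick
`q : Fin 4 ↪ Fin n` uniformly and apply `switchG`.  (Every triple `(S, F, F')` of the problem is
encoded by exactly four injections `q`, so this is the chain `P_d` of the problem.) -/
noncomputable def switchP (n : ℕ) (d : Fin n → ℕ) : Matrix (Realiz n d) (Realiz n d) ℝ :=
  fun G G' => (1 / 2) * (if G = G' then 1 else 0) +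
    (1 / 2) * (((univ.filter (fun q : Fin 4 ↪ Fin n => switchG G.1 q = G'.1)).card : ℝ) /
      (Fintype.card (Fin 4 ↪ Fin n) : ℝ))

/-- total variation distance of two real vectors on a finite type -/
noncomputable def tvDist {Ω : Type} [Fintype Ω] (μ ν : Ω → ℝ) : ℝ := (1 / 2) * ∑ x, |μ x - ν x|

/-- `MixedAt n d t`: from every start `G`, the law `P_d^t(G, ·)` is within total variation `1/4`
of the uniform distribution on `Ω_d`.  So `t_mix(d)` is the least `t` with `MixedAt n d t`. -/
def MixedAt (n : ℕ) (d : Fin n → ℕ) (t : ℕ) : Prop :=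
  ∀ G : Realiz n d,
    tvDist (fun G' => (switchP n d ^ t) G G') (fun _ => 1 / (Fintype.card (Realiz n d) : ℝ)) ≤ 1 / 4

end Vale.Agent.Lib.P335
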