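import Mathlib

/-! Module Mixing: L2 contraction of a lazy symmetric random-mapping chain. -/

namespace Vale.Agent.Lib.P335

open Finset Classical

section mix

variable {Ω T : Type} [Fintype Ω] [Fintype T]

theorem mix_fiber (step : T → Ω → Ω) (y : Ω) (h : Ω → ℝ) :
    ∑ z, ((univ.filter (fun q => step q y = z)).card : ℝ) * h z = ∑ q, h (step q y) := by
  have h1 : ∀ z, ((univ.filter (fun q => step q y = z)).card : ℝ) * h z
      = ∑ q, (if step q y = z then h z else 0) := by
    intro z
    rw [Finset.card_filter]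
    push_cast
    rw [Finset.sum_mul]
    refine Finset.sum_congr rfl (fun q _ => ?_)
    split_ifs <;> simp
  simp only [h1]
  rw [Finset.sum_comm]
  refine Finset.sum_congr rfl (fun q _ => ?_)
  rw [Finset.sum_ite_eq]
  simp

theorem mix_sum_step (step : T → Ω → Ω)
    (hsymm : ∀ x y, (univ.filter (fun q => step q x = y)).card
      = (univ.filter (fun q => step q y = x)).card) (g : Ω → ℝ) :
    ∑ x, ∑ q, g (step q x) = (Fintype.card T : ℝ) * ∑ x, g x := by
  have h1 : ∀ x, ∑ q, g (step q x)
      = ∑ z, ((univ.filter (fun q => step q x = z)).card : ℝ) * g z :=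
    fun x => (mix_fiber step x g).symm
  simp only [h1]
  rw [Finset.sum_comm, Finset.mul_sum]
  refine Finset.sum_congr rfl (fun z _ => ?_)
  rw [← Finset.sum_mul]
  congr 1
  have h2 : ∀ x, ((univ.filter (fun q => step q x = z)).card : ℝ)
      = ((univ.filter (fun q => step q z = x)).card : ℝ) * 1 := by
    intro x; rw [hsymm x z]; simp
  simp only [h2]
  rw [mix_fiber step z (fun _ => 1)]
  simp

/-- the lazy averaging operator -/
noncomputable def mixA (step : T → Ω → Ω) (f : Ω → ℝ) (x : Ω) : ℝ :=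
  (1 / 2) * f x + (1 / 2) * ((∑ q, f (step q x)) / (Fintype.card T : ℝ))

theorem mix_sum_A [Nonempty T] (step : T → Ω → Ω)
    (hsymm : ∀ x y, (univ.filter (fun q => step q x = y)).card
      = (univ.filter (fun q => step q y = x)).card) (f : Ω → ℝ) :
    ∑ x, mixA step f x = ∑ x, f x := by
  have hm : (0 : ℝ) < (Fintype.card T : ℝ) := by exact_mod_cast Fintype.card_pos
  unfold mixA
  rw [Finset.sum_add_distrib, ← Finset.mul_sum, ← Finset.mul_sum, ← Finset.sum_div,
    mix_sum_step step hsymm f]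
  field_simp
  ring

theorem mix_contract [Nonempty T] (step : T → Ω → Ω)
    (hsymm : ∀ x y, (univ.filter (fun q => step q x = y)).card
      = (univ.filter (fun q => step q y = x)).card) (f : Ω → ℝ) :
    ∑ x, (mixA step f x) ^ 2 ≤ ∑ x, f x ^ 2
      - (1 / (4 * (Fintype.card T : ℝ))) * ∑ x, ∑ q, (f x - f (step q x)) ^ 2 := by
  have hm : (0 : ℝ) < (Fintype.card T : ℝ) := by exact_mod_cast Fintype.card_pos
  set m : ℝ := (Fintype.card T : ℝ) with hmdef
  have hpt : ∀ x, (mixA step f x) ^ 2
      ≤ (1 / m) * ∑ q, ((f x ^ 2 + f (step q x) ^ 2) / 2 - (f x - f (step q x)) ^ 2 / 4) := by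
    intro x
    have e1 : mixA step f x = (∑ q : T, (f x + f (step q x)) / 2) / m := by
      unfold mixA
      rw [← Finset.sum_div, Finset.sum_add_distrib, Finset.sum_const, Finset.card_univ,
        nsmul_eq_mul, ← hmdef]
      field_simp
    have cs : (∑ q : T, (f x + f (step q x)) / 2) ^ 2
        ≤ m * ∑ q : T, ((f x + f (step q x)) / 2) ^ 2 := by
      have := sq_sum_le_card_mul_sum_sq (s := (univ : Finset T))
        (f := fun q => (f x + f (step q x)) / 2)
      simpa [Finset.card_univ, hmdef] using this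
    rw [e1, div_pow]
    have e2 : ∑ q : T, ((f x ^ 2 + f (step q x) ^ 2) / 2 - (f x - f (step q x)) ^ 2 / 4)
        = ∑ q : T, ((f x + f (step q x)) / 2) ^ 2 := by
      refine Finset.sum_congr rfl (fun q _ => ?_)
      ring
    rw [e2, div_le_iff₀ (by positivity)]
    calc (∑ q : T, (f x + f (step q x)) / 2) ^ 2
        ≤ m * ∑ q : T, ((f x + f (step q x)) / 2) ^ 2 := cs
      _ = 1 / m * (∑ q : T, ((f x + f (step q x)) / 2) ^ 2) * m ^ 2 := by
          field_simp
  calc ∑ x, (mixA step f x) ^ 2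
      ≤ ∑ x, (1 / m) * ∑ q, ((f x ^ 2 + f (step q x) ^ 2) / 2 - (f x - f (step q x)) ^ 2 / 4) :=
        Finset.sum_le_sum (fun x _ => hpt x)
    _ = ∑ x, f x ^ 2 - (1 / (4 * m)) * ∑ x, ∑ q, (f x - f (step q x)) ^ 2 := by
        have s1 : ∑ x, ∑ q : T, f (step q x) ^ 2 = m * ∑ x, f x ^ 2 :=
          mix_sum_step step hsymm (fun y => f y ^ 2)
        have s2 : ∑ x, ∑ _q : T, f x ^ 2 = m * ∑ x, f x ^ 2 := by
          simp only [Finset.sum_const, Finset.card_univ, nsmul_eq_mul]
          rw [Finset.mul_sum]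
        have s3 : ∑ x, ∑ q, ((f x ^ 2 + f (step q x) ^ 2) / 2 - (f x - f (step q x)) ^ 2 / 4)
            = (∑ x, ∑ _q : T, f x ^ 2) / 2 + (∑ x, ∑ q : T, f (step q x) ^ 2) / 2
              - (∑ x, ∑ q, (f x - f (step q x)) ^ 2) / 4 := by
          simp only [Finset.sum_div, ← Finset.sum_add_distrib, ← Finset.sum_sub_distrib]
          refine Finset.sum_congr rfl (fun x _ => Finset.sum_congr rfl (fun q _ => ?_))
          ring
        rw [← Finset.mul_sum, s3, s1, s2]
        field_simp
        ring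

end mix

/-- NOTE: compared with the first draft there is the extra hypothesis `hk4` (`k ≤ 4 |T|`); without
it the statement fails when `Ω` is a singleton, `k` is huge and `t` is odd. -/
theorem mixing_bound {Ω T : Type} [Fintype Ω] [Fintype T] [Nonempty T]
    (step : T → Ω → Ω)
    (hsymm : ∀ x y, (univ.filter (fun q => step q x = y)).card
      = (univ.filter (fun q => step q y = x)).card)
    (k : ℝ) (hk : 0 ≤ k) (hk4 : k ≤ 4 * (Fintype.card T : ℝ))
    (hP : ∀ f : Ω → ℝ, ∑ x, f x = 0 → k * ∑ x, f x ^ 2 ≤ ∑ x, ∑ q, (f x - f (step q x)) ^ 2)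
    (P : Matrix Ω Ω ℝ)
    (hPdef : ∀ x y, P x y = (1 / 2) * (if x = y then 1 else 0) +
      (1 / 2) * (((univ.filter (fun q => step q x = y)).card : ℝ) / (Fintype.card T : ℝ)))
    (t : ℕ) (x : Ω) :
    (∑ y, |(P ^ t) x y - 1 / (Fintype.card Ω : ℝ)|) ^ 2
      ≤ (Fintype.card Ω : ℝ) * (1 - k / (4 * (Fintype.card T : ℝ))) ^ t := by
  have hm : (0 : ℝ) < (Fintype.card T : ℝ) := by exact_mod_cast Fintype.card_pos
  have : Nonempty Ω := ⟨x⟩
  have hN : (0 : ℝ) < (Fintype.card Ω : ℝ) := by exact_mod_cast Fintype.card_pos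
  set m : ℝ := (Fintype.card T : ℝ) with hmdef
  set N : ℝ := (Fintype.card Ω : ℝ) with hNdef
  set a : ℝ := 1 - k / (4 * m) with hadef
  have ha0 : 0 ≤ a := by
    rw [hadef, sub_nonneg, div_le_one (by positivity)]
    exact hk4
  -- P is symmetric
  have hPsymm : ∀ y z, P y z = P z y := by
    intro y z
    rw [hPdef, hPdef, hsymm y z]
    by_cases hyz : y = z
    · subst hyz; rfl
    · rw [if_neg hyz, if_neg (fun e => hyz e.symm)]
  -- action of P
  have hPact : ∀ (h : Ω → ℝ) (y : Ω), ∑ z, P y z * h z = mixA step h y := by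
    intro h y
    unfold mixA
    have e1 : ∀ z, P y z * h z = (1 / 2) * (if y = z then h z else 0)
        + (1 / 2) * ((((univ.filter (fun q => step q y = z)).card : ℝ) * h z) / m) := by
      intro z
      rw [hPdef]
      split_ifs <;> ring
    simp only [e1]
    rw [Finset.sum_add_distrib, ← Finset.mul_sum, ← Finset.mul_sum, ← Finset.sum_div,
      mix_fiber step y h, Finset.sum_ite_eq]
    simp [hmdef]
  have hProw : ∀ y, ∑ z, P y z = 1 := by
    intro y
    have := hPact (fun _ => 1) y
    unfold mixA at this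
    simp only [mul_one, Finset.sum_const, Finset.card_univ, nsmul_eq_mul] at this
    rw [this, ← hmdef]
    field_simp
    norm_num
  -- the deviation vector
  set h : ℕ → Ω → ℝ := fun s y => (P ^ s) x y - 1 / N with hh
  have hrec : ∀ s, h (s + 1) = mixA step (h s) := by
    intro s
    funext y
    rw [← hPact (h s) y]
    simp only [hh]
    rw [pow_succ, Matrix.mul_apply]
    have e1 : ∑ z, P y z * ((P ^ s) x z - 1 / N) = ∑ z, (P ^ s) x z * P z y - (∑ z, P y z) * (1 / N) := by
      rw [Finset.sum_mul, ← Finset.sum_sub_distrib]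
      refine Finset.sum_congr rfl (fun z _ => ?_)
      rw [hPsymm z y]; ring
    rw [e1, hProw]
    ring
  have hmean : ∀ s, ∑ y, h s y = 0 := by
    intro s
    induction s with
    | zero =>
      simp only [hh, pow_zero, Matrix.one_apply]
      rw [Finset.sum_sub_distrib, Finset.sum_ite_eq]
      simp only [Finset.mem_univ, if_true, Finset.sum_const, Finset.card_univ, nsmul_eq_mul]
      rw [← hNdef]
      field_simp
      ring
    | succ s ih => rw [hrec, mix_sum_A step hsymm, ih]
  have hnorm : ∀ s, ∑ y, h s y ^ 2 ≤ a ^ s := by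
    intro s
    induction s with
    | zero =>
      simp only [hh, pow_zero, Matrix.one_apply]
      have e1 : ∀ y, ((if x = y then (1 : ℝ) else 0) - 1 / N) ^ 2
          = (if x = y then (1 - 2 / N) else 0) + 1 / N ^ 2 := by
        intro y
        split_ifs
        · field_simp; ring
        · field_simp; ring
      simp only [e1]
      rw [Finset.sum_add_distrib, Finset.sum_ite_eq]
      simp only [Finset.mem_univ, if_true, Finset.sum_const, Finset.card_univ, nsmul_eq_mul]
      rw [← hNdef]
      have : N * (1 / N ^ 2) = 1 / N := by field_simp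
      rw [this]
      have : 0 < 1 / N := by positivity
      have e3 : 2 / N = 2 * (1 / N) := by ring
      rw [e3]
      linarith
    | succ s ih =>
      rw [hrec]
      have c1 := mix_contract step hsymm (h s)
      have c2 := hP (h s) (hmean s)
      have c3 : (1 / (4 * m)) * (k * ∑ y, h s y ^ 2)
          ≤ (1 / (4 * m)) * ∑ y, ∑ q, (h s y - h s (step q y)) ^ 2 :=
        mul_le_mul_of_nonneg_left c2 (by positivity)
      have c4 : ∑ y, (mixA step (h s) y) ^ 2 ≤ a * ∑ y, h s y ^ 2 := by
        have : a * ∑ y, h s y ^ 2 = ∑ y, h s y ^ 2 - (1 / (4 * m)) * (k * ∑ y, h s y ^ 2) := by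
          rw [hadef]; field_simp
        rw [this]
        linarith
      calc ∑ y, (mixA step (h s) y) ^ 2 ≤ a * ∑ y, h s y ^ 2 := c4
        _ ≤ a * a ^ s := mul_le_mul_of_nonneg_left ih ha0
        _ = a ^ (s + 1) := by ring
  have cs : (∑ y, |h t y|) ^ 2 ≤ N * ∑ y, |h t y| ^ 2 := by
    have := sq_sum_le_card_mul_sum_sq (s := (univ : Finset Ω)) (f := fun y => |h t y|)
    simpa [Finset.card_univ, hNdef] using this
  calc (∑ y, |(P ^ t) x y - 1 / N|) ^ 2 = (∑ y, |h t y|) ^ 2 := rfl
    _ ≤ N * ∑ y, |h t y| ^ 2 := cs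
    _ = N * ∑ y, h t y ^ 2 := by simp only [sq_abs]
    _ ≤ N * a ^ t := mul_le_mul_of_nonneg_left (hnorm t) hN.le

end Vale.Agent.Lib.P335
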