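import Vale.Agent.Lib.P335.Switch
import Vale.Agent.Lib.P335.Tables
import Vale.Agent.Lib.P335.TabLemmas

/-! Module Split: realizations of a split degree vector versus zero-one tables. -/

namespace Vale.Agent.Lib.P335

open Finset Classical

/-- row sums of the table of a split realization -/
def rowS {n : ℕ} (d : Fin n → ℕ) (A : Finset (Fin n)) : Fin n → ℕ :=
  fun i => if i ∈ A then d i - (A.card - 1) else 0

/-- column sums of the table of a split realization -/
def colS {n : ℕ} (d : Fin n → ℕ) (A : Finset (Fin n)) : Fin n → ℕ :=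
  fun j => if j ∈ A then 0 else d j

theorem split_deg {n : ℕ} {d : Fin n → ℕ} (A : Finset (Fin n)) (G : Realiz n d) (v : Fin n) :
    d v = (A.filter (fun w => G.1.Adj v w)).card + (Aᶜ.filter (fun w => G.1.Adj v w)).card := by
  rw [← G.2 v, card_filter_split A]

theorem split_cross {n : ℕ} (A : Finset (Fin n)) (G : SimpleGraph (Fin n)) :
    ∑ v ∈ A, (Aᶜ.filter (fun w => G.Adj v w)).card
      = ∑ w ∈ Aᶜ, (A.filter (fun v => G.Adj w v)).card := by
  simp only [Finset.card_filter]
  rw [Finset.sum_comm]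
  refine Finset.sum_congr rfl (fun w _ => Finset.sum_congr rfl (fun v _ => ?_))
  simp only [G.adj_comm]

theorem split_inner_le {n : ℕ} (A : Finset (Fin n)) (G : SimpleGraph (Fin n)) (v : Fin n)
    (hv : v ∈ A) : (A.filter (fun w => G.Adj v w)).card ≤ A.card - 1 := by
  rw [← Finset.card_erase_of_mem hv]
  apply Finset.card_le_card
  intro w hw
  rw [Finset.mem_filter] at hw
  rw [Finset.mem_erase]
  exact ⟨fun h => G.ne_of_adj hw.2 h.symm, hw.1⟩

theorem split_struct {n : ℕ} {d : Fin n → ℕ} {A : Finset (Fin n)}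
    (hsplit : ∑ v ∈ A, d v = A.card * (A.card - 1) + ∑ v ∈ Aᶜ, d v) (G : Realiz n d) :
    (∀ u ∈ A, ∀ v ∈ A, u ≠ v → G.1.Adj u v) ∧ (∀ u, u ∉ A → ∀ v, v ∉ A → ¬ G.1.Adj u v) := by
  have h1 : ∑ v ∈ A, d v = ∑ v ∈ A, (A.filter (fun w => G.1.Adj v w)).card
      + ∑ v ∈ A, (Aᶜ.filter (fun w => G.1.Adj v w)).card := by
    rw [← Finset.sum_add_distrib]
    exact Finset.sum_congr rfl (fun v _ => split_deg A G v)
  have h2 : ∑ v ∈ Aᶜ, d v = ∑ v ∈ Aᶜ, (A.filter (fun w => G.1.Adj v w)).card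
      + ∑ v ∈ Aᶜ, (Aᶜ.filter (fun w => G.1.Adj v w)).card := by
    rw [← Finset.sum_add_distrib]
    exact Finset.sum_congr rfl (fun v _ => split_deg A G v)
  have h3 := split_cross A G.1
  have h4 : ∑ v ∈ A, (A.filter (fun w => G.1.Adj v w)).card ≤ A.card * (A.card - 1) := by
    have := Finset.sum_le_card_nsmul A (fun v => (A.filter (fun w => G.1.Adj v w)).card)
      (A.card - 1) (fun v hv => split_inner_le A G.1 v hv)
    simpa using this
  have h5 : ∑ v ∈ Aᶜ, (Aᶜ.filter (fun w => G.1.Adj v w)).card = 0 := by omega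
  have h6 : ∑ v ∈ A, (A.filter (fun w => G.1.Adj v w)).card = A.card * (A.card - 1) := by omega
  constructor
  · intro u hu v hv huv
    by_contra hadj
    have hlt : (A.filter (fun w => G.1.Adj u w)).card < A.card - 1 := by
      rw [← Finset.card_erase_of_mem hu]
      apply Finset.card_lt_card
      rw [Finset.ssubset_iff_of_subset]
      · exact ⟨v, Finset.mem_erase.mpr ⟨huv.symm, hv⟩, fun h => hadj (Finset.mem_filter.mp h).2⟩
      · intro w hw
        rw [Finset.mem_filter] at hw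
        rw [Finset.mem_erase]
        exact ⟨fun h => G.1.ne_of_adj hw.2 h.symm, hw.1⟩
    have : ∑ v ∈ A, (A.filter (fun w => G.1.Adj v w)).card < ∑ _v ∈ A, (A.card - 1) :=
      Finset.sum_lt_sum (fun v hv => split_inner_le A G.1 v hv) ⟨u, hu, hlt⟩
    simp at this
    omega
  · intro u hu v hv hadj
    have := (Finset.sum_eq_zero_iff.mp h5) u (by simpa using hu)
    rw [Finset.card_eq_zero] at this
    have hmem : v ∈ Aᶜ.filter (fun w => G.1.Adj u w) := by
      rw [Finset.mem_filter]; exact ⟨by simpa using hv, hadj⟩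
    rw [this] at hmem
    simp at hmem

/-- the table of a graph: row `i ∈ A` lists the neighbours of `i` outside `A` -/
noncomputable def splitRow {n : ℕ} (A : Finset (Fin n)) (G : SimpleGraph (Fin n)) :
    Fin n → Finset (Fin n) :=
  fun i => if i ∈ A then Aᶜ.filter (fun j => G.Adj i j) else ∅

theorem mem_splitRow {n : ℕ} {A : Finset (Fin n)} {G : SimpleGraph (Fin n)} {i j : Fin n} :
    j ∈ splitRow A G i ↔ i ∈ A ∧ j ∉ A ∧ G.Adj i j := by
  unfold splitRow
  split_ifs with h <;> simp [h]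

/-- the split graph of a table -/
def splitGraph {n : ℕ} (A : Finset (Fin n)) (X : Fin n → Finset (Fin n)) :
    SimpleGraph (Fin n) where
  Adj u v := u ≠ v ∧ ((u ∈ A ∧ v ∈ A) ∨ (u ∈ A ∧ v ∈ X u) ∨ (v ∈ A ∧ u ∈ X v))
  symm := ⟨by
    intro u v h
    obtain ⟨h1, h2⟩ := h
    refine ⟨h1.symm, ?_⟩
    tauto⟩
  loopless := ⟨fun u h => h.1 rfl⟩

theorem splitGraph_adj {n : ℕ} {A : Finset (Fin n)} {X : Fin n → Finset (Fin n)} {u v : Fin n} :
    (splitGraph A X).Adj u v ↔
      u ≠ v ∧ ((u ∈ A ∧ v ∈ A) ∨ (u ∈ A ∧ v ∈ X u) ∨ (v ∈ A ∧ u ∈ X v)) := Iff.rfl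

theorem split_inner_eq {n : ℕ} {d : Fin n → ℕ} {A : Finset (Fin n)}
    (hsplit : ∑ v ∈ A, d v = A.card * (A.card - 1) + ∑ v ∈ Aᶜ, d v) (G : Realiz n d)
    {v : Fin n} (hv : v ∈ A) : (A.filter (fun w => G.1.Adj v w)).card = A.card - 1 := by
  rw [← Finset.card_erase_of_mem hv]
  congr 1
  ext w
  rw [Finset.mem_filter, Finset.mem_erase]
  constructor
  · rintro ⟨h1, h2⟩
    exact ⟨fun h => G.1.ne_of_adj h2 h.symm, h1⟩
  · rintro ⟨h1, h2⟩
    exact ⟨h2, (split_struct hsplit G).1 v hv w h2 (Ne.symm h1)⟩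

theorem split_isTab {n : ℕ} {d : Fin n → ℕ} {A : Finset (Fin n)}
    (hsplit : ∑ v ∈ A, d v = A.card * (A.card - 1) + ∑ v ∈ Aᶜ, d v) (G : Realiz n d) :
    IsTab (rowS d A) (colS d A) (splitRow A G.1) := by
  constructor
  · intro i
    unfold rowS splitRow
    split_ifs with hi
    · have h1 := split_deg A G i
      have h2 := split_inner_eq hsplit G hi
      omega
    · simp
  · intro j
    unfold colS
    split_ifs with hj
    · rw [Finset.card_eq_zero, Finset.filter_eq_empty_iff]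
      intro i _ h
      exact (mem_splitRow.mp h).2.1 hj
    · have h1 := split_deg A G j
      have h2 : (Aᶜ.filter (fun w => G.1.Adj j w)).card = 0 := by
        rw [Finset.card_eq_zero, Finset.filter_eq_empty_iff]
        intro w hw h
        exact (split_struct hsplit G).2 j hj w (by simpa using hw) h
      rw [h1, h2, add_zero]
      congr 1
      ext i
      simp only [Finset.mem_filter, Finset.mem_univ, true_and, mem_splitRow]
      constructor
      · rintro ⟨h3, _, h4⟩
        exact ⟨h3, h4.symm⟩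
      · rintro ⟨h3, h4⟩
        exact ⟨h3, hj, h4.symm⟩

theorem tab_sub_compl {n : ℕ} {d : Fin n → ℕ} {A : Finset (Fin n)}
    (X : Tab (rowS d A) (colS d A)) {i j : Fin n} (h : j ∈ X.1 i) : i ∈ A ∧ j ∉ A := by
  constructor
  · by_contra hi
    have := X.2.1 i
    unfold rowS at this
    rw [if_neg hi, Finset.card_eq_zero] at this
    rw [this] at h
    simp at h
  · intro hj
    have := X.2.2 j
    unfold colS at this
    rw [if_pos hj, Finset.card_eq_zero, Finset.filter_eq_empty_iff] at this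
    exact this (Finset.mem_univ i) h

theorem splitGraph_degree {n : ℕ} {d : Fin n → ℕ} {A : Finset (Fin n)}
    (hsplit : ∑ v ∈ A, d v = A.card * (A.card - 1) + ∑ v ∈ Aᶜ, d v) (G0 : Realiz n d)
    (X : Tab (rowS d A) (colS d A)) (u : Fin n) :
    (univ.filter (fun w => (splitGraph A X.1).Adj u w)).card = d u := by
  by_cases hu : u ∈ A
  · have h1 : univ.filter (fun w => (splitGraph A X.1).Adj u w) = A.erase u ∪ X.1 u := by
      ext w
      simp only [Finset.mem_filter, Finset.mem_univ, true_and, Finset.mem_union, Finset.mem_erase,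
        splitGraph_adj]
      constructor
      · rintro ⟨h1, h2 | h2 | h2⟩
        · exact Or.inl ⟨h1.symm, h2.2⟩
        · exact Or.inr h2.2
        · exact absurd hu (tab_sub_compl X h2.2).2
      · rintro (h | h)
        · exact ⟨h.1.symm, Or.inl ⟨hu, h.2⟩⟩
        · refine ⟨?_, Or.inr (Or.inl ⟨hu, h⟩)⟩
          rintro rfl
          exact (tab_sub_compl X h).2 hu
    rw [h1, Finset.card_union_of_disjoint, Finset.card_erase_of_mem hu, X.2.1 u]
    · unfold rowS
      rw [if_pos hu]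
      have h2 := split_deg A G0 u
      have h3 := split_inner_eq hsplit G0 hu
      omega
    · rw [Finset.disjoint_left]
      intro w hw hw'
      exact (tab_sub_compl X hw').2 (Finset.mem_erase.mp hw).2
  · have h1 : univ.filter (fun w => (splitGraph A X.1).Adj u w)
        = univ.filter (fun w => u ∈ X.1 w) := by
      ext w
      simp only [Finset.mem_filter, Finset.mem_univ, true_and, splitGraph_adj]
      constructor
      · rintro ⟨_, h2 | h2 | h2⟩
        · exact absurd h2.1 hu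
        · exact absurd h2.1 hu
        · exact h2.2
      · intro h
        refine ⟨?_, Or.inr (Or.inr ⟨(tab_sub_compl X h).1, h⟩)⟩
        rintro rfl
        exact hu (tab_sub_compl X h).1
    rw [h1, X.2.2 u]
    unfold colS
    rw [if_neg hu]

/-- the equivalence between realizations and tables -/
noncomputable def splitEquiv {n : ℕ} {d : Fin n → ℕ} {A : Finset (Fin n)}
    (hsplit : ∑ v ∈ A, d v = A.card * (A.card - 1) + ∑ v ∈ Aᶜ, d v) (G0 : Realiz n d) :
    Realiz n d ≃ Tab (rowS d A) (colS d A) where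
  toFun G := ⟨splitRow A G.1, split_isTab hsplit G⟩
  invFun X := ⟨splitGraph A X.1, splitGraph_degree hsplit G0 X⟩
  left_inv := by
    intro G
    apply Subtype.ext
    ext u v
    simp only [splitGraph_adj, mem_splitRow]
    constructor
    · rintro ⟨h1, h2 | h2 | h2⟩
      · exact (split_struct hsplit G).1 u h2.1 v h2.2 h1
      · exact h2.2.2.2
      · exact h2.2.2.2.symm
    · intro h
      refine ⟨G.1.ne_of_adj h, ?_⟩
      by_cases hu : u ∈ A
      · by_cases hv : v ∈ A
        · exact Or.inl ⟨hu, hv⟩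
        · exact Or.inr (Or.inl ⟨hu, hu, hv, h⟩)
      · by_cases hv : v ∈ A
        · exact Or.inr (Or.inr ⟨hv, hv, hu, h.symm⟩)
        · exact absurd h ((split_struct hsplit G).2 u hu v hv)
  right_inv := by
    intro X
    apply Subtype.ext
    funext i
    ext j
    simp only [mem_splitRow, splitGraph_adj]
    constructor
    · rintro ⟨h1, h2, _, h4 | h4 | h4⟩
      · exact absurd h4.2 h2
      · exact h4.2
      · exact absurd h4.1 h2
    · intro h
      have h' := tab_sub_compl X h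
      refine ⟨h'.1, h'.2, ?_, Or.inr (Or.inl ⟨h'.1, h⟩)⟩
      rintro rfl
      exact h'.2 h'.1

theorem split_colsum_pair {ι κ : Type*} [DecidableEq ι] [DecidableEq κ]
    {i i' : ι} (hii : i ≠ i') (X : ι → Finset κ) (j : κ) :
    colsum {i, i'} X j = (if j ∈ X i then 1 else 0) + (if j ∈ X i' then 1 else 0) := by
  unfold colsum
  rw [Finset.filter_insert, Finset.filter_singleton]
  split_ifs with h1 h2 h2
  · rw [Finset.card_insert_of_notMem (by simpa using hii)]; simp
  · simp
  · simp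
  · simp

/-- if `tau` moves the table, the four entries form an alternating rectangle -/
theorem split_tau_moves {ι κ : Type*} [Fintype ι] [DecidableEq ι] [Fintype κ] [DecidableEq κ]
    {r : ι → ℕ} {c : κ → ℕ} {i i' : ι} {j j' : κ} {X : Tab r c}
    (h : tau {i, i'} j j' X ≠ X) :
    i ≠ i' ∧ ((j ∈ X.1 i ∧ j' ∉ X.1 i ∧ j' ∈ X.1 i' ∧ j ∉ X.1 i') ∨
      (j' ∈ X.1 i ∧ j ∉ X.1 i ∧ j ∈ X.1 i' ∧ j' ∉ X.1 i')) := by
  have hii : i ≠ i' := by
    rintro rfl
    apply h
    rw [Finset.pair_eq_singleton]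
    exact eq_of_key_singleton (tau_key _ _ _ _)
  refine ⟨hii, ?_⟩
  have hc : colsum {i, i'} X.1 j = colsum {i, i'} X.1 j' := by
    by_contra hc
    exact h (tau_of_ne hc)
  rw [split_colsum_pair hii, split_colsum_pair hii] at hc
  by_contra hcon
  apply h
  apply Subtype.ext
  funext k
  by_cases hk : k ∈ ({i, i'} : Finset ι)
  · apply tau_row_of_iff
    rw [Finset.mem_insert, Finset.mem_singleton] at hk
    rcases hk with rfl | rfl
    · by_cases p1 : j ∈ X.1 k <;> by_cases p2 : j' ∈ X.1 k <;> by_cases p3 : j ∈ X.1 i' <;>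
        by_cases p4 : j' ∈ X.1 i' <;> simp_all
    · by_cases p1 : j ∈ X.1 i <;> by_cases p2 : j' ∈ X.1 i <;> by_cases p3 : j ∈ X.1 k <;>
        by_cases p4 : j' ∈ X.1 k <;> simp_all
  · exact tau_row_of_not_mem _ _ _ _ hk

theorem split_switch_row {n : ℕ} {A : Finset (Fin n)} (G : SimpleGraph (Fin n))
    {i i' j j' : Fin n} (hi : i ∈ A) (hi' : i' ∈ A) (hj : j ∉ A) (hj' : j' ∉ A)
    (hii : i ≠ i') (hjj : j ≠ j')
    (a1 : G.Adj i j) (a2 : G.Adj i' j') (a3 : ¬ G.Adj i j') (a4 : ¬ G.Adj i' j)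
    (q : Fin 4 ↪ Fin n) (q0 : q 0 = i) (q1 : q 1 = j) (q2 : q 2 = j') (q3 : q 3 = i') :
    splitRow A (switchG G q) = act {i, i'} (Equiv.swap j j') (splitRow A G) := by
  have hfire : G.Adj (q 0) (q 1) ∧ G.Adj (q 2) (q 3) ∧ ¬ G.Adj (q 0) (q 2) ∧
      ¬ G.Adj (q 1) (q 3) := by
    rw [q0, q1, q2, q3]; exact ⟨a1, a2.symm, a3, fun h => a4 h.symm⟩
  unfold switchG
  rw [if_pos hfire, q0, q1, q2, q3]
  funext k
  ext l
  rw [mem_splitRow, mem_act, Equiv.symm_swap]
  simp only [SimpleGraph.sup_adj, SimpleGraph.sdiff_adj, SimpleGraph.fromEdgeSet_adj,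
    Set.mem_insert_iff, Set.mem_singleton_iff, Sym2.eq_iff, Finset.mem_insert,
    Finset.mem_singleton, mem_splitRow]
  by_cases hk : k ∈ A
  · by_cases hl : l ∈ A
    · have l1 : l ≠ j := fun h => hj (h ▸ hl)
      have l2 : l ≠ j' := fun h => hj' (h ▸ hl)
      rw [Equiv.swap_apply_of_ne_of_ne l1 l2]
      simp [hl]
    · have kj : k ≠ j := fun h => hj (h ▸ hk)
      have kj' : k ≠ j' := fun h => hj' (h ▸ hk)
      have li : l ≠ i := fun h => hl (h ▸ hi)
      have li' : l ≠ i' := fun h => hl (h ▸ hi')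
      have kl : k ≠ l := fun h => hl (h ▸ hk)
      by_cases k1 : k = i
      · subst k1
        by_cases l1 : l = j
        · subst l1
          simp [hk, hl, hii, hjj, a1, a3, kl, hj', kj']
        · by_cases l2 : l = j'
          · subst l2
            simp [hk, hl, hii, a1, a3, kl, hj]
          · rw [Equiv.swap_apply_of_ne_of_ne l1 l2]
            simp [hk, hl, hii, l1, l2, kl, li, li', kj, kj']
      · by_cases k2 : k = i'
        · subst k2
          by_cases l1 : l = j
          · subst l1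
            simp [hk, hl, hjj, a2, a4, kl, hj', Ne.symm hii]
          · by_cases l2 : l = j'
            · subst l2
              simp [hk, hl, a2, a4, kl, hj, Ne.symm hii, Ne.symm hjj, kj]
            · rw [Equiv.swap_apply_of_ne_of_ne l1 l2]
              simp [hk, hl, l1, l2, kl, li, li', kj, kj', Ne.symm hii]
        · simp [hk, hl, k1, k2, kl, li, li', kj, kj']
  · have k1 : k ≠ i := fun h => hk (h ▸ hi)
    have k2 : k ≠ i' := fun h => hk (h ▸ hi')
    simp [hk, k1, k2]

/-- an alternating rectangle of the table: the table move is a switch of the graph -/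
theorem split_move {n : ℕ} {d : Fin n → ℕ} {A : Finset (Fin n)}
    (hsplit : ∑ v ∈ A, d v = A.card * (A.card - 1) + ∑ v ∈ Aᶜ, d v) (G0 G : Realiz n d)
    {i i' j j' : Fin n} (hii : i ≠ i')
    (p1 : j ∈ splitRow A G.1 i) (p2 : j' ∉ splitRow A G.1 i)
    (p3 : j' ∈ splitRow A G.1 i') (p4 : j ∉ splitRow A G.1 i') :
    ∃ q : Fin 4 ↪ Fin n, q 0 = i ∧ q 1 = j ∧ q 2 = j' ∧ q 3 = i' ∧
      (splitEquiv hsplit G0).symm (tau {i, i'} j j' (splitEquiv hsplit G0 G)) = stepR q G := by
  obtain ⟨hi, hj, a1⟩ := mem_splitRow.mp p1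
  obtain ⟨hi', hj', a2⟩ := mem_splitRow.mp p3
  have a3 : ¬ G.1.Adj i j' := fun h => p2 (mem_splitRow.mpr ⟨hi, hj', h⟩)
  have a4 : ¬ G.1.Adj i' j := fun h => p4 (mem_splitRow.mpr ⟨hi', hj, h⟩)
  have hjj : j ≠ j' := by
    rintro rfl
    exact p2 p1
  have e1 : i ≠ j := fun h => hj (h ▸ hi)
  have e2 : i ≠ j' := fun h => hj' (h ▸ hi)
  have e3 : i' ≠ j := fun h => hj (h ▸ hi')
  have e4 : i' ≠ j' := fun h => hj' (h ▸ hi')
  have hinj : Function.Injective ![i, j, j', i'] := by
    intro a b hab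
    fin_cases a <;> fin_cases b <;>
      simp_all [Ne.symm hii, Ne.symm hjj, Ne.symm e1, Ne.symm e2, Ne.symm e3, Ne.symm e4]
  refine ⟨⟨![i, j, j', i'], hinj⟩, rfl, rfl, rfl, rfl, ?_⟩
  rw [Equiv.symm_apply_eq]
  apply Subtype.ext
  have hc : colsum {i, i'} (splitEquiv hsplit G0 G).1 j
      = colsum {i, i'} (splitEquiv hsplit G0 G).1 j' := by
    rw [split_colsum_pair hii, split_colsum_pair hii]
    have q1 : j ∈ (splitEquiv hsplit G0 G).1 i := p1
    have q2 : j' ∉ (splitEquiv hsplit G0 G).1 i := p2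
    have q3 : j' ∈ (splitEquiv hsplit G0 G).1 i' := p3
    have q4 : j ∉ (splitEquiv hsplit G0 G).1 i' := p4
    simp [q1, q2, q3, q4]
  rw [tau_val_of_eq hc]
  exact (split_switch_row G.1 hi hi' hj hj' hii hjj a1 a2 a3 a4 ⟨![i, j, j', i'], hinj⟩
    rfl rfl rfl rfl).symm

theorem split_equiv_exists {n : ℕ} (d : Fin n → ℕ) (A : Finset (Fin n))
    (hsplit : ∑ v ∈ A, d v = A.card * (A.card - 1) + ∑ v ∈ Aᶜ, d v) (G0 : Realiz n d) :
    ∃ e : Realiz n d ≃ Tab (rowS d A) (colS d A),
      ∀ f : Realiz n d → ℝ,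
        ∑ G, ∑ i, ∑ i', ∑ j, ∑ j', (f G - f (e.symm (tau {i, i'} j j' (e G)))) ^ 2
          ≤ 2 * ∑ G, ∑ q : Fin 4 ↪ Fin n, (f G - f (stepR q G)) ^ 2 := by
  refine ⟨splitEquiv hsplit G0, fun f => ?_⟩
  rw [Finset.mul_sum]
  refine Finset.sum_le_sum (fun G _ => ?_)
  set e := splitEquiv hsplit G0 with he
  set H : (Fin 4 ↪ Fin n) → ℝ := fun q => (f G - f (stepR q G)) ^ 2 with hH
  have hHnn : ∀ q, 0 ≤ H q := fun q => sq_nonneg _
  have hprod : ∀ F : Fin n → Fin n → Fin n → Fin n → ℝ,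
      ∑ i, ∑ i', ∑ j, ∑ j', F i i' j j'
        = ∑ t : Fin n × Fin n × Fin n × Fin n, F t.1 t.2.1 t.2.2.1 t.2.2.2 := by
    intro F
    simp only [Fintype.sum_prod_type]
  rw [hprod]
  have hfib : ∀ Ψ : (Fin 4 ↪ Fin n) → Fin n × Fin n × Fin n × Fin n,
      ∑ t : Fin n × Fin n × Fin n × Fin n, ∑ q, (if Ψ q = t then H q else 0) = ∑ q, H q := by
    intro Ψ
    rw [Finset.sum_comm]
    refine Finset.sum_congr rfl (fun q _ => ?_)
    rw [Finset.sum_ite_eq]
    simp
  have hsingle : ∀ (Ψ : (Fin 4 ↪ Fin n) → Fin n × Fin n × Fin n × Fin n)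
      (t : Fin n × Fin n × Fin n × Fin n) (q : Fin 4 ↪ Fin n), Ψ q = t →
      H q ≤ ∑ q, (if Ψ q = t then H q else 0) := by
    intro Ψ t q hq
    have := Finset.single_le_sum (f := fun q => if Ψ q = t then H q else 0)
      (fun q _ => by split_ifs <;> simp [hHnn]) (Finset.mem_univ q)
    simpa [hq] using this
  have hnn : ∀ (Ψ : (Fin 4 ↪ Fin n) → Fin n × Fin n × Fin n × Fin n)
      (t : Fin n × Fin n × Fin n × Fin n), 0 ≤ ∑ q, (if Ψ q = t then H q else 0) := by
    intro Ψ t
    exact Finset.sum_nonneg (fun q _ => by split_ifs <;> simp [hHnn])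
  calc ∑ t : Fin n × Fin n × Fin n × Fin n,
        (f G - f (e.symm (tau {t.1, t.2.1} t.2.2.1 t.2.2.2 (e G)))) ^ 2
      ≤ ∑ t : Fin n × Fin n × Fin n × Fin n,
        (∑ q, (if (fun q : Fin 4 ↪ Fin n => (q 0, q 3, q 1, q 2)) q = t then H q else 0)
          + ∑ q, (if (fun q : Fin 4 ↪ Fin n => (q 0, q 3, q 2, q 1)) q = t then H q else 0)) := by
        refine Finset.sum_le_sum (fun t _ => ?_)
        obtain ⟨i, i', j, j'⟩ := t
        by_cases hmove : tau {i, i'} j j' (e G) = e G
        · simp only [hmove, Equiv.symm_apply_apply, sub_self]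
          have := hnn (fun q : Fin 4 ↪ Fin n => (q 0, q 3, q 1, q 2)) (i, i', j, j')
          have := hnn (fun q : Fin 4 ↪ Fin n => (q 0, q 3, q 2, q 1)) (i, i', j, j')
          simp only [ne_eq, OfNat.ofNat_ne_zero, not_false_eq_true, zero_pow]
          linarith
        · obtain ⟨hii, hpat | hpat⟩ := split_tau_moves hmove
          · obtain ⟨q, q0, q1, q2, q3, hq⟩ :=
              split_move hsplit G0 G hii hpat.1 hpat.2.1 hpat.2.2.1 hpat.2.2.2
            have h1 := hsingle (fun q : Fin 4 ↪ Fin n => (q 0, q 3, q 1, q 2)) (i, i', j, j') q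
              (by simp [q0, q1, q2, q3])
            have h2 := hnn (fun q : Fin 4 ↪ Fin n => (q 0, q 3, q 2, q 1)) (i, i', j, j')
            have h3 : (f G - f (e.symm (tau {i, i'} j j' (e G)))) ^ 2 = H q := by
              rw [hH, he, hq]
            simp only
            rw [h3]
            linarith
          · obtain ⟨q, q0, q1, q2, q3, hq⟩ :=
              split_move hsplit G0 G hii hpat.1 hpat.2.1 hpat.2.2.1 hpat.2.2.2
            have h1 := hsingle (fun q : Fin 4 ↪ Fin n => (q 0, q 3, q 2, q 1)) (i, i', j, j') q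
              (by simp [q0, q1, q2, q3])
            have h2 := hnn (fun q : Fin 4 ↪ Fin n => (q 0, q 3, q 1, q 2)) (i, i', j, j')
            have h3 : (f G - f (e.symm (tau {i, i'} j j' (e G)))) ^ 2 = H q := by
              rw [hH, he, tau_comm_cols, hq]
            simp only
            rw [h3]
            linarith
    _ = 2 * ∑ q, H q := by
        rw [Finset.sum_add_distrib, hfib, hfib]
        ring

end Vale.Agent.Lib.P335
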