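import Vale.Agent.Lib.P335.Core
import Vale.Agent.Lib.P335.Mixing
import Vale.Agent.Lib.P335.Split
import Vale.Agent.Lib.P335.Arith

/-! Final assembly. -/

namespace Vale.Agent.Lib.P335

open Finset Classical

theorem graph_poincare {n : ℕ} (d : Fin n → ℕ) (A : Finset (Fin n))
    (hsplit : ∑ v ∈ A, d v = A.card * (A.card - 1) + ∑ v ∈ Aᶜ, d v)
    (f : Realiz n d → ℝ) (hf : ∑ G, f G = 0) :
    8 * ∑ G, f G ^ 2 ≤ ∑ G, ∑ q : Fin 4 ↪ Fin n, (f G - f (stepR q G)) ^ 2 := by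
  by_cases hne : Nonempty (Realiz n d)
  · obtain ⟨G0⟩ := hne
    obtain ⟨e, he⟩ := split_equiv_exists d A hsplit G0
    have h1 := table_poincare (rowS d A) (colS d A) (fun X => f (e.symm X))
      (by rw [← hf]; exact Equiv.sum_comp e.symm f)
    have h2 : ∑ X, (fun X => f (e.symm X)) X ^ 2 = ∑ G, f G ^ 2 :=
      Equiv.sum_comp e.symm (fun G => f G ^ 2)
    have h3 : ∑ X, ∑ i, ∑ i', ∑ j, ∑ j',
        ((fun X => f (e.symm X)) X - (fun X => f (e.symm X)) (tau {i, i'} j j' X)) ^ 2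
        = ∑ G, ∑ i, ∑ i', ∑ j, ∑ j', (f G - f (e.symm (tau {i, i'} j j' (e G)))) ^ 2 := by
      rw [← Equiv.sum_comp e]
      simp
    rw [h2, h3] at h1
    have := he f
    linarith
  · have : IsEmpty (Realiz n d) := not_nonempty_iff.mp hne
    simp

theorem split_mixed (n : ℕ) (d : Fin n → ℕ) (A : Finset (Fin n)) (hn : 4 ≤ n)
    (hsplit : ∑ v ∈ A, d v = A.card * (A.card - 1) + ∑ v ∈ Aᶜ, d v)
    (t : ℕ) (ht : n ^ 6 ≤ t) : MixedAt n d t := by
  intro G
  have hT : Nonempty (Fin 4 ↪ Fin n) := by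
    exact ⟨(Fin.castLEEmb hn)⟩
  have hcard2 : 2 ≤ Fintype.card (Fin 4 ↪ Fin n) := by
    rw [Fintype.card_embedding_eq]
    simp only [Fintype.card_fin]
    calc 2 ≤ (4 : ℕ).descFactorial 4 := by decide
      _ ≤ n.descFactorial 4 := Nat.descFactorial_le 4 hn
  have hk4 : (8 : ℝ) ≤ 4 * (Fintype.card (Fin 4 ↪ Fin n) : ℝ) := by
    have : (2 : ℝ) ≤ (Fintype.card (Fin 4 ↪ Fin n) : ℝ) := by exact_mod_cast hcard2
    linarith
  have hb := mixing_bound (Ω := Realiz n d) (T := Fin 4 ↪ Fin n) (fun q G => stepR q G)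
    stepR_symm 8 (by norm_num) hk4 (graph_poincare d A hsplit) (switchP n d)
    (by
      intro x y
      unfold switchP
      have : (univ.filter (fun q : Fin 4 ↪ Fin n => switchG x.1 q = y.1))
          = (univ.filter (fun q : Fin 4 ↪ Fin n => stepR q x = y)) := by
        ext q
        simp only [mem_filter, mem_univ, true_and]
        exact (Subtype.ext_iff (a1 := stepR q x) (a2 := y)).symm
      rw [this]) t G
  have hcard : Fintype.card (Fin 4 ↪ Fin n) ≤ n ^ 4 := by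
    rw [Fintype.card_embedding_eq]
    simpa using Nat.descFactorial_le_pow n 4
  have har := final_arith n t hn ht _ _ (card_realiz_le n d) hcard hcard2
  have hsq : (∑ y, |(switchP n d ^ t) G y - 1 / (Fintype.card (Realiz n d) : ℝ)|) ^ 2
      ≤ (1 / 2) ^ 2 := by
    refine le_trans hb (le_trans har (by norm_num))
  have hle : ∑ y, |(switchP n d ^ t) G y - 1 / (Fintype.card (Realiz n d) : ℝ)| ≤ 1 / 2 :=
    abs_le_of_sq_le_sq' hsq (by norm_num) |>.2
  unfold tvDist
  linarith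

end Vale.Agent.Lib.P335
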