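import Vale.Agent.Lib.P335.Defs

/-! Module Switch: general facts on `switchG`. -/

namespace Vale.Agent.Lib.P335

open Finset Classical

/-- the graph after exchanging `ab, ce` for `ac, be` -/
private noncomputable def swG {V : Type*} (G : SimpleGraph V) (a b c e : V) : SimpleGraph V :=
  (G \ SimpleGraph.fromEdgeSet {s(a, b), s(c, e)}) ⊔ SimpleGraph.fromEdgeSet {s(a, c), s(b, e)}

private theorem sw_adj {V : Type*} (G : SimpleGraph V) (a b c e v w : V) :
    (swG G a b c e).Adj v w ↔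
      (G.Adj v w ∧ ¬ ((v = a ∧ w = b ∨ v = b ∧ w = a) ∨ (v = c ∧ w = e ∨ v = e ∧ w = c))) ∨
      (((v = a ∧ w = c ∨ v = c ∧ w = a) ∨ (v = b ∧ w = e ∨ v = e ∧ w = b)) ∧ v ≠ w) := by
  unfold swG
  simp only [SimpleGraph.sup_adj, SimpleGraph.sdiff_adj, SimpleGraph.fromEdgeSet_adj,
    Set.mem_insert_iff, Set.mem_singleton_iff, Sym2.eq_iff]
  constructor
  · rintro (⟨h1, h2⟩ | h)
    · left
      refine ⟨h1, fun h => h2 ⟨h, h1.ne⟩⟩
    · right; exact h
  · rintro (⟨h1, h2⟩ | h)
    · left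
      exact ⟨h1, fun h => h2 h.1⟩
    · right; exact h

private theorem sw_nbr_a {V : Type*} [DecidableEq V] (G : SimpleGraph V) (a b c e : V)
    (hab : a ≠ b) (hac : a ≠ c) (hae : a ≠ e) (hbc : b ≠ c)
    (h1 : G.Adj a b) (h3 : ¬ G.Adj a c) (w : V) :
    (swG G a b c e).Adj a w ↔ G.Adj a (Equiv.swap b c w) := by
  rw [sw_adj]
  by_cases hwb : w = b
  · subst hwb
    simp [Equiv.swap_apply_left, h3, hab, hac, hae, hbc, hab.symm, hac.symm, hae.symm]
  by_cases hwc : w = c
  · subst hwc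
    simp [Equiv.swap_apply_right, h1, hab, hac, hae, hbc, hab.symm, hac.symm, hae.symm]
  rw [Equiv.swap_apply_of_ne_of_ne hwb hwc]
  simp [hwb, hwc, hab, hac, hae, hab.symm, hac.symm, hae.symm]

private theorem sw_symm1 {V : Type*} (G : SimpleGraph V) (a b c e : V) :
    swG G a b c e = swG G b a e c := by
  ext v w
  rw [sw_adj, sw_adj]
  tauto

private theorem sw_symm2 {V : Type*} (G : SimpleGraph V) (a b c e : V) :
    swG G a b c e = swG G c e a b := by
  ext v w
  rw [sw_adj, sw_adj]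
  tauto

private theorem sw_nbr_other {V : Type*} (G : SimpleGraph V) (a b c e v : V)
    (hva : v ≠ a) (hvb : v ≠ b) (hvc : v ≠ c) (hve : v ≠ e) (w : V) :
    (swG G a b c e).Adj v w ↔ G.Adj v w := by
  rw [sw_adj]
  simp [hva, hvb, hvc, hve]

private theorem sw_card_perm {V : Type*} [Fintype V] (σ : Equiv.Perm V) (p : V → Prop) :
    (univ.filter (fun w => p (σ w))).card = (univ.filter p).card := by
  refine Finset.card_bij (fun w _ => σ w) ?_ ?_ ?_
  · intro w hw
    simpa using hw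
  · intro w _ w' _ h
    exact σ.injective h
  · intro w hw
    refine ⟨σ.symm w, ?_, by simp⟩
    simpa using hw

private theorem sw_degree {V : Type*} [Fintype V] (G : SimpleGraph V) (a b c e : V)
    (hab : a ≠ b) (hac : a ≠ c) (hae : a ≠ e) (hbc : b ≠ c) (hbe : b ≠ e) (hce : c ≠ e)
    (h1 : G.Adj a b) (h2 : G.Adj c e) (h3 : ¬ G.Adj a c) (h4 : ¬ G.Adj b e) (v : V) :
    (univ.filter (fun w => (swG G a b c e).Adj v w)).card
      = (univ.filter (fun w => G.Adj v w)).card := by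
  by_cases hva : v = a
  · subst hva
    rw [← sw_card_perm (Equiv.swap b c) (fun w => G.Adj v w)]
    congr 1
    ext w
    simp only [mem_filter, mem_univ, true_and]
    exact sw_nbr_a G v b c e hab hac hae hbc h1 h3 w
  by_cases hvb : v = b
  · subst hvb
    rw [← sw_card_perm (Equiv.swap a e) (fun w => G.Adj v w)]
    congr 1
    ext w
    simp only [mem_filter, mem_univ, true_and]
    rw [sw_symm1]
    exact sw_nbr_a G v a e c hab.symm hbe hbc hae h1.symm h4 w
  by_cases hvc : v = c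
  · subst hvc
    rw [← sw_card_perm (Equiv.swap e a) (fun w => G.Adj v w)]
    congr 1
    ext w
    simp only [mem_filter, mem_univ, true_and]
    rw [sw_symm2]
    exact sw_nbr_a G v e a b hce hac.symm hbc.symm hae.symm h2 (fun h => h3 h.symm) w
  by_cases hve : v = e
  · subst hve
    rw [← sw_card_perm (Equiv.swap c b) (fun w => G.Adj v w)]
    congr 1
    ext w
    simp only [mem_filter, mem_univ, true_and]
    rw [sw_symm2, sw_symm1]
    exact sw_nbr_a G v c b a hce.symm hbe.symm hae.symm hbc.symm h2.symm (fun h => h4 h.symm) w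
  congr 1
  ext w
  simp only [mem_filter, mem_univ, true_and]
  exact sw_nbr_other G a b c e v hva hvb hvc hve w

private theorem sw_undo {V : Type*} (G : SimpleGraph V) (a b c e : V)
    (hab : a ≠ b) (hac : a ≠ c) (hae : a ≠ e) (hbc : b ≠ c) (hbe : b ≠ e) (hce : c ≠ e)
    (h1 : G.Adj a b) (h2 : G.Adj c e) (h3 : ¬ G.Adj a c) (h4 : ¬ G.Adj b e) :
    swG (swG G a b c e) a c b e = G := by
  ext v w
  rw [sw_adj, sw_adj]
  constructor
  · rintro (⟨h | h, h'⟩ | ⟨h, h'⟩)
    · exact h.1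
    · exact absurd h.1 h'
    · rcases h with (⟨rfl, rfl⟩ | ⟨rfl, rfl⟩) | (⟨rfl, rfl⟩ | ⟨rfl, rfl⟩)
      · exact h1
      · exact h1.symm
      · exact h2
      · exact h2.symm
  · intro h
    by_cases hr : ((v = a ∧ w = b ∨ v = b ∧ w = a) ∨ (v = c ∧ w = e ∨ v = e ∧ w = c))
    · right
      exact ⟨hr, h.ne⟩
    · left
      refine ⟨Or.inl ⟨h, hr⟩, ?_⟩
      rintro ((⟨rfl, rfl⟩ | ⟨rfl, rfl⟩) | (⟨rfl, rfl⟩ | ⟨rfl, rfl⟩))
      · exact h3 h
      · exact h3 h.symm
      · exact h4 h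
      · exact h4 h.symm

private theorem sw_switchG {n : ℕ} (G : SimpleGraph (Fin n)) (q : Fin 4 ↪ Fin n) :
    switchG G q =
      if G.Adj (q 0) (q 1) ∧ G.Adj (q 2) (q 3) ∧ ¬ G.Adj (q 0) (q 2) ∧ ¬ G.Adj (q 1) (q 3) then
        swG G (q 0) (q 1) (q 2) (q 3) else G := rfl

private theorem sw_ne {n : ℕ} (q : Fin 4 ↪ Fin n) {i j : Fin 4} (h : i ≠ j) : q i ≠ q j :=
  fun h' => h (q.injective h')

theorem switchG_degree {n : ℕ} {d : Fin n → ℕ} (G : Realiz n d) (q : Fin 4 ↪ Fin n) :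
    ∀ v, (univ.filter (fun w => (switchG G.1 q).Adj v w)).card = d v := by
  intro v
  rw [sw_switchG]
  split_ifs with h
  · rw [sw_degree G.1 (q 0) (q 1) (q 2) (q 3) (sw_ne q (by decide)) (sw_ne q (by decide))
      (sw_ne q (by decide)) (sw_ne q (by decide)) (sw_ne q (by decide)) (sw_ne q (by decide))
      h.1 h.2.1 h.2.2.1 h.2.2.2 v]
    exact G.2 v
  · exact G.2 v

/-- the move as a map on realizations -/
noncomputable def stepR {n : ℕ} {d : Fin n → ℕ} (q : Fin 4 ↪ Fin n) (G : Realiz n d) : Realiz n d :=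
  ⟨switchG G.1 q, switchG_degree G q⟩

/-- the reversing relabelling `(q0,q1,q2,q3) -> (q0,q2,q1,q3)` -/
private def swRev {n : ℕ} (q : Fin 4 ↪ Fin n) : Fin 4 ↪ Fin n :=
  (Equiv.swap (1 : Fin 4) 2).toEmbedding.trans q

private theorem swRev_swRev {n : ℕ} (q : Fin 4 ↪ Fin n) : swRev (swRev q) = q := by
  ext i
  simp [swRev]

private theorem sw_step_undo {n : ℕ} {d : Fin n → ℕ} (G G' : Realiz n d) (hne : G ≠ G')
    (q : Fin 4 ↪ Fin n) (h : stepR q G = G') : stepR (swRev q) G' = G := by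
  have h0 : swRev q 0 = q 0 := by
    simp only [swRev, Function.Embedding.trans_apply, Equiv.coe_toEmbedding]
    rw [Equiv.swap_apply_of_ne_of_ne (by decide) (by decide)]
  have h1 : swRev q 1 = q 2 := by
    simp [swRev]
  have h2 : swRev q 2 = q 1 := by
    simp [swRev]
  have h3 : swRev q 3 = q 3 := by
    simp only [swRev, Function.Embedding.trans_apply, Equiv.coe_toEmbedding]
    rw [Equiv.swap_apply_of_ne_of_ne (by decide) (by decide)]
  have hG' : switchG G.1 q = G'.1 := congrArg Subtype.val h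
  have n01 : q 0 ≠ q 1 := sw_ne q (by decide)
  have n02 : q 0 ≠ q 2 := sw_ne q (by decide)
  have n03 : q 0 ≠ q 3 := sw_ne q (by decide)
  have n12 : q 1 ≠ q 2 := sw_ne q (by decide)
  have n13 : q 1 ≠ q 3 := sw_ne q (by decide)
  have n23 : q 2 ≠ q 3 := sw_ne q (by decide)
  rw [sw_switchG] at hG'
  split_ifs at hG' with hc
  · apply Subtype.ext
    show switchG G'.1 (swRev q) = G.1
    rw [sw_switchG, h0, h1, h2, h3, ← hG']
    have c1 : (swG G.1 (q 0) (q 1) (q 2) (q 3)).Adj (q 0) (q 2) := by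
      rw [sw_adj]; right; exact ⟨Or.inl (Or.inl ⟨rfl, rfl⟩), n02⟩
    have c2 : (swG G.1 (q 0) (q 1) (q 2) (q 3)).Adj (q 1) (q 3) := by
      rw [sw_adj]; right; exact ⟨Or.inr (Or.inl ⟨rfl, rfl⟩), n13⟩
    have c3 : ¬ (swG G.1 (q 0) (q 1) (q 2) (q 3)).Adj (q 0) (q 1) := by
      rw [sw_adj]
      simp [n01, n02, n03, n12, n13, n23, n01.symm, n02.symm, n03.symm, n12.symm, n13.symm,
        n23.symm]
    have c4 : ¬ (swG G.1 (q 0) (q 1) (q 2) (q 3)).Adj (q 2) (q 3) := by
      rw [sw_adj]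
      simp [n01, n02, n03, n12, n13, n23, n01.symm, n02.symm, n03.symm, n12.symm, n13.symm,
        n23.symm]
    rw [if_pos ⟨c1, c2, c3, c4⟩]
    exact sw_undo G.1 (q 0) (q 1) (q 2) (q 3) n01 n02 n03 n12 n13 n23 hc.1 hc.2.1 hc.2.2.1 hc.2.2.2
  · exact absurd (Subtype.ext hG') hne

theorem stepR_symm {n : ℕ} {d : Fin n → ℕ} (G G' : Realiz n d) :
    (univ.filter (fun q : Fin 4 ↪ Fin n => stepR q G = G')).card
      = (univ.filter (fun q : Fin 4 ↪ Fin n => stepR q G' = G)).card := by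
  by_cases hne : G = G'
  · subst hne; rfl
  refine Finset.card_bij' (fun q _ => swRev q) (fun q _ => swRev q) ?_ ?_ ?_ ?_
  · intro q hq
    simp only [mem_filter, mem_univ, true_and] at hq ⊢
    exact sw_step_undo G G' hne q hq
  · intro q hq
    simp only [mem_filter, mem_univ, true_and] at hq ⊢
    exact sw_step_undo G' G (fun h => hne h.symm) q hq
  · intro q _; exact swRev_swRev q
  · intro q _; exact swRev_swRev q

theorem card_realiz_le (n : ℕ) (d : Fin n → ℕ) : Fintype.card (Realiz n d) ≤ 2 ^ (n * n) := by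
  have hinj : Function.Injective
      (fun (G : Realiz n d) (p : Fin n × Fin n) => decide (G.1.Adj p.1 p.2)) := by
    intro G G' h
    apply Subtype.ext
    ext v w
    have := congrFun h (v, w)
    simpa using this
  have := Fintype.card_le_of_injective _ hinj
  simpa using this

end Vale.Agent.Lib.P335
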