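import Vale.Agent.Lib.P335.G.GFinal

/-!
The switch chain of problem P335, written exactly as in the problem text (a uniformly random
4-set `S`, then a uniformly random ordered pair of distinct perfect matchings of the complete graph
on `S`), and the proof that its transition matrix is the matrix `switchP` of `Defs.lean`.
-/

namespace Vale.Agent.Lib.P335

open Finset Classical

/-- `F` is a perfect matching of the complete graph on the 4-set `S`: `F = {ab, cd}` for some
labelling `S = {a, b, c, d}`. -/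
def IsPM {n : ℕ} (S : Finset (Fin n)) (F : Finset (Sym2 (Fin n))) : Prop :=
  ∃ a b c d : Fin n, S = {a, b, c, d} ∧ F = {s(a, b), s(c, d)}

/-- the ordered pairs `(F, F')` of distinct perfect matchings of the complete graph on `S` -/
noncomputable def pmPairs {n : ℕ} (S : Finset (Fin n)) :
    Finset (Finset (Sym2 (Fin n)) × Finset (Sym2 (Fin n))) :=
  univ.filter (fun p => IsPM S p.1 ∧ IsPM S p.2 ∧ p.1 ≠ p.2)

/-- the proposed move: if all edges of `F` are present and all edges of `F'` are absent, replace `F`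
by `F'`; otherwise stay put -/
noncomputable def applyMove {n : ℕ} (G : SimpleGraph (Fin n)) (F F' : Finset (Sym2 (Fin n))) :
    SimpleGraph (Fin n) :=
  if (∀ e ∈ F, e ∈ G.edgeSet) ∧ (∀ e ∈ F', e ∉ G.edgeSet) then
    (G \ SimpleGraph.fromEdgeSet (F : Set (Sym2 (Fin n)))) ⊔
      SimpleGraph.fromEdgeSet (F' : Set (Sym2 (Fin n)))
  else G

/-- The transition matrix `P_d` of the problem: with probability `1/2` stay put; otherwise choose a
4-element set `S` uniformly (probability `1 / C(n,4)` each), then one of the six ordered pairs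
`(F, F')` of distinct perfect matchings on `S` uniformly (probability `1/6` each), and apply the
move. -/
noncomputable def ktvP (n : ℕ) (d : Fin n → ℕ) : Matrix (Realiz n d) (Realiz n d) ℝ :=
  fun G G' => (1 / 2) * (if G = G' then 1 else 0) +
    (1 / 2) * ∑ S ∈ (univ : Finset (Fin n)).powersetCard 4, (1 / (n.choose 4 : ℝ)) *
      ∑ p ∈ pmPairs S, (1 / 6) * (if applyMove G.1 p.1 p.2 = G'.1 then 1 else 0)

/-- the data `(S, (F, F'))` encoded by an injection `q` -/
noncomputable def enc {n : ℕ} (q : Fin 4 ↪ Fin n) :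
    (_ : Finset (Fin n)) × (Finset (Sym2 (Fin n)) × Finset (Sym2 (Fin n))) :=
  ⟨{q 0, q 1, q 2, q 3}, ({s(q 0, q 1), s(q 2, q 3)}, {s(q 0, q 2), s(q 1, q 3)})⟩

theorem lit_q_ne {n : ℕ} (q : Fin 4 ↪ Fin n) {i j : Fin 4} (h : i ≠ j) : q i ≠ q j :=
  fun e => h (q.injective e)

theorem lit_card_S {n : ℕ} (q : Fin 4 ↪ Fin n) :
    ({q 0, q 1, q 2, q 3} : Finset (Fin n)).card = 4 := by
  have h01 := lit_q_ne q (show (0 : Fin 4) ≠ 1 by decide)
  have h02 := lit_q_ne q (show (0 : Fin 4) ≠ 2 by decide)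
  have h03 := lit_q_ne q (show (0 : Fin 4) ≠ 3 by decide)
  have h12 := lit_q_ne q (show (1 : Fin 4) ≠ 2 by decide)
  have h13 := lit_q_ne q (show (1 : Fin 4) ≠ 3 by decide)
  have h23 := lit_q_ne q (show (2 : Fin 4) ≠ 3 by decide)
  rw [card_insert_of_notMem, card_insert_of_notMem, card_insert_of_notMem, card_singleton]
  · simp [h23]
  · simp [h12, h13]
  · simp [h01, h02, h03]

theorem lit_apply {n : ℕ} (G : SimpleGraph (Fin n)) (q : Fin 4 ↪ Fin n) :
    applyMove G (enc q).2.1 (enc q).2.2 = switchG G q := by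
  unfold applyMove switchG enc
  simp only [mem_insert, mem_singleton, forall_eq_or_imp, forall_eq, SimpleGraph.mem_edgeSet,
    coe_insert, coe_singleton, and_assoc]

theorem lit_enc_mem {n : ℕ} (q : Fin 4 ↪ Fin n) :
    enc q ∈ ((univ : Finset (Fin n)).powersetCard 4).sigma pmPairs := by
  have h12 := lit_q_ne q (show (1 : Fin 4) ≠ 2 by decide)
  have h03 := lit_q_ne q (show (0 : Fin 4) ≠ 3 by decide)
  rw [mem_sigma]
  refine ⟨?_, ?_⟩
  · rw [mem_powersetCard]
    exact ⟨subset_univ _, lit_card_S q⟩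
  · unfold pmPairs
    rw [mem_filter]
    refine ⟨mem_univ _, ⟨q 0, q 1, q 2, q 3, rfl, rfl⟩, ⟨q 0, q 2, q 1, q 3, ?_, rfl⟩, ?_⟩
    · unfold enc
      ext v
      simp only [mem_insert, mem_singleton]
      tauto
    · unfold enc
      intro h
      have h' : ({s(q 0, q 1), s(q 2, q 3)} : Finset (Sym2 (Fin n))) =
          {s(q 0, q 2), s(q 1, q 3)} := h
      have hm : s(q 0, q 1) ∈ ({s(q 0, q 2), s(q 1, q 3)} : Finset (Sym2 (Fin n))) := by
        rw [← h']; simp
      simp only [mem_insert, mem_singleton, Sym2.eq_iff] at hm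
      rcases hm with (⟨_, h⟩ | ⟨_, h⟩) | (⟨_, h⟩ | ⟨h, _⟩)
      · exact h12 h
      · exact (lit_q_ne q (show (1 : Fin 4) ≠ 0 by decide)) h
      · exact (lit_q_ne q (show (1 : Fin 4) ≠ 3 by decide)) h
      · exact h03 h

/-- normal form of a perfect matching at a prescribed vertex -/
theorem lit_pm_at {n : ℕ} {S : Finset (Fin n)} {F : Finset (Sym2 (Fin n))} (h : IsPM S F)
    {a : Fin n} (ha : a ∈ S) : ∃ y z w : Fin n, S = {a, y, z, w} ∧ F = {s(a, y), s(z, w)} := by
  obtain ⟨x, y, z, w, rfl, rfl⟩ := h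
  simp only [mem_insert, mem_singleton] at ha
  rcases ha with rfl | rfl | rfl | rfl
  · exact ⟨y, z, w, rfl, rfl⟩
  · refine ⟨x, z, w, ?_, ?_⟩
    · ext v; simp only [mem_insert, mem_singleton]; tauto
    · rw [Sym2.eq_swap]
  · refine ⟨w, x, y, ?_, ?_⟩
    · ext v; simp only [mem_insert, mem_singleton]; tauto
    · rw [pair_comm]
  · refine ⟨z, x, y, ?_, ?_⟩
    · ext v; simp only [mem_insert, mem_singleton]; tauto
    · rw [pair_comm, Sym2.eq_swap]

/-- four listed elements of a 4-set are distinct -/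
theorem lit_distinct {n : ℕ} {a b c d : Fin n} (h : ({a, b, c, d} : Finset (Fin n)).card = 4) :
    a ≠ b ∧ a ≠ c ∧ a ≠ d ∧ b ≠ c ∧ b ≠ d ∧ c ≠ d := by
  have key : ∀ x y z : Fin n, ({x, y, z} : Finset (Fin n)).card ≤ 3 := fun x y z => card_le_three
  refine ⟨?_, ?_, ?_, ?_, ?_, ?_⟩ <;> rintro rfl
  · have := key a c d
    simp only [insert_idem] at h
    omega
  · have := key a b d
    have e : ({a, b, a, d} : Finset (Fin n)) = {a, b, d} := by
      ext v; simp only [mem_insert, mem_singleton]; tauto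
    rw [e] at h; omega
  · have := key a b c
    have e : ({a, b, c, a} : Finset (Fin n)) = {a, b, c} := by
      ext v; simp only [mem_insert, mem_singleton]; tauto
    rw [e] at h; omega
  · have := key a b d
    have e : ({a, b, b, d} : Finset (Fin n)) = {a, b, d} := by
      ext v; simp only [mem_insert, mem_singleton]; tauto
    rw [e] at h; omega
  · have := key a b c
    have e : ({a, b, c, b} : Finset (Fin n)) = {a, b, c} := by
      ext v; simp only [mem_insert, mem_singleton]; tauto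
    rw [e] at h; omega
  · have := key a b c
    have e : ({a, b, c, c} : Finset (Fin n)) = {a, b, c} := by
      ext v; simp only [mem_insert, mem_singleton]; tauto
    rw [e] at h; omega

/-- if `{a,y,z,w} = {a,y,c,d}` are 4-sets then `{z,w} = {c,d}` -/
theorem lit_rest {n : ℕ} {a y z w c d : Fin n} (h4 : ({a, y, z, w} : Finset (Fin n)).card = 4)
    (h : ({a, y, z, w} : Finset (Fin n)) = {a, y, c, d}) : s(z, w) = s(c, d) := by
  obtain ⟨-, h2, h3, h4', h5, h6⟩ := lit_distinct h4
  have hz : z ∈ ({a, y, c, d} : Finset (Fin n)) := by rw [← h]; simp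
  have hw : w ∈ ({a, y, c, d} : Finset (Fin n)) := by rw [← h]; simp
  simp only [mem_insert, mem_singleton] at hz hw
  rcases hz with rfl | rfl | rfl | rfl
  · exact absurd rfl h2
  · exact absurd rfl h4'
  · rcases hw with rfl | rfl | rfl | rfl
    · exact absurd rfl h3
    · exact absurd rfl h5
    · exact absurd rfl h6
    · rfl
  · rcases hw with rfl | rfl | rfl | rfl
    · exact absurd rfl h3
    · exact absurd rfl h5
    · exact Sym2.eq_swap
    · exact absurd rfl h6

/-- normal form of an ordered pair of distinct perfect matchings at a prescribed vertex -/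
theorem lit_normal {n : ℕ} {S : Finset (Fin n)} {F F' : Finset (Sym2 (Fin n))} (hS : S.card = 4)
    (h : IsPM S F) (h' : IsPM S F') (hne : F ≠ F') {a : Fin n} (ha : a ∈ S) :
    ∃ b c d : Fin n, S = {a, b, c, d} ∧ F = {s(a, b), s(c, d)} ∧ F' = {s(a, c), s(b, d)} := by
  obtain ⟨b, c, d, hS1, hF⟩ := lit_pm_at h ha
  obtain ⟨y, z, w, hS2, hF'⟩ := lit_pm_at h' ha
  have h4 : ({a, b, c, d} : Finset (Fin n)).card = 4 := hS1 ▸ hS
  have h4' : ({a, y, z, w} : Finset (Fin n)).card = 4 := hS2 ▸ hS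
  have hy : y ∈ ({a, b, c, d} : Finset (Fin n)) := by rw [← hS1, hS2]; simp
  have hay : a ≠ y := (lit_distinct h4').1
  simp only [mem_insert, mem_singleton] at hy
  rcases hy with rfl | rfl | rfl | rfl
  · exact absurd rfl hay
  · exfalso
    apply hne
    rw [hF, hF', lit_rest h4' (hS2.symm.trans hS1)]
  · refine ⟨b, y, d, hS1, hF, ?_⟩
    have e : ({a, y, z, w} : Finset (Fin n)) = {a, y, b, d} := by
      rw [← hS2, hS1]; ext v; simp only [mem_insert, mem_singleton]; tauto
    rw [hF', lit_rest h4' e]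
  · refine ⟨b, y, c, ?_, ?_, ?_⟩
    · rw [hS1]; ext v; simp only [mem_insert, mem_singleton]; tauto
    · rw [hF, Sym2.eq_swap (a := c)]
    · have e : ({a, y, z, w} : Finset (Fin n)) = {a, y, b, c} := by
        rw [← hS2, hS1]; ext v; simp only [mem_insert, mem_singleton]; tauto
      rw [hF', lit_rest h4' e]

theorem lit_fibre {n : ℕ} (x : (_ : Finset (Fin n)) × (Finset (Sym2 (Fin n)) × Finset (Sym2 (Fin n))))
    (hx : x ∈ ((univ : Finset (Fin n)).powersetCard 4).sigma pmPairs) :
    (univ.filter (fun q : Fin 4 ↪ Fin n => enc q = x)).card = 4 := by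
  obtain ⟨S, F, F'⟩ := x
  rw [mem_sigma, mem_powersetCard] at hx
  obtain ⟨⟨-, hS⟩, hp⟩ := hx
  unfold pmPairs at hp
  rw [mem_filter] at hp
  obtain ⟨-, hF, hF', hne⟩ := hp
  simp only at hS hF hF' hne
  refine Eq.trans ?_ hS
  refine card_bij (fun q _ => q 0) ?_ ?_ ?_
  · intro q hq
    rw [mem_filter] at hq
    have := congrArg Sigma.fst hq.2
    simp only [enc] at this
    rw [← this]; simp
  · intro q hq q' hq' h0
    rw [mem_filter] at hq hq'
    have e : enc q = enc q' := hq.2.trans hq'.2.symm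
    have e1 : ({s(q 0, q 1), s(q 2, q 3)} : Finset (Sym2 (Fin n))) =
        {s(q' 0, q' 1), s(q' 2, q' 3)} := congrArg (fun x => x.2.1) e
    have e2 : ({s(q 0, q 2), s(q 1, q 3)} : Finset (Sym2 (Fin n))) =
        {s(q' 0, q' 2), s(q' 1, q' 3)} := congrArg (fun x => x.2.2) e
    have h0' : q 0 = q' 0 := h0
    have m1 : s(q 0, q 1) ∈ ({s(q' 0, q' 1), s(q' 2, q' 3)} : Finset (Sym2 (Fin n))) := by
      rw [← e1]; simp
    have m2 : s(q 0, q 2) ∈ ({s(q' 0, q' 2), s(q' 1, q' 3)} : Finset (Sym2 (Fin n))) := by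
      rw [← e2]; simp
    have m3 : s(q 2, q 3) ∈ ({s(q' 0, q' 1), s(q' 2, q' 3)} : Finset (Sym2 (Fin n))) := by
      rw [← e1]; simp
    have a01 := lit_q_ne q' (show (0 : Fin 4) ≠ 1 by decide)
    have a02 := lit_q_ne q' (show (0 : Fin 4) ≠ 2 by decide)
    have a03 := lit_q_ne q' (show (0 : Fin 4) ≠ 3 by decide)
    have a12 := lit_q_ne q' (show (1 : Fin 4) ≠ 2 by decide)
    have a13 := lit_q_ne q' (show (1 : Fin 4) ≠ 3 by decide)
    have a23 := lit_q_ne q' (show (2 : Fin 4) ≠ 3 by decide)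
    have b01 := lit_q_ne q (show (0 : Fin 4) ≠ 1 by decide)
    have b02 := lit_q_ne q (show (0 : Fin 4) ≠ 2 by decide)
    have b23 := lit_q_ne q (show (2 : Fin 4) ≠ 3 by decide)
    simp only [mem_insert, mem_singleton, Sym2.eq_iff] at m1 m2 m3
    have h1 : q 1 = q' 1 := by
      rcases m1 with (⟨_, h⟩ | ⟨h, _⟩) | (⟨h, _⟩ | ⟨h, _⟩)
      · exact h
      · exact absurd (h0'.symm.trans h) a01
      · exact absurd (h0'.symm.trans h) a02
      · exact absurd (h0'.symm.trans h) a03
    have h2 : q 2 = q' 2 := by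
      rcases m2 with (⟨_, h⟩ | ⟨h, _⟩) | (⟨h, _⟩ | ⟨h, _⟩)
      · exact h
      · exact absurd (h0'.symm.trans h) a02
      · exact absurd (h0'.symm.trans h) a01
      · exact absurd (h0'.symm.trans h) a03
    have h3 : q 3 = q' 3 := by
      rcases m3 with (⟨h, _⟩ | ⟨h, _⟩) | (⟨_, h⟩ | ⟨h, _⟩)
      · exact absurd (h2.symm.trans h).symm a02
      · exact absurd (h2.symm.trans h).symm a12
      · exact h
      · exact absurd (h2.symm.trans h) a23
    ext i
    fin_cases i
    · exact congrArg Fin.val h0'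
    · exact congrArg Fin.val h1
    · exact congrArg Fin.val h2
    · exact congrArg Fin.val h3
  · intro a ha
    obtain ⟨b, c, d, hS1, hF1, hF1'⟩ := lit_normal hS hF hF' hne ha
    have h4 : ({a, b, c, d} : Finset (Fin n)).card = 4 := hS1 ▸ hS
    obtain ⟨n1, n2, n3, n4, n5, n6⟩ := lit_distinct h4
    refine ⟨⟨![a, b, c, d], ?_⟩, ?_, ?_⟩
    · intro i j hij
      fin_cases i <;> fin_cases j <;> simp_all
    · rw [mem_filter]
      refine ⟨mem_univ _, ?_⟩
      subst hS1 hF1 hF1'
      rfl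
    · rfl

theorem lit_count {n : ℕ} (G G' : SimpleGraph (Fin n)) :
    ((univ.filter (fun q : Fin 4 ↪ Fin n => switchG G q = G')).card : ℝ) =
      4 * ∑ x ∈ ((univ : Finset (Fin n)).powersetCard 4).sigma pmPairs,
        (if applyMove G x.2.1 x.2.2 = G' then (1 : ℝ) else 0) := by
  have h1 : ((univ.filter (fun q : Fin 4 ↪ Fin n => switchG G q = G')).card : ℝ) =
      ∑ q : Fin 4 ↪ Fin n, (if applyMove G (enc q).2.1 (enc q).2.2 = G' then (1 : ℝ) else 0) := by
    rw [card_filter]
    push_cast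
    refine sum_congr rfl (fun q _ => ?_)
    rw [lit_apply]
  rw [h1, ← sum_fiberwise_of_maps_to (fun q _ => lit_enc_mem q), mul_sum]
  refine sum_congr rfl (fun x hx => ?_)
  have h2 : ∀ q ∈ univ.filter (fun q : Fin 4 ↪ Fin n => enc q = x),
      (if applyMove G (enc q).2.1 (enc q).2.2 = G' then (1 : ℝ) else 0) =
        (if applyMove G x.2.1 x.2.2 = G' then (1 : ℝ) else 0) := by
    intro q hq
    rw [mem_filter] at hq
    rw [hq.2]
  rw [sum_congr rfl h2, sum_const, lit_fibre x hx]
  simp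

theorem ktvP_eq (n : ℕ) (d : Fin n → ℕ) : ktvP n d = switchP n d := by
  ext G G'
  unfold ktvP switchP
  congr 1
  congr 1
  rw [lit_count, Fintype.card_embedding_eq, Fintype.card_fin, Fintype.card_fin,
    Nat.descFactorial_eq_factorial_mul_choose, sum_sigma]
  have h24 : (Nat.factorial 4 : ℕ) = 24 := by decide
  rw [h24]
  push_cast
  simp only [← mul_sum]
  ring

/-- the times `t` at which, from every start `G`, the law `P_d^t(G, ·)` is within total variation
distance `1/4` of the uniform distribution on `Ω_d` -/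
def mixedTimes (n : ℕ) (d : Fin n → ℕ) : Set ℕ :=
  {t | ∀ G : Realiz n d,
    tvDist (fun G' => (ktvP n d ^ t) G G') (fun _ => 1 / (Fintype.card (Realiz n d) : ℝ)) ≤ 1 / 4}

/-- the mixing time `t_mix(d)` of the problem: the least element of `mixedTimes n d` -/
noncomputable def tmix (n : ℕ) (d : Fin n → ℕ) : ℕ := sInf (mixedTimes n d)

theorem lit_mem_mixedTimes (n : ℕ) (d : Fin n → ℕ) (hn : 4 ≤ n) : n ^ 6 ∈ mixedTimes n d := by
  intro G
  rw [ktvP_eq]
  exact all_mixed n d hn (n ^ 6) le_rfl G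

theorem tmix_isLeast (n : ℕ) (d : Fin n → ℕ) (hn : 4 ≤ n) :
    IsLeast (mixedTimes n d) (tmix n d) :=
  ⟨Nat.sInf_mem ⟨_, lit_mem_mixedTimes n d hn⟩, fun _ ht => Nat.sInf_le ht⟩

theorem tmix_le (n : ℕ) (d : Fin n → ℕ) (hn : 4 ≤ n) : tmix n d ≤ n ^ 6 :=
  Nat.sInf_le (lit_mem_mixedTimes n d hn)

end Vale.Agent.Lib.P335
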