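import Mathlib

/-!
Spectral lemmas for symmetric linear operators on `Ω → ℝ` (finite `Ω`), phrased with plain sums.
-/

namespace Vale.Agent.Lib.P335

open Finset

variable {Ω : Type*} [Fintype Ω]

/-- symmetric with respect to the dot product -/
def IsSymm (A : (Ω → ℝ) →ₗ[ℝ] (Ω → ℝ)) : Prop :=
  ∀ f g : Ω → ℝ, ∑ x, f x * A g x = ∑ x, A f x * g x

/-- Eigen-expansion of a symmetric operator. -/
theorem exists_eigen_expansion (A : (Ω → ℝ) →ₗ[ℝ] (Ω → ℝ)) (hA : IsSymm A) :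
    ∃ (m : ℕ) (e : Fin m → Ω → ℝ) (μ : Fin m → ℝ),
      (∀ i, A (e i) = μ i • e i) ∧ (∀ i, e i ≠ 0) ∧
      (∀ g : Ω → ℝ, ∑ x, g x * g x = ∑ i, (∑ x, g x * e i x) ^ 2) ∧
      (∀ g : Ω → ℝ, ∑ x, g x * A g x = ∑ i, μ i * (∑ x, g x * e i x) ^ 2) ∧
      (∀ g : Ω → ℝ, ∑ x, A g x * A g x = ∑ i, (μ i) ^ 2 * (∑ x, g x * e i x) ^ 2) := by
  classical
  set L : EuclideanSpace ℝ Ω ≃ₗ[ℝ] (Ω → ℝ) := WithLp.linearEquiv 2 ℝ (Ω → ℝ) with hL
  set T : EuclideanSpace ℝ Ω →ₗ[ℝ] EuclideanSpace ℝ Ω :=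
    L.symm.toLinearMap ∘ₗ A ∘ₗ L.toLinearMap with hTdef
  have hinner : ∀ u v : EuclideanSpace ℝ Ω, inner ℝ u v = ∑ x, L u x * L v x := by
    intro u v
    rw [PiLp.inner_apply]
    refine Finset.sum_congr rfl (fun x _ => ?_)
    simp [hL, mul_comm]
  have hLT : ∀ u : EuclideanSpace ℝ Ω, L (T u) = A (L u) := by
    intro u; simp [hTdef]
  have hT : T.IsSymmetric := by
    intro u v
    rw [hinner, hinner, hLT, hLT]
    exact (hA (L u) (L v)).symm
  have hn : Module.finrank ℝ (EuclideanSpace ℝ Ω) = Fintype.card Ω := by simp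
  let b := hT.eigenvectorBasis hn
  let μ := hT.eigenvalues hn
  have hb : ∀ i, T (b i) = (μ i : ℝ) • b i := fun i => hT.apply_eigenvectorBasis hn i
  have hcoef : ∀ (g : Ω → ℝ) i, inner ℝ (b i) (L.symm g) = ∑ x, g x * L (b i) x := by
    intro g i
    rw [hinner]; simp [mul_comm]
  have hpars : ∀ u : EuclideanSpace ℝ Ω, inner ℝ u u = ∑ i, (inner ℝ (b i) u) ^ 2 := by
    intro u
    have := b.sum_inner_mul_inner u u
    rw [← this]
    refine Finset.sum_congr rfl (fun i _ => ?_)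
    rw [real_inner_comm u (b i)]; ring
  have hTcoef : ∀ (u : EuclideanSpace ℝ Ω) i, inner ℝ (b i) (T u) = μ i * inner ℝ (b i) u := by
    intro u i
    rw [← hT (b i) u, hb, inner_smul_left]; simp
  refine ⟨Fintype.card Ω, fun i => L (b i), μ, ?_, ?_, ?_, ?_, ?_⟩
  · intro i
    have := congrArg L (hb i)
    rw [hLT] at this
    simpa using this
  · intro i h
    have : b i = 0 := by
      apply L.injective; simpa using h
    exact b.orthonormal.ne_zero i this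
  · intro g
    have := hpars (L.symm g)
    rw [hinner] at this
    simp only [LinearEquiv.apply_symm_apply] at this
    rw [this]
    exact Finset.sum_congr rfl (fun i _ => by rw [hcoef])
  · intro g
    have h1 : inner ℝ (L.symm g) (T (L.symm g)) = ∑ x, g x * A g x := by
      rw [hinner, hLT]; simp
    rw [← h1, ← b.sum_inner_mul_inner (L.symm g) (T (L.symm g))]
    refine Finset.sum_congr rfl (fun i _ => ?_)
    rw [hTcoef, real_inner_comm (b i) (L.symm g), hcoef]; ring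
  · intro g
    have h1 : inner ℝ (T (L.symm g)) (T (L.symm g)) = ∑ x, A g x * A g x := by
      rw [hinner, hLT]; simp
    rw [← h1, hpars]
    refine Finset.sum_congr rfl (fun i _ => ?_)
    rw [hTcoef, hcoef]; ring

/-- If every eigenvalue is `0` or at least `c`, then `A ≥ c` on the orthogonal complement of
the kernel. -/
theorem form_ge_of_eigen (A : (Ω → ℝ) →ₗ[ℝ] (Ω → ℝ)) (hA : IsSymm A) (c : ℝ)
    (heig : ∀ (μ : ℝ) (v : Ω → ℝ), v ≠ 0 → A v = μ • v → μ = 0 ∨ c ≤ μ)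
    (g : Ω → ℝ) (hg : ∀ h : Ω → ℝ, A h = 0 → ∑ x, g x * h x = 0) :
    c * ∑ x, g x * g x ≤ ∑ x, g x * A g x := by
  obtain ⟨m, e, μ, he, hne, h1, h2, _⟩ := exists_eigen_expansion A hA
  rw [h1, h2, Finset.mul_sum]
  refine Finset.sum_le_sum (fun i _ => ?_)
  rcases heig (μ i) (e i) (hne i) (he i) with h0 | hc
  · have : A (e i) = 0 := by rw [he i, h0]; simp
    rw [hg _ this]; simp
  · exact mul_le_mul_of_nonneg_right hc (sq_nonneg _)

/-- If every eigenvalue is `0` or at least `1`, then `⟨f, A f⟩ ≤ ‖A f‖²`. -/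
theorem form_le_sq_of_eigen (A : (Ω → ℝ) →ₗ[ℝ] (Ω → ℝ)) (hA : IsSymm A)
    (heig : ∀ (μ : ℝ) (v : Ω → ℝ), v ≠ 0 → A v = μ • v → μ = 0 ∨ 1 ≤ μ)
    (g : Ω → ℝ) :
    ∑ x, g x * A g x ≤ ∑ x, A g x * A g x := by
  obtain ⟨m, e, μ, he, hne, _, h2, h3⟩ := exists_eigen_expansion A hA
  rw [h2, h3]
  refine Finset.sum_le_sum (fun i _ => ?_)
  refine mul_le_mul_of_nonneg_right ?_ (sq_nonneg _)
  rcases heig (μ i) (e i) (hne i) (he i) with h0 | hc
  · rw [h0]; simp
  · nlinarith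

/-- Converse direction: from `⟨f, A f⟩ ≤ ‖A f‖²` and positivity, eigenvalues are `0` or `≥ 1`. -/
theorem eigen_of_form_le_sq (A : (Ω → ℝ) →ₗ[ℝ] (Ω → ℝ))
    (hpos : ∀ g : Ω → ℝ, 0 ≤ ∑ x, g x * A g x)
    (hsq : ∀ g : Ω → ℝ, ∑ x, g x * A g x ≤ ∑ x, A g x * A g x)
    (μ : ℝ) (v : Ω → ℝ) (hv : v ≠ 0) (hAv : A v = μ • v) : μ = 0 ∨ 1 ≤ μ := by
  have hvv : 0 < ∑ x, v x * v x := by
    obtain ⟨x, hx⟩ : ∃ x, v x ≠ 0 := by
      by_contra h; push Not at h; exact hv (funext h)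
    refine Finset.sum_pos' (fun y _ => mul_self_nonneg _) ⟨x, Finset.mem_univ _, ?_⟩
    exact mul_self_pos.mpr hx
  have h1 : ∑ x, v x * A v x = μ * ∑ x, v x * v x := by
    rw [hAv, Finset.mul_sum]; refine Finset.sum_congr rfl (fun x _ => ?_); simp; ring
  have h2 : ∑ x, A v x * A v x = μ ^ 2 * ∑ x, v x * v x := by
    rw [hAv, Finset.mul_sum]; refine Finset.sum_congr rfl (fun x _ => ?_); simp; ring
  have hp := hpos v
  have hs := hsq v
  rw [h1] at hp hs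
  rw [h2] at hs
  have hμ0 : 0 ≤ μ := by
    by_contra h; push Not at h; nlinarith
  by_cases h0 : μ = 0
  · left; exact h0
  · right
    have hμpos : 0 < μ := lt_of_le_of_ne hμ0 (Ne.symm h0)
    by_contra h; push Not at h
    have : μ ^ 2 < μ := by nlinarith
    nlinarith

/-- From `c ⟨g, A g⟩ ≤ ‖A g‖²` and positivity: `A ≥ c` on the orthogonal complement of the
kernel. -/
theorem form_ge_of_sq (A : (Ω → ℝ) →ₗ[ℝ] (Ω → ℝ)) (hA : IsSymm A) (c : ℝ) (hc : 0 < c)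
    (hpos : ∀ g : Ω → ℝ, 0 ≤ ∑ x, g x * A g x)
    (hsq : ∀ g : Ω → ℝ, c * ∑ x, g x * A g x ≤ ∑ x, A g x * A g x)
    (g : Ω → ℝ) (hg : ∀ h : Ω → ℝ, A h = 0 → ∑ x, g x * h x = 0) :
    c * ∑ x, g x * g x ≤ ∑ x, g x * A g x := by
  refine form_ge_of_eigen A hA c ?_ g hg
  intro μ v hv hAv
  have hvv : 0 < ∑ x, v x * v x := by
    obtain ⟨x, hx⟩ : ∃ x, v x ≠ 0 := by
      by_contra h; push Not at h; exact hv (funext h)
    refine Finset.sum_pos' (fun y _ => mul_self_nonneg _) ⟨x, Finset.mem_univ _, ?_⟩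
    exact mul_self_pos.mpr hx
  have h1 : ∑ x, v x * A v x = μ * ∑ x, v x * v x := by
    rw [hAv, Finset.mul_sum]; refine Finset.sum_congr rfl (fun x _ => ?_); simp; ring
  have h2 : ∑ x, A v x * A v x = μ ^ 2 * ∑ x, v x * v x := by
    rw [hAv, Finset.mul_sum]; refine Finset.sum_congr rfl (fun x _ => ?_); simp; ring
  have hp := hpos v
  have hs := hsq v
  rw [h1] at hp hs
  rw [h2] at hs
  have hμ0 : 0 ≤ μ := by
    by_contra h; push Not at h; nlinarith
  by_cases h0 : μ = 0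
  · left; exact h0
  · right
    have hμpos : 0 < μ := lt_of_le_of_ne hμ0 (Ne.symm h0)
    by_contra h; push Not at h
    have h3 : μ ^ 2 < c * μ := by nlinarith
    nlinarith

/-- If `E'` maps the range of the symmetric idempotent `E` into itself (both symmetric), then
`E` and `E'` commute. -/
theorem comm_of_range_invariant (E E' : (Ω → ℝ) →ₗ[ℝ] (Ω → ℝ)) (hE : IsSymm E) (hE' : IsSymm E')
    (h : ∀ f, E (E' (E f)) = E' (E f)) (f : Ω → ℝ) : E (E' f) = E' (E f) := by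
  have key : ∀ g : Ω → ℝ, ∑ x, g x * (E (E' f) x - E' (E f) x) = 0 := by
    intro g
    have e1 : ∑ x, g x * E (E' f) x = ∑ x, E' (E g) x * f x := by
      rw [hE g (E' f), hE' (E g) f]
    have e2 : ∑ x, g x * E' (E f) x = ∑ x, E' (E g) x * f x := by
      rw [← h f, hE g (E' (E f)), hE' (E g) (E f), hE (E' (E g)) f, h g]
    simp only [mul_sub, Finset.sum_sub_distrib]
    rw [e1, e2]; simp
  have h0 := key (fun x => E (E' f) x - E' (E f) x)
  funext x
  have h1 := (Finset.sum_eq_zero_iff_of_nonneg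
    (fun x _ => mul_self_nonneg (E (E' f) x - E' (E f) x))).mp h0 x (Finset.mem_univ _)
  have := mul_self_eq_zero.mp h1
  linarith

end Vale.Agent.Lib.P335
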