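import Vale.Agent.Lib.P335.Avg
import Vale.Agent.Lib.P335.Fibre

/-! Three rows, part A: set-up and invariance under exchanges of equal columns. -/

namespace Vale.Agent.Lib.P335

open Finset

set_option linter.unusedSectionVars false

variable {ι κ : Type*} [Fintype ι] [DecidableEq ι] [Fintype κ] [DecidableEq κ]
variable {r : ι → ℕ} {c : κ → ℕ}

theorem zero_of_contraction {α : Type*} [Finite α] (u : α → ℝ) (ν : ℝ) (hν : 1 < ν)
    (h : ∀ M : ℝ, (∀ a, |u a| ≤ M) → ∀ a, ν * |u a| ≤ M) : ∀ a, u a = 0 := by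
  intro a
  have : Nonempty α := ⟨a⟩
  obtain ⟨a0, ha0⟩ := Finite.exists_max (fun a => |u a|)
  have h1 := h (|u a0|) ha0 a0
  have h2 : |u a0| ≤ 0 := by
    have := abs_nonneg (u a0)
    nlinarith
  have h3 := ha0 a
  have h4 : |u a| ≤ 0 := le_trans h3 h2
  exact abs_eq_zero.mp (le_antisymm h4 (abs_nonneg _))

theorem triple_cases {T : Finset ι} (hT : T.card = 3) {k : ι} (hk : k ∈ T) :
    ∃ l m, l ≠ m ∧ k ≠ l ∧ k ≠ m ∧ l ∈ T ∧ m ∈ T ∧ T.erase k = {l, m} ∧ T.erase l = {k, m} ∧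
      T.erase m = {k, l} := by
  have h2 : (T.erase k).card = 2 := by rw [Finset.card_erase_of_mem hk, hT]
  obtain ⟨l, m, hlm, he⟩ := Finset.card_eq_two.mp h2
  have hl : l ∈ T.erase k := by rw [he]; simp
  have hm : m ∈ T.erase k := by rw [he]; simp
  rw [Finset.mem_erase] at hl hm
  have hTeq : T = {k, l, m} := by
    rw [← Finset.insert_erase hk, he]
  refine ⟨l, m, hlm, hl.1.symm, hm.1.symm, hl.2, hm.2, he, ?_, ?_⟩
  · rw [hTeq]; ext x
    simp only [mem_erase, mem_insert, mem_singleton]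
    constructor
    · rintro ⟨h1, h2 | h2 | h2⟩
      · exact Or.inl h2
      · exact absurd h2 h1
      · exact Or.inr h2
    · rintro (h1 | h1)
      · exact ⟨h1 ▸ hl.1.symm, Or.inl h1⟩
      · exact ⟨h1 ▸ hlm.symm, Or.inr (Or.inr h1)⟩
  · rw [hTeq]; ext x
    simp only [mem_erase, mem_insert, mem_singleton]
    constructor
    · rintro ⟨h1, h2 | h2 | h2⟩
      · exact Or.inl h2
      · exact Or.inr h2
      · exact absurd h2 h1
    · rintro (h1 | h1)
      · exact ⟨h1 ▸ hm.1.symm, Or.inl h1⟩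
      · exact ⟨h1 ▸ hlm, Or.inr (Or.inl h1)⟩

theorem colsum_erase {T : Finset ι} {k : ι} (hk : k ∈ T) (X : ι → Finset κ) (j : κ) :
    colsum T X j = (if j ∈ X k then 1 else 0) + colsum (T.erase k) X j := by
  unfold colsum
  conv_lhs => rw [← Finset.insert_erase hk]
  rw [Finset.filter_insert]
  split_ifs with h
  · rw [Finset.card_insert_of_notMem (by simp)]; omega
  · omega

theorem colsum_triple {T : Finset ι} {k l m : ι} (hk : k ∈ T) (he : T.erase k = {l, m})
    (hlm : l ≠ m) (X : ι → Finset κ) (j : κ) :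
    colsum T X j = (if j ∈ X k then 1 else 0) + ((if j ∈ X l then 1 else 0)
      + (if j ∈ X m then 1 else 0)) := by
  rw [colsum_erase hk, he, colsum_pair hlm]

/-- agreeing outside `T` and on row `a` means agreeing outside `T.erase a` -/
theorem key_erase_iff {T : Finset ι} {a : ι} {X Y : Tab r c} :
    key (T.erase a) X = key (T.erase a) Y ↔ key T X = key T Y ∧ X.1 a = Y.1 a := by
  constructor
  · intro h
    exact ⟨key_mono (Finset.erase_subset _ _) h, key_eq_iff.mp h a (by simp)⟩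
  · rintro ⟨h1, h2⟩
    rw [key_eq_iff] at h1 ⊢
    intro i hi
    by_cases hia : i = a
    · subst hia; exact h2
    · exact h1 i (fun hiT => hi (Finset.mem_erase.mpr ⟨hia, hiT⟩))

/-- The system of equations satisfied by the three partial averages of an eigenfunction. -/
structure Sys (T : Finset ι) (ν : ℝ) (g : ι → Tab r c → ℝ) : Prop where
  card : T.card = 3
  one_lt : 1 < ν
  inv : ∀ a ∈ T, ∀ X Y : Tab r c, key (T.erase a) X = key (T.erase a) Y → g a X = g a Y
  eqn : ∀ a ∈ T, ∀ X : Tab r c,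
    avgK (key (T.erase a)) (fun Y => ∑ b ∈ T.erase a, g b Y) X = ν * g a X

/-- Phase 1: invariance under the exchange of two columns in the three rows. -/
theorem Sys.swap_inv {T : Finset ι} {ν : ℝ} {g : ι → Tab r c → ℝ} (S : Sys T ν g) (j j' : κ) :
    ∀ a ∈ T, ∀ X : Tab r c, g a (tau T j j' X) = g a X := by
  have main := zero_of_contraction
    (fun p : T × Tab r c => g p.1.1 p.2 - g p.1.1 (tau T j j' p.2)) ν S.one_lt ?_
  · intro a ha X
    have := main (⟨a, ha⟩, X)
    simp only at this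
    linarith
  intro M hM
  rintro ⟨⟨k, hk⟩, X⟩
  simp only
  have hM' : ∀ a ∈ T, ∀ Y : Tab r c, |g a Y - g a (tau T j j' Y)| ≤ M :=
    fun a ha Y => hM (⟨a, ha⟩, Y)
  have hM0 : 0 ≤ M := le_trans (abs_nonneg _) (hM' k hk X)
  by_cases hu : g k X - g k (tau T j j' X) = 0
  · rw [hu]; simpa using hM0
  obtain ⟨l, m, hlm, hkl, hkm, hl, hm, ek, el, em⟩ := triple_cases S.card hk
  -- the exchange is allowed and changes row k
  have hval : colsum T X.1 j = colsum T X.1 j' := by
    by_contra h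
    rw [tau_of_ne h] at hu; simp at hu
  have hrow : ¬ (j ∈ X.1 k ↔ j' ∈ X.1 k) := by
    intro h
    apply hu
    rw [S.inv k hk (tau T j j' X) X (key_erase_iff.mpr ⟨tau_key _ _ _ _, tau_row_of_iff T j j' X h⟩)]
    simp
  -- equivariance
  have hequi := avgK_comp_equiv (key (T.erase k)) (tauEquiv T j j')
    (fun x y => key_tau_iff_of_subset (Finset.erase_subset _ _) j j' x y)
    (fun Y => ∑ b ∈ T.erase k, g b Y) X
  simp only [tauEquiv_apply] at hequi
  have e1 := S.eqn k hk X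
  have e2 := S.eqn k hk (tau T j j' X)
  rw [← hequi] at e2
  have e3 : ν * (g k X - g k (tau T j j' X))
      = avgK (key (T.erase k)) (fun Y => (g l Y - g l (tau T j j' Y))
          + (g m Y - g m (tau T j j' Y))) X := by
    rw [mul_sub, ← e1, ← e2]
    have hlin := avgK_add (key (T.erase k)) (fun Y => ∑ b ∈ T.erase k, g b Y)
      ((-1 : ℝ) • fun Y => ∑ b ∈ T.erase k, g b (tau T j j' Y))
    rw [avgK_smul] at hlin
    have hlin' := congrFun hlin X
    simp only [Pi.add_apply, Pi.smul_apply, smul_eq_mul] at hlin'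
    have : (fun Y => (g l Y - g l (tau T j j' Y)) + (g m Y - g m (tau T j j' Y)))
        = ((fun Y => ∑ b ∈ T.erase k, g b Y)
          + (-1 : ℝ) • fun Y => ∑ b ∈ T.erase k, g b (tau T j j' Y)) := by
      funext Y
      simp only [Pi.add_apply, Pi.smul_apply, smul_eq_mul]
      rw [ek, Finset.sum_pair hlm, Finset.sum_pair hlm]; ring
    rw [this, hlin']; ring
  rw [← abs_of_pos (lt_trans zero_lt_one S.one_lt), ← abs_mul, e3]
  refine abs_avgK_le _ _ _ _ (fun Y hY => ?_)
  obtain ⟨hYT, hYk⟩ := key_erase_iff.mp hY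
  have hvalY : colsum T Y.1 j = colsum T Y.1 j' := by
    rw [colsum_eq_of_key hYT, colsum_eq_of_key hYT, hval]
  rw [colsum_triple hk ek hlm, colsum_triple hk ek hlm, hYk] at hvalY
  have hcase : (j ∈ Y.1 l ↔ j' ∈ Y.1 l) ∨ (j ∈ Y.1 m ↔ j' ∈ Y.1 m) := by
    by_cases a1 : j ∈ X.1 k <;> by_cases a2 : j' ∈ X.1 k <;> by_cases a3 : j ∈ Y.1 l <;>
      by_cases a4 : j' ∈ Y.1 l <;> by_cases a5 : j ∈ Y.1 m <;> by_cases a6 : j' ∈ Y.1 m <;>
      simp_all
  rcases hcase with h | h
  · rw [S.inv l hl (tau T j j' Y) Y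
      (key_erase_iff.mpr ⟨tau_key _ _ _ _, tau_row_of_iff T j j' Y h⟩)]
    simpa using hM' m hm Y
  · rw [S.inv m hm (tau T j j' Y) Y
      (key_erase_iff.mpr ⟨tau_key _ _ _ _, tau_row_of_iff T j j' Y h⟩)]
    simpa using hM' l hl Y

end Vale.Agent.Lib.P335
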