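import Vale.Agent.Lib.P335.ThreeA

/-! Three rows, part B: levels. -/

namespace Vale.Agent.Lib.P335

open Finset

set_option linter.unusedSectionVars false

variable {ι κ : Type*} [Fintype ι] [DecidableEq ι] [Fintype κ] [DecidableEq κ]
variable {r : ι → ℕ} {c : κ → ℕ}

/-- number of columns of `T`-sum one whose one lies in row `a` -/
def Alev (T : Finset ι) (a : ι) (X : Tab r c) : ℕ :=
  ((X.1 a).filter (fun j => colsum T X.1 j = 1)).card

/-- number of columns of `T`-sum two whose zero lies in row `a` -/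
def Blev (T : Finset ι) (a : ι) (X : Tab r c) : ℕ :=
  (univ.filter (fun j => colsum T X.1 j = 2 ∧ j ∉ X.1 a)).card

/-- number of columns of `T`-sum `t` -/
def Ncol (T : Finset ι) (t : ℕ) (X : Tab r c) : ℕ :=
  (univ.filter (fun j => colsum T X.1 j = t)).card

theorem Ncol_congr {T : Finset ι} {X Y : Tab r c} (h : key T X = key T Y) (t : ℕ) :
    Ncol T t X = Ncol T t Y := by
  unfold Ncol
  simp only [colsum_eq_of_key h]

theorem colsum_le_card (T : Finset ι) (X : ι → Finset κ) (j : κ) : colsum T X j ≤ T.card :=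
  Finset.card_filter_le _ _

theorem colsum_pos_of_mem {T : Finset ι} {a : ι} (ha : a ∈ T) {X : ι → Finset κ} {j : κ}
    (hj : j ∈ X a) : 1 ≤ colsum T X j :=
  Finset.card_pos.mpr ⟨a, by simp [ha, hj]⟩

theorem colsum_lt_of_not_mem {T : Finset ι} {a : ι} (ha : a ∈ T) {X : ι → Finset κ} {j : κ}
    (hj : j ∉ X a) : colsum T X j < T.card := by
  refine lt_of_le_of_ne (colsum_le_card T X j) (fun h => ?_)
  exact hj (Finset.card_filter_eq_iff.mp h a ha)

theorem two_le_colsum {T : Finset ι} {k i : ι} (hk : k ∈ T) (hi : i ∈ T) (hki : k ≠ i)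
    {X : ι → Finset κ} {j : κ} (h1 : j ∈ X k) (h2 : j ∈ X i) : 2 ≤ colsum T X j := by
  have : ({k, i} : Finset ι) ⊆ T.filter (fun a => j ∈ X a) := by
    intro x hx
    simp only [mem_insert, mem_singleton] at hx
    rcases hx with rfl | rfl <;> simp [*]
  have h3 := Finset.card_le_card this
  rwa [Finset.card_pair hki] at h3

theorem colsum_le_one {T : Finset ι} (hT : T.card = 3) {k i : ι} (hk : k ∈ T) (hi : i ∈ T)
    (hki : k ≠ i) {X : ι → Finset κ} {j : κ} (h1 : j ∉ X k) (h2 : j ∉ X i) :
    colsum T X j ≤ 1 := by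
  have : T.filter (fun a => j ∈ X a) ⊆ (T.erase k).erase i := by
    intro x hx
    simp only [mem_filter] at hx
    simp only [mem_erase]
    refine ⟨fun e => h2 (e ▸ hx.2), fun e => h1 (e ▸ hx.2), hx.1⟩
  have h3 := Finset.card_le_card this
  rw [Finset.card_erase_of_mem (by simp [hi, hki.symm]), Finset.card_erase_of_mem hk, hT] at h3
  exact h3

/-- `A - B` is constant on the classes of tables agreeing outside `T` -/
theorem Alev_add {T : Finset ι} (hT : T.card = 3) {a : ι} (ha : a ∈ T) (X : Tab r c) :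
    Alev T a X + Ncol T 2 X + Ncol T 3 X = r a + Blev T a X := by
  have h0 : (X.1 a).card = ∑ t ∈ ({1, 2, 3} : Finset ℕ),
      ((X.1 a).filter (fun j => colsum T X.1 j = t)).card := by
    refine Finset.card_eq_sum_card_fiberwise (fun j hj => ?_)
    have h1 := colsum_pos_of_mem ha (X := X.1) (j := j) (by simpa using hj)
    have h2 := colsum_le_card T X.1 j
    rw [hT] at h2
    simp only [coe_insert, coe_singleton, Set.mem_insert_iff, Set.mem_singleton_iff]
    omega
  rw [X.2.1 a] at h0
  simp only [Finset.sum_insert (show (1 : ℕ) ∉ ({2, 3} : Finset ℕ) by simp),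
    Finset.sum_insert (show (2 : ℕ) ∉ ({3} : Finset ℕ) by simp), Finset.sum_singleton] at h0
  have h3 : (X.1 a).filter (fun j => colsum T X.1 j = 3)
      = univ.filter (fun j => colsum T X.1 j = 3) := by
    ext j
    simp only [mem_filter, mem_univ, true_and, and_iff_right_iff_imp]
    intro h
    by_contra hj
    have := colsum_lt_of_not_mem ha (X := X.1) hj
    omega
  have h2 := Finset.card_filter_add_card_filter_not
    (s := univ.filter (fun j => colsum T X.1 j = 2)) (fun j => j ∈ X.1 a)
  have h2a : (univ.filter (fun j => colsum T X.1 j = 2)).filter (fun j => j ∈ X.1 a)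
      = (X.1 a).filter (fun j => colsum T X.1 j = 2) := by
    ext j; simp [and_comm]
  rw [h2a, Finset.filter_filter] at h2
  unfold Alev Ncol Blev
  rw [h3] at h0
  omega

theorem Alev_Blev_fibre {T : Finset ι} (hT : T.card = 3) {a : ι} (ha : a ∈ T) {X Y : Tab r c}
    (h : key T X = key T Y) : Alev T a X + Blev T a Y = Alev T a Y + Blev T a X := by
  have h1 := Alev_add hT ha X
  have h2 := Alev_add hT ha Y
  rw [Ncol_congr h 2, Ncol_congr h 3] at h1
  omega

theorem sum_Blev {T : Finset ι} (hT : T.card = 3) (X : Tab r c) :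
    ∑ a ∈ T, Blev T a X = Ncol T 2 X := by
  have h1 : ∀ a, Blev T a X
      = ∑ j ∈ univ.filter (fun j => colsum T X.1 j = 2), if j ∉ X.1 a then 1 else 0 := by
    intro a
    unfold Blev
    rw [← Finset.card_filter, Finset.filter_filter]
  simp only [h1]
  rw [Finset.sum_comm]
  unfold Ncol
  rw [Finset.card_eq_sum_ones]
  refine Finset.sum_congr rfl (fun j hj => ?_)
  rw [← Finset.card_filter]
  have h2 := Finset.card_filter_add_card_filter_not (s := T) (fun a => j ∈ X.1 a)
  simp only [mem_filter, mem_univ, true_and] at hj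
  unfold colsum at hj
  omega

theorem Blev_triple {T : Finset ι} (hT : T.card = 3) {k l m : ι} (hk : k ∈ T)
    (he : T.erase k = {l, m}) (hlm : l ≠ m) (X : Tab r c) :
    Blev T k X + (Blev T l X + Blev T m X) = Ncol T 2 X := by
  rw [← sum_Blev hT X, ← Finset.add_sum_erase T _ hk, he, Finset.sum_pair hlm]

/-- the level only depends on the row (and on the rows outside `T`) -/
theorem Blev_congr {T : Finset ι} {a : ι} {X Y : Tab r c} (h : key T X = key T Y)
    (hrow : X.1 a = Y.1 a) : Blev T a X = Blev T a Y := by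
  unfold Blev
  simp only [colsum_eq_of_key h, hrow]

theorem Alev_congr {T : Finset ι} {a : ι} {X Y : Tab r c} (h : key T X = key T Y)
    (hrow : X.1 a = Y.1 a) : Alev T a X = Alev T a Y := by
  unfold Alev
  simp only [colsum_eq_of_key h, hrow]

/-- (C1) the function `g a` only depends on the level of row `a` -/
theorem Sys.level_inv {T : Finset ι} {ν : ℝ} {g : ι → Tab r c → ℝ} (S : Sys T ν g)
    {a : ι} (ha : a ∈ T) {X Y : Tab r c} (hkey : key T X = key T Y)
    (hB : Blev T a X = Blev T a Y) : g a X = g a Y := by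
  refine row_transitive T a ha (g a) (fun j j' X => S.swap_inv j j' a ha X)
    (fun X Y h1 h2 => S.inv a ha X Y (key_erase_iff.mpr ⟨h1, h2⟩)) Y _ X rfl hkey ?_
  have hc : ∀ j, colsum T X.1 j = colsum T Y.1 j := colsum_eq_of_key hkey
  have hD : ∀ j ∈ X.1 a \ Y.1 a, colsum T X.1 j = 1 ∨ colsum T X.1 j = 2 := by
    intro j hj
    rw [Finset.mem_sdiff] at hj
    have h1 := colsum_pos_of_mem ha (X := X.1) hj.1
    have h2 := colsum_lt_of_not_mem ha (X := Y.1) hj.2
    rw [← hc, S.card] at h2
    omega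
  have hD' : ∀ j ∈ Y.1 a \ X.1 a, colsum T X.1 j = 1 ∨ colsum T X.1 j = 2 := by
    intro j hj
    rw [Finset.mem_sdiff] at hj
    have h1 := colsum_pos_of_mem ha (X := Y.1) hj.1
    have h2 := colsum_lt_of_not_mem ha (X := X.1) hj.2
    rw [← hc] at h1
    rw [S.card] at h2
    omega
  have hcard : (X.1 a \ Y.1 a).card = (Y.1 a \ X.1 a).card := by
    have e1 := Finset.card_sdiff_add_card_inter (X.1 a) (Y.1 a)
    have e2 := Finset.card_sdiff_add_card_inter (Y.1 a) (X.1 a)
    rw [Finset.inter_comm] at e2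
    rw [X.2.1 a] at e1
    rw [Y.2.1 a] at e2
    omega
  have h2 : ((X.1 a \ Y.1 a).filter (fun j => colsum T X.1 j = 2)).card
      = ((Y.1 a \ X.1 a).filter (fun j => colsum T X.1 j = 2)).card := by
    have eX := Finset.card_filter_add_card_filter_not
      (s := univ.filter (fun j => colsum T X.1 j = 2 ∧ j ∉ X.1 a)) (fun j => j ∈ Y.1 a)
    have eY := Finset.card_filter_add_card_filter_not
      (s := univ.filter (fun j => colsum T Y.1 j = 2 ∧ j ∉ Y.1 a)) (fun j => j ∈ X.1 a)
    have s1 : (univ.filter (fun j => colsum T X.1 j = 2 ∧ j ∉ X.1 a)).filter (fun j => j ∈ Y.1 a)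
        = (Y.1 a \ X.1 a).filter (fun j => colsum T X.1 j = 2) := by
      ext j; simp only [mem_filter, mem_univ, true_and, mem_sdiff]; tauto
    have s2 : (univ.filter (fun j => colsum T Y.1 j = 2 ∧ j ∉ Y.1 a)).filter (fun j => j ∈ X.1 a)
        = (X.1 a \ Y.1 a).filter (fun j => colsum T X.1 j = 2) := by
      ext j; simp only [mem_filter, mem_univ, true_and, mem_sdiff, hc]; tauto
    have s3 : (univ.filter (fun j => colsum T X.1 j = 2 ∧ j ∉ X.1 a)).filter (fun j => ¬ j ∈ Y.1 a)
        = (univ.filter (fun j => colsum T Y.1 j = 2 ∧ j ∉ Y.1 a)).filter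
            (fun j => ¬ j ∈ X.1 a) := by
      ext j; simp only [mem_filter, mem_univ, true_and, hc]; tauto
    unfold Blev at hB
    rw [s1, s3] at eX
    rw [s2] at eY
    omega
  have h1 : ∀ D : Finset κ, (∀ j ∈ D, colsum T X.1 j = 1 ∨ colsum T X.1 j = 2) →
      (D.filter (fun j => colsum T X.1 j = 1)).card
        + (D.filter (fun j => colsum T X.1 j = 2)).card = D.card := by
    intro D hDD
    have e := Finset.card_filter_add_card_filter_not (s := D) (fun j => colsum T X.1 j = 1)
    have : D.filter (fun j => ¬ colsum T X.1 j = 1) = D.filter (fun j => colsum T X.1 j = 2) := by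
      refine Finset.filter_congr (fun j hj => ?_)
      rcases hDD j hj with h | h <;> omega
    rw [this] at e
    exact e
  intro t
  by_cases ht2 : t = 2
  · subst ht2; exact h2
  by_cases ht1 : t = 1
  · subst ht1
    have e1 := h1 _ hD
    have e2 := h1 _ hD'
    omega
  · rw [Finset.filter_false_of_mem (fun j hj => by rcases hD j hj with h | h <;> omega),
      Finset.filter_false_of_mem (fun j hj => by rcases hD' j hj with h | h <;> omega)]

/-- effect on the level of replacing a column of sum two by a column of sum one in row `k` -/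
theorem Blev_of_row {T : Finset ι} {k : ι} {X Z : Tab r c} (hkey : key T Z = key T X) {e e' : κ}
    (he1 : colsum T X.1 e = 1) (he2 : colsum T X.1 e' = 2) (he' : e' ∈ X.1 k)
    (hrow : Z.1 k = insert e ((X.1 k).erase e')) : Blev T k Z = Blev T k X + 1 := by
  unfold Blev
  have : univ.filter (fun j => colsum T Z.1 j = 2 ∧ j ∉ Z.1 k)
      = insert e' (univ.filter (fun j => colsum T X.1 j = 2 ∧ j ∉ X.1 k)) := by
    ext j
    simp only [mem_filter, mem_univ, true_and, mem_insert, colsum_eq_of_key hkey, hrow, mem_erase,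
      not_or, not_and]
    constructor
    · rintro ⟨h1, h2, h3⟩
      by_cases hj : j = e'
      · exact Or.inl hj
      · exact Or.inr ⟨h1, h3 hj⟩
    · rintro (h | ⟨h1, h2⟩)
      · subst h
        refine ⟨he2, fun h => ?_, fun h => absurd rfl h⟩
        rw [h] at he2; omega
      · refine ⟨h1, fun h => ?_, fun _ => h2⟩
        rw [h] at h1; omega
  rw [this, Finset.card_insert_of_notMem (by simp [he'])]

/-- facts on a switch between rows `k` and `i` moving the level of `k` up -/
theorem move_facts {T : Finset ι} (hT : T.card = 3) {k i : ι} (hk : k ∈ T) (hi : i ∈ T)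
    (hki : k ≠ i) (X : Tab r c) {e e' : κ} (he : e ∈ X.1 i) (he1 : colsum T X.1 e = 1)
    (he' : e' ∉ X.1 i) (he2 : colsum T X.1 e' = 2) :
    e ∉ X.1 k ∧ e' ∈ X.1 k ∧ colsum {k, i} X.1 e = colsum {k, i} X.1 e' := by
  have h1 : e ∉ X.1 k := by
    intro h
    have := two_le_colsum hk hi hki (X := X.1) h he
    omega
  have h2 : e' ∈ X.1 k := by
    by_contra h
    have := colsum_le_one hT hk hi hki (X := X.1) h he'
    omega
  refine ⟨h1, h2, ?_⟩
  rw [colsum_pair hki, colsum_pair hki]
  simp [h1, h2, he, he']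

theorem pair_subset {T : Finset ι} {k i : ι} (hk : k ∈ T) (hi : i ∈ T) : ({k, i} : Finset ι) ⊆ T := by
  intro x hx
  simp only [mem_insert, mem_singleton] at hx
  rcases hx with rfl | rfl <;> assumption

/-- (C2) if a higher level exists, the next level exists -/
theorem exists_next_level {T : Finset ι} (hT : T.card = 3) {k : ι} (hk : k ∈ T) {X Y : Tab r c}
    (hkey : key T X = key T Y) (hlt : Blev T k X < Blev T k Y) :
    ∃ i ∈ T.erase k, 0 < Alev T i X ∧ 0 < Blev T i X := by
  obtain ⟨l, m, hlm, hkl, hkm, hl, hm, ek, el, em⟩ := triple_cases hT hk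
  have e1 := Blev_triple hT hk ek hlm X
  have e2 := Blev_triple hT hk ek hlm Y
  rw [Ncol_congr hkey] at e1
  have f1 := Alev_Blev_fibre hT hl hkey
  have f2 := Alev_Blev_fibre hT hm hkey
  by_cases h : Blev T l Y < Blev T l X
  · exact ⟨l, by rw [ek]; simp, by omega, by omega⟩
  · exact ⟨m, by rw [ek]; simp, by omega, by omega⟩

theorem exists_move {T : Finset ι} (hT : T.card = 3) {k : ι} (hk : k ∈ T) {X Y : Tab r c}
    (hkey : key T X = key T Y) (hlt : Blev T k X < Blev T k Y) :
    ∃ Z : Tab r c, key T Z = key T X ∧ Blev T k Z = Blev T k X + 1 := by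
  obtain ⟨i, hi, hA, hB⟩ := exists_next_level hT hk hkey hlt
  rw [Finset.mem_erase] at hi
  unfold Alev at hA
  unfold Blev at hB
  obtain ⟨e, he⟩ := Finset.card_pos.mp hA
  obtain ⟨e', he'⟩ := Finset.card_pos.mp hB
  simp only [mem_filter, mem_univ, true_and] at he he'
  obtain ⟨h1, h2, h3⟩ := move_facts hT hk hi.2 hi.1.symm X he.1 he.2 he'.2 he'.1
  have hkeyZ : key T (tau {k, i} e e' X) = key T X :=
    key_mono (pair_subset hk hi.2) (tau_key _ _ _ _)
  refine ⟨tau {k, i} e e' X, hkeyZ, ?_⟩
  exact Blev_of_row hkeyZ he.2 he'.1 h2 (tau_row_swap' h3 (by simp) h1 h2)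

/-- Lipschitz bound from a bound on adjacent levels -/
theorem Sys.lipschitz {T : Finset ι} {ν : ℝ} {g : ι → Tab r c → ℝ} (S : Sys T ν g) (M : ℝ)
    (hM : ∀ a ∈ T, ∀ X Y : Tab r c, key T X = key T Y → Blev T a Y = Blev T a X + 1 →
      |g a Y - g a X| ≤ M) {a : ι} (ha : a ∈ T) :
    ∀ (n : ℕ) (X Y : Tab r c), key T X = key T Y → Blev T a Y = Blev T a X + n →
      |g a Y - g a X| ≤ M * n := by
  intro n
  induction n with
  | zero =>
    intro X Y hkey hB
    rw [S.level_inv ha hkey (by omega)]
    simp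
  | succ n ih =>
    intro X Y hkey hB
    obtain ⟨Z, hZ, hZB⟩ := exists_move S.card ha hkey (by omega)
    have h1 := hM a ha X Z hZ.symm hZB
    have h2 := ih Z Y (hZ.trans hkey) (by omega)
    have h3 : |g a Y - g a X| ≤ |g a Y - g a Z| + |g a Z - g a X| := by
      have := abs_add_le (g a Y - g a Z) (g a Z - g a X)
      simpa using this
    push_cast
    linarith

end Vale.Agent.Lib.P335
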