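import Vale.Agent.Lib.P335.ThreeB

/-! Three rows, part C: representation of the next level through switches. -/

namespace Vale.Agent.Lib.P335

open Finset

set_option linter.unusedSectionVars false

variable {ι κ : Type*} [Fintype ι] [DecidableEq ι] [Fintype κ] [DecidableEq κ]
variable {r : ι → ℕ} {c : κ → ℕ}

/-- sums over a saturated set do not change under averaging -/
theorem sum_filter_avgK {Ω K : Type*} [Fintype Ω] [DecidableEq K] (p : Ω → K) (S : Ω → Prop)
    [DecidablePred S] (hS : ∀ x y, p x = p y → (S x ↔ S y)) (h : Ω → ℝ) :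
    ∑ x ∈ univ.filter S, h x = ∑ x ∈ univ.filter S, avgK p h x := by
  have h1 := avgK_symm p (fun x => if S x then (1 : ℝ) else 0) h
  rw [avgK_of_inv p (fun x => if S x then (1 : ℝ) else 0)
    (fun x y hxy => by simp only [hS x y hxy])] at h1
  rw [Finset.sum_filter, Finset.sum_filter]
  have e1 : ∀ u : Ω → ℝ, ∑ x, (if S x then u x else 0) = ∑ x, (if S x then (1 : ℝ) else 0) * u x := by
    intro u
    refine Finset.sum_congr rfl (fun x _ => ?_)
    split_ifs <;> simp
  rw [e1, e1, h1]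

/-- `Z` agrees with `X` outside `T`, and row `k` of `Z` is row `k` of `X` with the column `e'` of
sum two replaced by the column `e` of sum one -/
def Cond (T : Finset ι) (k : ι) (X : Tab r c) (e e' : κ) (Z : Tab r c) : Prop :=
  key T Z = key T X ∧ colsum T X.1 e = 1 ∧ e ∉ X.1 k ∧ colsum T X.1 e' = 2 ∧ e' ∈ X.1 k ∧
    Z.1 k = insert e ((X.1 k).erase e')

instance (T : Finset ι) (k : ι) (X : Tab r c) (e e' : κ) : DecidablePred (Cond T k X e e') :=
  fun Z => by unfold Cond; infer_instance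

theorem Cond_saturated (T : Finset ι) (k : ι) (X : Tab r c) (e e' : κ) (Z Z' : Tab r c)
    (h : key (T.erase k) Z = key (T.erase k) Z') : Cond T k X e e' Z ↔ Cond T k X e e' Z' := by
  obtain ⟨h1, h2⟩ := key_erase_iff.mp h
  unfold Cond
  rw [h1, h2]

theorem rep {T : Finset ι} (hT : T.card = 3) {k i : ι} (hk : k ∈ T) (hi : i ∈ T) (hki : k ≠ i)
    (G : Tab r c → ℝ) (hG : ∀ Y Z, key {k, i} Y = key {k, i} Z → G Y = G Z) (X : Tab r c) :
    ∑ Y ∈ univ.filter (fun Y => key (T.erase k) Y = key (T.erase k) X),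
        ((Alev T i Y : ℝ) * (Blev T i Y : ℝ)) * G Y
      = ∑ e, ∑ e', ∑ Z ∈ univ.filter (Cond T k X e e'), G Z := by
  have step1 : ∀ Y : Tab r c, ((Alev T i Y : ℝ) * (Blev T i Y : ℝ)) * G Y
      = ∑ e, ∑ e', if ((e ∈ Y.1 i ∧ colsum T Y.1 e = 1) ∧ (colsum T Y.1 e' = 2 ∧ e' ∉ Y.1 i))
          then G Y else 0 := by
    intro Y
    have hA : (Alev T i Y : ℝ) = ∑ e, if (e ∈ Y.1 i ∧ colsum T Y.1 e = 1) then (1 : ℝ) else 0 := by
      rw [Finset.sum_boole]
      unfold Alev
      congr 2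
      ext e; simp
    have hB : (Blev T i Y : ℝ) = ∑ e', if (colsum T Y.1 e' = 2 ∧ e' ∉ Y.1 i) then (1 : ℝ) else 0 := by
      rw [Finset.sum_boole]
      rfl
    rw [hA, hB, Finset.sum_mul_sum, Finset.sum_mul]
    refine Finset.sum_congr rfl (fun e _ => ?_)
    rw [Finset.sum_mul]
    refine Finset.sum_congr rfl (fun e' _ => ?_)
    by_cases h1 : (e ∈ Y.1 i ∧ colsum T Y.1 e = 1) <;>
      by_cases h2 : (colsum T Y.1 e' = 2 ∧ e' ∉ Y.1 i) <;> simp [h1, h2]
  rw [Finset.sum_congr rfl (fun Y _ => step1 Y), Finset.sum_comm]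
  refine Finset.sum_congr rfl (fun e _ => ?_)
  rw [Finset.sum_comm]
  refine Finset.sum_congr rfl (fun e' _ => ?_)
  rw [← Finset.sum_filter]
  refine Finset.sum_nbij' (tau {k, i} e e') (tau {k, i} e e') ?_ ?_
    (fun Y _ => tau_invol _ _ _ Y) (fun Z _ => tau_invol _ _ _ Z)
    (fun Y _ => hG _ _ (tau_key _ _ _ _).symm)
  · intro Y hY
    simp only [mem_filter, mem_univ, true_and] at hY ⊢
    obtain ⟨hYF, ⟨he, he1⟩, he2, he'⟩ := hY
    obtain ⟨hYT, hYk⟩ := key_erase_iff.mp hYF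
    obtain ⟨h1, h2, h3⟩ := move_facts hT hk hi hki Y he he1 he' he2
    refine ⟨(key_mono (pair_subset hk hi) (tau_key _ _ _ _)).trans hYT, ?_, ?_, ?_, ?_, ?_⟩
    · rw [← colsum_eq_of_key hYT]; exact he1
    · rw [← hYk]; exact h1
    · rw [← colsum_eq_of_key hYT]; exact he2
    · rw [← hYk]; exact h2
    · rw [← hYk]; exact tau_row_swap' h3 (by simp) h1 h2
  · intro Z hZ
    simp only [mem_filter, mem_univ, true_and] at hZ ⊢
    obtain ⟨hZT, c1, c2, c3, c4, c5⟩ := hZ
    have hee : e ≠ e' := by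
      intro h; rw [h] at c1; omega
    have z1 : e ∈ Z.1 k := by rw [c5]; simp
    have z2 : e' ∉ Z.1 k := by rw [c5]; simp [hee.symm]
    have z3 : colsum T Z.1 e = 1 := by rw [colsum_eq_of_key hZT]; exact c1
    have z4 : colsum T Z.1 e' = 2 := by rw [colsum_eq_of_key hZT]; exact c3
    have z5 : e ∉ Z.1 i := by
      intro h
      have := two_le_colsum hk hi hki (X := Z.1) z1 h
      omega
    have z6 : e' ∈ Z.1 i := by
      by_contra h
      have := colsum_le_one hT hk hi hki (X := Z.1) z2 h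
      omega
    have hval : colsum {k, i} Z.1 e = colsum {k, i} Z.1 e' := by
      rw [colsum_pair hki, colsum_pair hki]
      simp [z1, z2, z5, z6]
    have hrk : (tau {k, i} e e' Z).1 k = X.1 k := by
      rw [tau_row_swap hval (by simp) z1 z2, c5, Finset.erase_insert (by simp [c2]),
        Finset.insert_erase c4]
    have hri : (tau {k, i} e e' Z).1 i = insert e ((Z.1 i).erase e') :=
      tau_row_swap' hval (by simp) z5 z6
    have hkT : key T (tau {k, i} e e' Z) = key T Z :=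
      key_mono (pair_subset hk hi) (tau_key _ _ _ _)
    refine ⟨key_erase_iff.mpr ⟨hkT.trans hZT, hrk⟩, ⟨?_, ?_⟩, ?_, ?_⟩
    · rw [hri]; simp
    · rw [colsum_eq_of_key hkT]; exact z3
    · rw [colsum_eq_of_key hkT]; exact z4
    · rw [hri]; simp [hee.symm]

end Vale.Agent.Lib.P335
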