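import Vale.Agent.Lib.P335.ThreeC

/-! Three rows, part D: contraction of the level differences, rigidity. -/

namespace Vale.Agent.Lib.P335

open Finset

set_option linter.unusedSectionVars false

variable {ι κ : Type*} [Fintype ι] [DecidableEq ι] [Fintype κ] [DecidableEq κ]
variable {r : ι → ℕ} {c : κ → ℕ}

/-- Chebyshev sum inequality in the form used below -/
theorem cheb {Ω : Type*} (F : Finset Ω) (ρ h : Ω → ℝ) (b : Ω → ℕ)
    (hh : ∀ Y ∈ F, ∀ Y' ∈ F, b Y ≤ b Y' → h Y ≤ h Y')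
    (hρ : ∀ Y ∈ F, ∀ Y' ∈ F, b Y ≤ b Y' → ρ Y' ≤ ρ Y) :
    (F.card : ℝ) * ∑ Y ∈ F, ρ Y * h Y ≤ (∑ Y ∈ F, ρ Y) * ∑ Y ∈ F, h Y := by
  refine AntivaryOn.card_mul_sum_le_sum_mul_sum ?_
  intro Y hY Y' hY' hlt
  refine hρ Y hY Y' hY' ?_
  by_contra hb
  have := hh Y' hY' Y hY (by omega)
  linarith

theorem sum_lin {Ω : Type*} (F : Finset Ω) (ρ b g : Ω → ℝ) (M s : ℝ) :
    ∑ Y ∈ F, ρ Y * (M * b Y + s * g Y) = M * ∑ Y ∈ F, ρ Y * b Y + s * ∑ Y ∈ F, ρ Y * g Y := by
  rw [Finset.mul_sum, Finset.mul_sum, ← Finset.sum_add_distrib]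
  exact Finset.sum_congr rfl (fun _ _ => by ring)

theorem sum_lin' {Ω : Type*} (F : Finset Ω) (b g : Ω → ℝ) (M s : ℝ) :
    ∑ Y ∈ F, (M * b Y + s * g Y) = M * ∑ Y ∈ F, b Y + s * ∑ Y ∈ F, g Y := by
  rw [Finset.mul_sum, Finset.mul_sum, ← Finset.sum_add_distrib]

theorem final_real (N W M s ν γ γ' σ0 a1 a2 b1 b2 c1 c2 d1 d2 : ℝ) (hN : 0 < N) (hW : 0 < W)
    (C1 : N * (M * a1 + s * b1) ≤ W * (M * c1 + s * d1))
    (C2 : N * (M * a2 + s * b2) ≤ W * (M * c2 + s * d2))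
    (R2 : b1 + b2 = ν * γ' * W) (R3 : a1 + a2 = (σ0 - 1) * W)
    (R4 : d1 + d2 = N * (ν * γ)) (R5 : c1 + c2 = N * σ0) :
    s * (ν * (γ' - γ)) ≤ M := by
  have hsumC : N * (M * (a1 + a2) + s * (b1 + b2)) ≤ W * (M * (c1 + c2) + s * (d1 + d2)) := by
    linarith [C1, C2]
  rw [R2, R3, R4, R5] at hsumC
  have hfin : (N * W) * (s * (ν * (γ' - γ))) ≤ (N * W) * M := by
    linarith [hsumC]
  exact le_of_mul_le_mul_left hfin (mul_pos hN hW)

theorem Sys.main_signed {T : Finset ι} {ν : ℝ} {g : ι → Tab r c → ℝ} (S : Sys T ν g) (M : ℝ)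
    (hLip : ∀ a ∈ T, ∀ (n : ℕ) (X Y : Tab r c), key T X = key T Y → Blev T a Y = Blev T a X + n →
      |g a Y - g a X| ≤ M * n)
    {k : ι} (hk : k ∈ T) {X X' : Tab r c} (hkey : key T X = key T X')
    (hB : Blev T k X' = Blev T k X + 1) (s : ℝ) (hs : s = 1 ∨ s = -1) :
    s * (ν * (g k X' - g k X)) ≤ M := by
  obtain ⟨l, m, hlm, hkl, hkm, hl, hm, ek, el, em⟩ := triple_cases S.card hk
  set F := univ.filter (fun Y : Tab r c => key (T.erase k) Y = key (T.erase k) X) with hF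
  set W : ℝ := ∑ e, ∑ e', ((univ.filter (Cond T k X e e')).card : ℝ) with hW
  have hFmem : ∀ Y ∈ F, key T Y = key T X ∧ Y.1 k = X.1 k := by
    intro Y hY
    exact key_erase_iff.mp (by simpa [hF] using hY)
  -- (R1)
  have R1 : ∀ i ∈ T, k ≠ i → ∑ Y ∈ F, (Alev T i Y : ℝ) * (Blev T i Y : ℝ) = W := by
    intro i hi hki
    have := rep S.card hk hi hki (fun _ => (1 : ℝ)) (fun _ _ _ => rfl) X
    simp only [mul_one, Finset.sum_const, nsmul_eq_mul] at this
    exact this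
  -- facts on Cond
  have hCond : ∀ e e' Z, Cond T k X e e' Z → key T Z = key T X ∧ Blev T k Z = Blev T k X + 1 := by
    intro e e' Z hZ
    obtain ⟨hZT, c1, c2, c3, c4, c5⟩ := hZ
    exact ⟨hZT, Blev_of_row hZT c1 c3 c4 c5⟩
  -- (R2)
  have R2 : ∑ Y ∈ F, ((Alev T m Y : ℝ) * (Blev T m Y : ℝ)) * g l Y
      + ∑ Y ∈ F, ((Alev T l Y : ℝ) * (Blev T l Y : ℝ)) * g m Y = ν * g k X' * W := by
    rw [rep S.card hk hm hkm (g l) (fun Y Z h => S.inv l hl Y Z (by rw [el]; exact h)) X,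
      rep S.card hk hl hkl (g m) (fun Y Z h => S.inv m hm Y Z (by rw [em]; exact h)) X,
      ← Finset.sum_add_distrib, hW, Finset.mul_sum]
    refine Finset.sum_congr rfl (fun e _ => ?_)
    rw [← Finset.sum_add_distrib, Finset.mul_sum]
    refine Finset.sum_congr rfl (fun e' _ => ?_)
    rw [← Finset.sum_add_distrib,
      sum_filter_avgK (key (T.erase k)) (Cond T k X e e') (Cond_saturated T k X e e')]
    have : ∀ Z ∈ univ.filter (Cond T k X e e'),
        avgK (key (T.erase k)) (fun Z => g l Z + g m Z) Z = ν * g k X' := by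
      intro Z hZ
      obtain ⟨h1, h2⟩ := hCond e e' Z (by simpa using hZ)
      have h3 := S.eqn k hk Z
      have h4 : (fun Y => ∑ b ∈ T.erase k, g b Y) = fun Z => g l Z + g m Z := by
        funext Y; rw [ek, Finset.sum_pair hlm]
      rw [h4] at h3
      rw [h3, S.level_inv hk (h1.trans hkey) (by omega)]
    rw [Finset.sum_congr rfl this, Finset.sum_const, nsmul_eq_mul]
    ring
  -- (R3)
  have hsum : ∀ Y : Tab r c, key T Y = key T X →
      (Blev T l Y : ℝ) + (Blev T m Y : ℝ) = (Ncol T 2 X : ℝ) - (Blev T k Y : ℝ) := by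
    intro Y hY
    have := Blev_triple S.card hk ek hlm Y
    rw [Ncol_congr hY] at this
    have h2 : ((Blev T k Y + (Blev T l Y + Blev T m Y) : ℕ) : ℝ) = (Ncol T 2 X : ℝ) := by
      rw [this]
    push_cast at h2
    linarith
  have R3 : ∑ Y ∈ F, ((Alev T m Y : ℝ) * (Blev T m Y : ℝ)) * (Blev T l Y : ℝ)
      + ∑ Y ∈ F, ((Alev T l Y : ℝ) * (Blev T l Y : ℝ)) * (Blev T m Y : ℝ)
      = ((Ncol T 2 X : ℝ) - (Blev T k X : ℝ) - 1) * W := by
    rw [rep S.card hk hm hkm (fun Y => (Blev T l Y : ℝ)) (fun Y Z h => by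
        rw [Blev_congr (key_mono (pair_subset hk hm) h)
          (key_eq_iff.mp h l (by simp [hkl.symm, hlm]))]) X,
      rep S.card hk hl hkl (fun Y => (Blev T m Y : ℝ)) (fun Y Z h => by
        rw [Blev_congr (key_mono (pair_subset hk hl) h)
          (key_eq_iff.mp h m (by simp [hkm.symm, hlm.symm]))]) X,
      ← Finset.sum_add_distrib, hW, Finset.mul_sum]
    refine Finset.sum_congr rfl (fun e _ => ?_)
    rw [← Finset.sum_add_distrib, Finset.mul_sum]
    refine Finset.sum_congr rfl (fun e' _ => ?_)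
    rw [← Finset.sum_add_distrib]
    have : ∀ Z ∈ univ.filter (Cond T k X e e'),
        (Blev T l Z : ℝ) + (Blev T m Z : ℝ) = (Ncol T 2 X : ℝ) - (Blev T k X : ℝ) - 1 := by
      intro Z hZ
      obtain ⟨h1, h2⟩ := hCond e e' Z (by simpa using hZ)
      rw [hsum Z h1, h2]; push_cast; ring
    rw [Finset.sum_congr rfl this, Finset.sum_const, nsmul_eq_mul]
    ring
  -- (R4)
  have R4 : ∑ Y ∈ F, g l Y + ∑ Y ∈ F, g m Y = (F.card : ℝ) * (ν * g k X) := by
    have h3 := S.eqn k hk X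
    rw [← h3, ← sum_class_eq, ← Finset.sum_add_distrib]
    refine Finset.sum_congr rfl (fun Y _ => ?_)
    rw [ek, Finset.sum_pair hlm]
  -- (R5)
  have R5 : ∑ Y ∈ F, (Blev T l Y : ℝ) + ∑ Y ∈ F, (Blev T m Y : ℝ)
      = (F.card : ℝ) * ((Ncol T 2 X : ℝ) - (Blev T k X : ℝ)) := by
    rw [← Finset.sum_add_distrib]
    have : ∀ Y ∈ F, (Blev T l Y : ℝ) + (Blev T m Y : ℝ) = (Ncol T 2 X : ℝ) - (Blev T k X : ℝ) := by
      intro Y hY
      obtain ⟨h1, h2⟩ := hFmem Y hY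
      rw [hsum Y h1, Blev_congr h1 h2]
    rw [Finset.sum_congr rfl this, Finset.sum_const, nsmul_eq_mul]
  -- (R6)
  have hXF : X ∈ F := by simp [hF]
  have hNpos : (0 : ℝ) < (F.card : ℝ) := by
    exact_mod_cast Finset.card_pos.mpr ⟨X, hXF⟩
  have hWpos : 0 < W := by
    obtain ⟨i, hi, hA, hBi⟩ := exists_next_level S.card hk hkey (by omega)
    rw [Finset.mem_erase] at hi
    rw [← R1 i hi.2 hi.1.symm]
    refine Finset.sum_pos' (fun Y _ => by positivity) ⟨X, hXF, ?_⟩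
    have h1 : (0 : ℝ) < (Alev T i X : ℝ) := by exact_mod_cast hA
    have h2 : (0 : ℝ) < (Blev T i X : ℝ) := by exact_mod_cast hBi
    positivity
  -- monotonicity
  have hnat : ∀ Y ∈ F, ∀ Y' ∈ F, Blev T l Y + Blev T m Y = Blev T l Y' + Blev T m Y' := by
    intro Y hY Y' hY'
    obtain ⟨h1, h2⟩ := hFmem Y hY
    obtain ⟨h1', h2'⟩ := hFmem Y' hY'
    have e1 := Blev_triple S.card hk ek hlm Y
    have e2 := Blev_triple S.card hk ek hlm Y'
    rw [Ncol_congr h1, Blev_congr h1 h2] at e1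
    rw [Ncol_congr h1', Blev_congr h1' h2'] at e2
    omega
  have hmono : ∀ a ∈ T, ∀ Y ∈ F, ∀ Y' ∈ F, Blev T a Y ≤ Blev T a Y' →
      M * (Blev T a Y : ℝ) + s * g a Y ≤ M * (Blev T a Y' : ℝ) + s * g a Y' := by
    intro a ha Y hY Y' hY' hle
    obtain ⟨n, hn⟩ := Nat.exists_eq_add_of_le hle
    have h1 := hLip a ha n Y Y' ((hFmem Y hY).1.trans (hFmem Y' hY').1.symm) hn
    rw [hn]
    push_cast
    rw [abs_le] at h1
    rcases hs with rfl | rfl <;> nlinarith [h1.1, h1.2]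
  have hanti : ∀ a ∈ T, ∀ Y ∈ F, ∀ Y' ∈ F, Blev T a Y' ≤ Blev T a Y →
      (Alev T a Y' : ℝ) * (Blev T a Y' : ℝ) ≤ (Alev T a Y : ℝ) * (Blev T a Y : ℝ) := by
    intro a ha Y hY Y' hY' hle
    have h1 := Alev_Blev_fibre S.card ha ((hFmem Y hY).1.trans (hFmem Y' hY').1.symm)
    have h2 : Alev T a Y' ≤ Alev T a Y := by omega
    have h3 : Alev T a Y' * Blev T a Y' ≤ Alev T a Y * Blev T a Y := Nat.mul_le_mul h2 hle
    exact_mod_cast h3
  have C1 := cheb F (fun Y => (Alev T m Y : ℝ) * (Blev T m Y : ℝ))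
    (fun Y => M * (Blev T l Y : ℝ) + s * g l Y) (fun Y => Blev T l Y)
    (hmono l hl) (fun Y hY Y' hY' hle => hanti m hm Y hY Y' hY' (by
      have := hnat Y hY Y' hY'
      omega))
  have C2 := cheb F (fun Y => (Alev T l Y : ℝ) * (Blev T l Y : ℝ))
    (fun Y => M * (Blev T m Y : ℝ) + s * g m Y) (fun Y => Blev T m Y)
    (hmono m hm) (fun Y hY Y' hY' hle => hanti l hl Y hY Y' hY' (by
      have := hnat Y hY Y' hY'
      omega))
  rw [sum_lin, sum_lin', R1 m hm hkm] at C1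
  rw [sum_lin, sum_lin', R1 l hl hkl] at C2
  exact final_real _ _ M s ν _ _ _ _ _ _ _ _ _ _ _ hNpos hWpos C1 C2 R2 R3 R4 R5

theorem Sys.main {T : Finset ι} {ν : ℝ} {g : ι → Tab r c → ℝ} (S : Sys T ν g) (M : ℝ)
    (hM : ∀ a ∈ T, ∀ X Y : Tab r c, key T X = key T Y → Blev T a Y = Blev T a X + 1 →
      |g a Y - g a X| ≤ M)
    {k : ι} (hk : k ∈ T) {X X' : Tab r c} (hkey : key T X = key T X')
    (hB : Blev T k X' = Blev T k X + 1) : ν * |g k X' - g k X| ≤ M := by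
  have hLip := fun a ha => S.lipschitz M hM (a := a) ha
  have h1 := S.main_signed M hLip hk hkey hB 1 (Or.inl rfl)
  have h2 := S.main_signed M hLip hk hkey hB (-1) (Or.inr rfl)
  have hν : 0 < ν := lt_trans zero_lt_one S.one_lt
  rw [← abs_of_pos hν, ← abs_mul, abs_le]
  constructor <;> linarith

/-- rigidity: all three functions are constant on the classes of tables agreeing outside `T` -/
theorem Sys.rigid {T : Finset ι} {ν : ℝ} {g : ι → Tab r c → ℝ} (S : Sys T ν g)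
    {a : ι} (ha : a ∈ T) {X Y : Tab r c} (hkey : key T X = key T Y) : g a X = g a Y := by
  have main := zero_of_contraction
    (fun p : T × Tab r c × Tab r c =>
      if key T p.2.1 = key T p.2.2 ∧ Blev T p.1.1 p.2.2 = Blev T p.1.1 p.2.1 + 1
      then g p.1.1 p.2.2 - g p.1.1 p.2.1 else 0) ν S.one_lt ?_
  · have hM : ∀ a ∈ T, ∀ X Y : Tab r c, key T X = key T Y → Blev T a Y = Blev T a X + 1 →
        |g a Y - g a X| ≤ 0 := by
      intro a ha X Y h1 h2
      have := main (⟨a, ha⟩, X, Y)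
      simp only [h1, h2, and_self, if_true] at this
      rw [this]; simp
    have hLip := S.lipschitz 0 hM ha
    rcases le_total (Blev T a X) (Blev T a Y) with h | h
    · obtain ⟨n, hn⟩ := Nat.exists_eq_add_of_le h
      have := hLip n X Y hkey hn
      rw [zero_mul] at this
      have h0 := abs_eq_zero.mp (le_antisymm this (abs_nonneg _))
      linarith
    · obtain ⟨n, hn⟩ := Nat.exists_eq_add_of_le h
      have := hLip n Y X hkey.symm hn
      rw [zero_mul] at this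
      have h0 := abs_eq_zero.mp (le_antisymm this (abs_nonneg _))
      linarith
  intro M hM
  have hM' : ∀ a ∈ T, ∀ X Y : Tab r c, key T X = key T Y → Blev T a Y = Blev T a X + 1 →
      |g a Y - g a X| ≤ M := by
    intro a ha X Y h1 h2
    have := hM (⟨a, ha⟩, X, Y)
    simpa only [h1, h2, and_self, if_true] using this
  rintro ⟨⟨k, hk⟩, X, Y⟩
  have hM0 : 0 ≤ M := le_trans (abs_nonneg _) (hM (⟨k, hk⟩, X, Y))
  simp only
  split_ifs with h
  · exact S.main M hM' hk h.1 h.2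
  · simpa using hM0

end Vale.Agent.Lib.P335
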